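import Vale.Agent.P046.Clock

/-! Unfolding to a tree with independent clocks. -/

namespace Vale.Agent.P046

open Classical Finset
open scoped BigOperators

noncomputable section

variable {V : Type} [Fintype V]

/-- A state: two edges `u v`, each with an excluded apex `o`. -/
abbrev St (V : Type) := Bool → V × V × V

/-- A label: the side and the apex. -/
abbrev Lab (V : Type) := Bool × V

/-- The label describes a triangle on one of the two edges. -/
def val (G : SimpleGraph V) (σ : St V) (c : Lab V) : Prop :=
  G.Adj (σ c.1).1 (σ c.1).2.1 ∧ G.Adj (σ c.1).1 c.2 ∧ G.Adj (σ c.1).2.1 c.2 ∧ c.2 ≠ (σ c.1).2.2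

/-- The state of the two new edges. -/
def child (σ : St V) (c : Lab V) : St V := fun b =>
  bif b then ((σ c.1).2.1, c.2, (σ c.1).1) else ((σ c.1).1, c.2, (σ c.1).2.1)

/-- The triangle of a label. -/
def triOf (σ : St V) (c : Lab V) : Finset V := {(σ c.1).1, (σ c.1).2.1, c.2}

/-- The valid labels. -/
def kids (G : SimpleGraph V) (σ : St V) : Finset (Lab V) := univ.filter (val G σ)

/-- Belief propagation: the probability on the tree that both edges survive until time `s`. -/
def bp (G : SimpleGraph V) (N : ℕ) (σ : St V) (s : ℕ) : ℝ :=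
  ∏ c ∈ kids G σ, (1 - (∑ t : Fin s, bp G N (child σ c) t) / N)
termination_by s
decreasing_by exact t.2

/-- The probability on the tree that the triangle with child state `σ` is accepted before `s`. -/
def bi (G : SimpleGraph V) (N : ℕ) (σ : St V) (s : ℕ) : ℝ := (∑ t ∈ range s, bp G N σ t) / N

lemma bp_eq (G : SimpleGraph V) (N : ℕ) (σ : St V) (s : ℕ) :
    bp G N σ s = ∏ c ∈ kids G σ, (1 - bi G N (child σ c) s) := by
  rw [bp]
  refine prod_congr rfl fun c _ => ?_
  rw [bi, Fin.sum_univ_eq_sum_range (fun t => bp G N (child σ c) t)]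

/-- The root state of two edges. -/
def root (x y u v : V) : St V := fun b => bif b then (u, v, u) else (x, y, x)

/-- The state of a node; the head of the list is the last step. -/
def st (r : St V) : List (Lab V) → St V
  | [] => r
  | c :: l => child (st r l) c

/-- Both edges of the node `l` survive until time `s` on the tree with clocks `τ`. -/
def pa (G : SimpleGraph V) (r : St V) (τ : List (Lab V) → ℕ) (l : List (Lab V)) (s : ℕ) : Prop :=
  ∀ c, val G (st r l) c → ∀ _ : τ (c :: l) < s, ¬pa G r τ (c :: l) (τ (c :: l))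
termination_by s

omit [Fintype V] in
lemma pa_iff (G : SimpleGraph V) (r : St V) (τ : List (Lab V) → ℕ) (l : List (Lab V)) (s : ℕ) :
    pa G r τ l s ↔ ∀ c, val G (st r l) c → τ (c :: l) < s → ¬pa G r τ (c :: l) (τ (c :: l)) := by
  rw [pa]

/-- The time window of a node. -/
def clk (N : ℕ) (τ : List (Lab V) → ℕ) : List (Lab V) → ℕ
  | [] => N
  | c :: l => τ (c :: l)

/-- Activated nodes. -/
def Act (G : SimpleGraph V) (r : St V) (N : ℕ) (τ : List (Lab V) → ℕ) : List (Lab V) → Prop
  | [] => True
  | c :: l => Act G r N τ l ∧ val G (st r l) c ∧ τ (c :: l) < clk N τ l ∧ pa G r τ l (τ (c :: l))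

/-- Nodes whose clock is read. -/
def Read (G : SimpleGraph V) (r : St V) (N : ℕ) (τ : List (Lab V) → ℕ) : List (Lab V) → Prop
  | [] => False
  | c :: l => Act G r N τ l ∧ val G (st r l) c

/-- The end points of the root edges. -/
def rootV (r : St V) : Set V := {z | ∃ b, z = (r b).1 ∨ z = (r b).2.1}

/-- A collision: the apex of a read node is a root vertex or the apex of another read node. -/
def Bad (G : SimpleGraph V) (r : St V) (N : ℕ) (τ : List (Lab V) → ℕ) : Prop :=
  ∃ c l, Read G r N τ (c :: l) ∧
    (c.2 ∈ rootV r ∨ ∃ c' l', Read G r N τ (c' :: l') ∧ c' :: l' ≠ c :: l ∧ c'.2 = c.2)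

/-- The nodes of the finite tree. -/
abbrev Node (V : Type) (N : ℕ) := {l : List (Lab V) // l.length ≤ N + 1}

instance (N : ℕ) : Fintype (Node V N) := (List.finite_length_le (Lab V) (N + 1)).fintype

/-- Clocks on all lists. -/
def xt {N : ℕ} (ω : Node V N → Fin N) (l : List (Lab V)) : ℕ :=
  if h : l.length ≤ N + 1 then ω ⟨l, h⟩ else 0

/-- The probability of a collision. -/
def badP (G : SimpleGraph V) (r : St V) (N : ℕ) : ℝ :=
  𝔼 ω : Node V N → Fin N, ind (Bad G r N (xt ω))

lemma badP_nonneg (G : SimpleGraph V) (r : St V) (N : ℕ) : 0 ≤ badP G r N :=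
  expect_nonneg fun _ _ => ind_nonneg _

end

end Vale.Agent.P046
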