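import Vale.Agent.P046.Words
import Vale.Agent.P046.Tree

/-! Belief propagation in terms of edge messages. -/

namespace Vale.Agent.P046

open Classical Finset

noncomputable section

variable {V : Type} [Fintype V]

/-- Common neighbours. -/
def cn (G : SimpleGraph V) (x y : V) : Finset V := univ.filter fun z => G.Adj x z ∧ G.Adj y z

/-- The state of the triangle with base `x y` and apex `z`. -/
def cst (x y z : V) : St V := fun b => bif b then (y, z, x) else (x, z, y)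

/-- The acceptance probability of a triangle. -/
def bI (G : SimpleGraph V) (N : ℕ) (x y z : V) (s : ℕ) : ℝ := bi G N (cst x y z) s

/-- The survival probability of one edge. -/
def eE (G : SimpleGraph V) (N : ℕ) (e : V × V × V) (s : ℕ) : ℝ :=
  if G.Adj e.1 e.2.1 then ∏ z ∈ (cn G e.1 e.2.1).erase e.2.2, (1 - bI G N e.1 e.2.1 z s) else 1

/-- The inverse square of the idealised survival probability. -/
def WW (D : ℝ) (N s : ℕ) : ℝ := 1 + 2 * D * s / N

/-- The logarithmic deviation. -/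
def ll (G : SimpleGraph V) (D : ℝ) (N s : ℕ) (x y : V) : ℝ :=
  if G.Adj x y then ∑ z ∈ cn G x y, Real.log (1 - bI G N x y z s) + Real.log (WW D N s) / 2 else 0

lemma mem_cn {G : SimpleGraph V} {x y z : V} : z ∈ cn G x y ↔ G.Adj x z ∧ G.Adj y z := by
  simp [cn]

lemma bp_split (G : SimpleGraph V) (N : ℕ) (σ : St V) (s : ℕ) :
    bp G N σ s = eE G N (σ false) s * eE G N (σ true) s := by
  have key : ∀ b, ∏ z, (if val G σ (b, z) then 1 - bi G N (child σ (b, z)) s else 1) =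
      eE G N (σ b) s := fun b => by
    rw [eE, ← prod_filter]
    split_ifs with h
    · refine prod_congr ?_ fun z _ => rfl
      ext z
      simp only [val, mem_filter, mem_univ, true_and, mem_erase, mem_cn, h]
      tauto
    · rw [filter_false_of_mem fun z _ hz => h hz.1, prod_empty]
  rw [bp_eq, kids, prod_filter, Fintype.prod_prod_type, Fintype.prod_bool, key, key, mul_comm]

lemma bI_succ (G : SimpleGraph V) (N : ℕ) (x y z : V) (s : ℕ) :
    bI G N x y z (s + 1) = bI G N x y z s + bp G N (cst x y z) s / N := by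
  simp only [bI, bi, sum_range_succ, add_div]

lemma sum_XX (G : SimpleGraph V) (x y : V) (f : V → ℝ) :
    ∑ w, X G x w * X G y w * f w = ∑ w ∈ cn G x y, f w := by
  rw [cn, sum_filter]
  refine sum_congr rfl fun w _ => ?_
  rw [X, X, ← ind_and]
  split_ifs with h
  · rw [ind_pos h, one_mul]
  · rw [ind_neg h, zero_mul]

lemma card_cn {G : SimpleGraph V} {q : ℝ} (hq : 0 < q) (hn : 0 < nV V) (x y : V) :
    ((cn G x y).card : ℝ) = (1 + zeta G q x y) * (nV V * q ^ 2) := by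
  have h := sum_XX G x y fun _ => 1 / q ^ 2
  have e : ∑ w, Xh G q x w * Xh G q y w = ∑ w, X G x w * X G y w * (1 / q ^ 2) :=
    sum_congr rfl fun w _ => by simp only [Xh]; ring
  rw [zeta, av, e, h, sum_const, nsmul_eq_mul]
  field_simp
  ring

lemma Kop_eq {G : SimpleGraph V} {q : ℝ} (hq : 0 < q) (hn : 0 < nV V) (h : V → V → ℝ) (x y : V) :
    ∑ z ∈ cn G x y, (h x z + h y z) = Kop G q h x y * (nV V * q ^ 2) := by
  have e : ∑ w, Xh G q x w * Xh G q y w * (h x w + h y w) =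
      ∑ w, X G x w * X G y w * ((h x w + h y w) / q ^ 2) :=
    sum_congr rfl fun w _ => by simp only [Xh]; ring
  rw [Kop, av, e, sum_XX, ← sum_div]
  field_simp

section Prod

variable {G : SimpleGraph V} {D : ℝ} {N s : ℕ}

lemma prod_cn (hI : ∀ x y z, G.Adj x y → G.Adj x z → G.Adj y z → bI G N x y z s < 1) {x y : V}
    (h : G.Adj x y) : ∏ z ∈ cn G x y, (1 - bI G N x y z s) =
      Real.exp (ll G D N s x y - Real.log (WW D N s) / 2) := by
  rw [ll, if_pos h, add_sub_cancel_right, Real.exp_sum]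
  exact prod_congr rfl fun z hz =>
    (Real.exp_log (sub_pos.2 (hI x y z h (mem_cn.1 hz).1 (mem_cn.1 hz).2))).symm

lemma eE_root (hI : ∀ x y z, G.Adj x y → G.Adj x z → G.Adj y z → bI G N x y z s < 1) {x y : V}
    (h : G.Adj x y) : eE G N (x, y, x) s = Real.exp (ll G D N s x y - Real.log (WW D N s) / 2) := by
  rw [eE, if_pos h, erase_eq_of_notMem fun hx => (mem_cn.1 hx).1.ne rfl, prod_cn hI h]

lemma eE_tri (hI : ∀ x y z, G.Adj x y → G.Adj x z → G.Adj y z → bI G N x y z s < 1) {x y z : V}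
    (h1 : G.Adj x y) (h2 : G.Adj x z) (h3 : G.Adj y z) : eE G N (x, y, z) s =
      Real.exp (ll G D N s x y - Real.log (WW D N s) / 2) / (1 - bI G N x y z s) := by
  rw [eE, if_pos h1, ← prod_cn hI h1, ← mul_prod_erase _ _ (mem_cn.2 ⟨h2, h3⟩),
    mul_div_cancel_left₀ _ (sub_pos.2 (hI x y z h1 h2 h3)).ne']

lemma bp_cst (hI : ∀ x y z, G.Adj x y → G.Adj x z → G.Adj y z → bI G N x y z s < 1)
    (hW : 0 < WW D N s) {x y z : V} (h1 : G.Adj x y) (h2 : G.Adj x z) (h3 : G.Adj y z) :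
    bp G N (cst x y z) s = Real.exp (ll G D N s x z + ll G D N s y z) /
      ((1 - bI G N x z y s) * (1 - bI G N y z x s)) / WW D N s := by
  rw [bp_split]
  change eE G N (x, z, y) s * eE G N (y, z, x) s = _
  rw [eE_tri (D := D) hI h2 h1 h3.symm, eE_tri (D := D) hI h3 h1.symm h2.symm, div_mul_div_comm,
    ← Real.exp_add, div_right_comm, ← Real.exp_log hW, ← Real.exp_sub, Real.log_exp]
  congr 2
  ring

end Prod

lemma beta_est {L I J e : ℝ} (he : e ≤ 1 / 100) (hL : L ^ 2 ≤ 4 * e) (hI0 : 0 ≤ I) (hI : I ≤ e)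
    (hJ0 : 0 ≤ J) (hJ : J ≤ e) :
    0 ≤ Real.exp L / ((1 - I) * (1 - J)) ∧ Real.exp L / ((1 - I) * (1 - J)) ≤ 3 / 2 ∧
      |Real.exp L / ((1 - I) * (1 - J)) - 1 - L| ≤ 8 * e := by
  have h1 : |L| ≤ 1 / 5 := abs_le_of_sq_le_sq (by linarith) (by norm_num)
  have h2 := Real.abs_exp_sub_one_sub_id_le (h1.trans (by norm_num))
  have h3 := Real.exp_pos L
  rw [abs_le] at h1 h2
  have h4 : 1 - 2 * e ≤ (1 - I) * (1 - J) := by nlinarith
  have h5 : (1 - I) * (1 - J) ≤ 1 := by nlinarith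
  have h6 : 0 < (1 - I) * (1 - J) := by linarith
  have h7 : Real.exp L ≤ Real.exp L / ((1 - I) * (1 - J)) := le_div_self h3.le h6 h5
  have h8 : Real.exp L / ((1 - I) * (1 - J)) ≤ Real.exp L + 4 * e := by
    rw [div_le_iff₀ h6]
    nlinarith
  refine ⟨by positivity, by linarith, abs_le.2 ⟨by linarith, by linarith⟩⟩

lemma incr_est {L I β κ e : ℝ} (he : e ≤ 1 / 100) (hI0 : 0 ≤ I) (hI : I ≤ e) (hκ0 : 0 ≤ κ)
    (hκ : κ ≤ e) (hβ0 : 0 ≤ β) (hβ : β ≤ 3 / 2) (hβ' : |β - 1 - L| ≤ 8 * e) :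
    |Real.log (1 - (I + κ * β)) - Real.log (1 - I) + κ * (1 + L)| ≤ 20 * e * κ := by
  have h1 : 0 < 1 - I := by linarith
  obtain ⟨ρ, hρ⟩ : ∃ ρ, ρ = β / (1 - I) := ⟨_, rfl⟩
  have r1 : β ≤ ρ := hρ ▸ le_div_self hβ0 h1 (by linarith)
  have r2 : ρ ≤ β + 2 * e := by
    rw [hρ, div_le_iff₀ h1]
    nlinarith
  have r3 : κ * ρ ≤ 2 * e := by nlinarith
  have r4 : 0 ≤ κ * ρ := mul_nonneg hκ0 (hβ0.trans r1)
  have h2 : 0 < 1 - κ * ρ := by linarith
  have e1 : 1 - (I + κ * β) = (1 - I) * (1 - κ * ρ) := by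
    rw [hρ]
    field_simp
    ring
  rw [e1, Real.log_mul h1.ne' h2.ne', add_sub_cancel_left]
  have a1 := Real.log_le_sub_one_of_pos h2
  have a2 := Real.one_sub_inv_le_log_of_pos h2
  have a3 : (1 - κ * ρ)⁻¹ ≤ 1 + κ * ρ + 2 * (κ * ρ) ^ 2 := by
    rw [inv_le_iff_one_le_mul₀ h2]
    nlinarith [mul_nonneg (sq_nonneg (κ * ρ)) (by linarith : 0 ≤ 1 - 2 * (κ * ρ))]
  have a4 : (κ * ρ) ^ 2 ≤ 4 * e * κ := by
    have : κ * ρ ≤ 2 * κ := by nlinarith
    nlinarith
  rw [abs_le] at hβ' ⊢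
  have a5 := mul_le_mul_of_nonneg_left (by linarith : ρ - 1 - L ≤ 10 * e) hκ0
  have a6 := mul_le_mul_of_nonneg_left (by linarith : -(8 * e) ≤ ρ - 1 - L) hκ0
  have a7 : 0 ≤ e * κ := mul_nonneg (hI0.trans hI) hκ0
  constructor <;> nlinarith

lemma log_WW_succ {D : ℝ} (hD : 0 ≤ D) {N : ℕ} (hN : 0 < N) (s : ℕ) :
    Real.log (WW D N (s + 1)) = Real.log (WW D N s) + Real.log (1 + 2 * (D / (N * WW D N s))) := by
  have hN' : (0 : ℝ) < N := by exact_mod_cast hN
  have hW : 0 < WW D N s := by unfold WW; positivity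
  rw [← Real.log_mul hW.ne' (by positivity)]
  refine congrArg _ ?_
  rw [mul_add, mul_one, WW.eq_1 D N (s + 1)]
  have : WW D N s * (2 * (D / (N * WW D N s))) = 2 * D / N := by field_simp
  rw [this, WW]
  push_cast
  ring

lemma log_two_mul {d : ℝ} (h0 : 0 ≤ d) :
    2 * d - 4 * d ^ 2 ≤ Real.log (1 + 2 * d) ∧ Real.log (1 + 2 * d) ≤ 2 * d := by
  have h1 : 0 < 1 + 2 * d := by positivity
  have a1 := Real.log_le_sub_one_of_pos h1
  have a2 := Real.one_sub_inv_le_log_of_pos h1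
  have a3 : (1 + 2 * d)⁻¹ ≤ 1 - 2 * d + 4 * d ^ 2 := by
    rw [inv_le_iff_one_le_mul₀ h1]
    nlinarith [pow_nonneg h0 3]
  constructor <;> linarith

/-- One step of the messages. -/
lemma ll_step {G : SimpleGraph V} {q e : ℝ} {N s : ℕ} (hq : 0 < q) (hn : 0 < nV V) (hN : 0 < N)
    (he : e ≤ 1 / 100) (hR : Reg G q e) (hκ : 1 / (N : ℝ) ≤ e) (hd : nV V * q ^ 2 / N ≤ e)
    (hI : ∀ x y z, G.Adj x y → G.Adj x z → G.Adj y z →
      0 ≤ bI G N x y z s ∧ bI G N x y z s ≤ e)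
    (hl : ∀ x y, G.Adj x y → ll G (nV V * q ^ 2) N s x y ^ 2 ≤ e) :
    (∀ x y z, G.Adj x y → G.Adj x z → G.Adj y z → 0 ≤ bp G N (cst x y z) s ∧
      bp G N (cst x y z) s ≤ 3 / 2 / WW (nV V * q ^ 2) N s) ∧
    ∀ x y, G.Adj x y → |ll G (nV V * q ^ 2) N (s + 1) x y - ll G (nV V * q ^ 2) N s x y +
      nV V * q ^ 2 / (N * WW (nV V * q ^ 2) N s) * Kop G q (ll G (nV V * q ^ 2) N s) x y| ≤
        100 * e * (nV V * q ^ 2 / (N * WW (nV V * q ^ 2) N s)) := by
  set D := nV V * q ^ 2 with hD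
  have hD0 : 0 < D := by positivity
  have hN' : (0 : ℝ) < N := by exact_mod_cast hN
  have hW1 : 1 ≤ WW D N s := le_add_of_nonneg_right (by positivity)
  have hW : 0 < WW D N s := by linarith
  have hI1 : ∀ x y z, G.Adj x y → G.Adj x z → G.Adj y z → bI G N x y z s < 1 :=
    fun x y z h1 h2 h3 => by linarith [(hI x y z h1 h2 h3).2]
  have hβ := fun x y z (h1 : G.Adj x y) (h2 : G.Adj x z) (h3 : G.Adj y z) =>
    beta_est (L := ll G D N s x z + ll G D N s y z) he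
      (by nlinarith [hl x z h2, hl y z h3, sq_nonneg (ll G D N s x z - ll G D N s y z)])
      (hI x z y h2 h1 h3.symm).1 (hI x z y h2 h1 h3.symm).2
      (hI y z x h3 h1.symm h2.symm).1 (hI y z x h3 h1.symm h2.symm).2
  refine ⟨fun x y z h1 h2 h3 => ?_, fun x y h => ?_⟩
  · rw [bp_cst hI1 hW h1 h2 h3]
    exact ⟨div_nonneg (hβ x y z h1 h2 h3).1 hW.le,
      div_le_div_of_nonneg_right (hβ x y z h1 h2 h3).2.1 hW.le⟩
  obtain ⟨κ, hκd⟩ : ∃ κ, κ = 1 / (N * WW D N s) := ⟨_, rfl⟩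
  have k0 : 0 ≤ κ := by rw [hκd]; positivity
  have k1 : κ ≤ 1 / N := by
    rw [hκd]
    exact one_div_le_one_div_of_le hN' (le_mul_of_one_le_right hN'.le hW1)
  have k2 : D / (N * WW D N s) = D * κ := by rw [hκd, mul_one_div]
  have k3 : D * κ ≤ e := le_trans (by rw [← mul_one_div]; gcongr) hd
  have k4 : 0 ≤ D * κ := by positivity
  have a1 : ∀ z ∈ cn G x y, |Real.log (1 - bI G N x y z (s + 1)) - Real.log (1 - bI G N x y z s) +
      κ * (1 + (ll G D N s x z + ll G D N s y z))| ≤ 20 * e * κ := fun z hz => by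
    obtain ⟨h2, h3⟩ := mem_cn.1 hz
    obtain ⟨b1, b2, b3⟩ := hβ x y z h h2 h3
    have := incr_est he (hI x y z h h2 h3).1 (hI x y z h h2 h3).2 k0 (k1.trans hκ) b1 b2 b3
    rwa [bI_succ, bp_cst hI1 hW h h2 h3, div_div _ (WW D N s), mul_comm (WW D N s),
      ← mul_one_div _ (N * WW D N s), ← hκd, mul_comm _ κ]
  have a2 := (abs_sum_le_sum_abs _ _).trans (sum_le_card_nsmul _ _ _ a1)
  rw [sum_add_distrib, sum_sub_distrib, ← mul_sum, sum_add_distrib, Kop_eq hq hn, sum_const,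
    nsmul_eq_mul, nsmul_eq_mul, card_cn hq hn, ← hD, mul_one] at a2
  have a3 := abs_le.1 (hR.2 x y h.ne)
  obtain ⟨a4, a5⟩ := log_two_mul k4
  rw [ll, if_pos h, log_WW_succ hD0.le hN, k2]
  nth_rewrite 1 [ll]
  rw [if_pos h]
  have a6 := mul_le_mul_of_nonneg_left a3.1 k4
  have a7 := mul_le_mul_of_nonneg_left a3.2 k4
  have a8 := mul_le_mul_of_nonneg_left k3 k4
  have he0 : 0 ≤ e := k4.trans k3
  have a9 : (1 + zeta G q x y) * D * (20 * e * κ) ≤ 40 * e * (D * κ) := by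
    have := mul_le_mul_of_nonneg_left (by linarith : 1 + zeta G q x y ≤ 2)
      (mul_nonneg he0 k4)
    nlinarith
  have a10 := mul_nonneg he0 k4
  rw [abs_le] at a2 ⊢
  constructor <;> nlinarith [a2.1, a2.2]

end

end Vale.Agent.P046
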