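import Vale.Agent.P046.TreeBA

/-! Probability that given nodes are activated. -/

namespace Vale.Agent.P046

open Classical Finset
open scoped BigOperators

variable {V : Type} [Fintype V]

/-- Upper bound for the survival probability of a non-root node with one child removed. -/
def Hbp (G : SimpleGraph V) (N : ℕ) (a : ℕ → ℝ) : Prop :=
  ∀ σ c, val G σ c → ∀ c', ∀ t < N,
    ∏ d ∈ (kids G (child σ c)).erase c', (1 - bi G N (child (child σ c) d) t) ≤ a t

/-- The survival event with the child `d` removed. -/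
def Sv (G : SimpleGraph V) (r : St V) (τ : List (Lab V) → ℕ) (m : List (Lab V)) (d : Lab V)
    (t : ℕ) : Prop :=
  ∀ c ∈ (kids G (st r m)).erase d, τ (c :: m) < t → ¬pa G r τ (c :: m) (τ (c :: m))

lemma sv_dep (G : SimpleGraph V) (r : St V) (N : ℕ) (m : List (Lab V)) (d : Lab V) (t : ℕ) :
    DependsOn (fun ω : Node V N → Fin N => ind (Sv G r (xt ω) m d t))
      {x | ∃ c, c ≠ d ∧ c :: m <:+ x.1} := by
  intro ω ω' h
  refine ind_congr (forall_congr' fun c => imp_congr_right fun hc => ?_)
  have hcd : c ≠ d := (mem_erase.mp hc).1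
  have h1 : ∀ x, c :: m <:+ x → xt ω x = xt ω' x := fun x hx =>
    xt_congrB (P := fun x => ∃ c, c ≠ d ∧ c :: m <:+ x) h ⟨c, hcd, hx⟩
  rw [← h1 _ (List.suffix_refl _), pa_congrB G r _ (c :: m) fun x hx _ => h1 x hx]

lemma expect_pth (G : SimpleGraph V) (r : St V) {N : ℕ} (hN : 0 < N) {a : ℕ → ℝ} {θ : ℝ}
    (hθ : 1 ≤ θ) (ha0 : ∀ t, 0 ≤ a t) (ha : Hbp G N a) (q : List (Lab V)) :
    ∀ (c : Lab V) (l : List (Lab V)) (s : ℕ) (ψ : (Node V N → Fin N) → ℝ), val G (st r l) c →
      l.length + 1 + s ≤ N → (∀ ω, 0 ≤ ψ ω) → DependsOn ψ (Dn N (q.reverse ++ c :: l)) →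
      𝔼 ω, ind (Pth G r (xt ω) q (c :: l) s) * ψ ω ≤ (𝔼 ω, ψ ω) * gr N a θ s / θ ^ q.length := by
  have hθ0 : 0 < θ := by linarith
  induction q with
  | nil =>
    intro c l s ψ _ _ h0 _
    have h1 : 0 ≤ 𝔼 ω, ψ ω := expect_nonneg fun ω _ => h0 ω
    have h2 := one_le_gr N hθ0.le ha0 s
    simp only [Pth, ind_pos trivial, one_mul, List.length_nil, pow_zero, div_one]
    nlinarith
  | cons d q ih =>
    intro c l s ψ hc hs h0 hψ
    have hE : 0 ≤ 𝔼 ω, ψ ω := expect_nonneg fun ω _ => h0 ω
    have hg := one_le_gr N hθ0.le ha0 s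
    by_cases hd : val G (st r (c :: l)) d
    swap
    · have : ∀ ω : Node V N → Fin N, ind (Pth G r (xt ω) (d :: q) (c :: l) s) * ψ ω = 0 :=
        fun ω => by rw [ind_neg fun h => hd h.1, zero_mul]
      simp only [this, expect_const_zero]
      positivity
    rw [List.reverse_cons, List.append_assoc, List.singleton_append] at hψ
    have hlen : (d :: c :: l).length ≤ N + 1 := by simp only [List.length_cons]; omega
    have key : ∀ ω : Node V N → Fin N, ind (Pth G r (xt ω) (d :: q) (c :: l) s) * ψ ω ≤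
        ∑ t ∈ range s, ind (xt ω (d :: c :: l) = t) * (ind (Sv G r (xt ω) (c :: l) d t) *
          (ind (Pth G r (xt ω) q (d :: c :: l) t) * ψ ω)) := by
      intro ω
      have hn : ∀ t ∈ range s, 0 ≤ ind (xt ω (d :: c :: l) = t) *
          (ind (Sv G r (xt ω) (c :: l) d t) * (ind (Pth G r (xt ω) q (d :: c :: l) t) * ψ ω)) :=
        fun t _ => mul_nonneg (ind_nonneg _) (mul_nonneg (ind_nonneg _)
          (mul_nonneg (ind_nonneg _) (h0 ω)))
      by_cases h : Pth G r (xt ω) (d :: q) (c :: l) s
      · refine le_trans ?_ (single_le_sum hn (mem_range.mpr h.2.1))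
        have h1 : Sv G r (xt ω) (c :: l) d (xt ω (d :: c :: l)) := fun e he =>
          (pa_iff G r _ _ _).mp h.2.2.1 e (mem_filter.mp (mem_erase.mp he).2).2
        rw [ind_pos h, ind_pos rfl, ind_pos h1, ind_pos h.2.2.2]
        simp
      · rw [ind_neg h, zero_mul]
        exact sum_nonneg hn
    refine (expect_le_expect fun ω _ => key ω).trans ?_
    rw [expect_sum_comm]
    have step : ∀ t ∈ range s, 𝔼 ω : Node V N → Fin N, ind (xt ω (d :: c :: l) = t) *
        (ind (Sv G r (xt ω) (c :: l) d t) * (ind (Pth G r (xt ω) q (d :: c :: l) t) * ψ ω)) ≤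
        (𝔼 ω, ψ ω) / θ ^ q.length * (a t / N * gr N a θ t) := by
      intro t ht
      have ht' : t < s := mem_range.mp ht
      have htN : t < N := by omega
      have d3 : DependsOn (fun ω : Node V N → Fin N =>
          ind (Pth G r (xt ω) q (d :: c :: l) t) * ψ ω) (Dn N (d :: c :: l)) := by
        intro ω ω' h
        show _ * _ = _ * _
        rw [ind_congr (pth_congr G r q _ t (agr_of_Dn h)),
          hψ fun x hx => h x (Dn_mono N _ _ hx)]
      have d2 := sv_dep G r N (c :: l) d t
      have d23 : DependsOn (fun ω : Node V N → Fin N => ind (Sv G r (xt ω) (c :: l) d t) *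
          (ind (Pth G r (xt ω) q (d :: c :: l) t) * ψ ω)) {x | x.1 ≠ d :: c :: l} := by
        intro ω ω' h
        have e2 := d2 (x := ω) (y := ω') fun x ⟨e, he, hx⟩ => h x fun h' =>
          he (eq_of_suffix hx (h' ▸ List.suffix_refl _))
        have e3 := d3 (x := ω) (y := ω') fun x hx => h x fun h' => by
          have := hx.2
          rw [h'] at this
          exact lt_irrefl _ this
        show _ * _ = _ * _
        exact congrArg₂ (· * ·) e2 e3
      have d1 : DependsOn (fun ω : Node V N → Fin N => ind (xt ω (d :: c :: l) = t))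
          {x | x.1 = d :: c :: l} := by
        intro ω ω' h
        show ind _ = ind _
        rw [xt_congrB (P := fun x => x = d :: c :: l) h rfl]
      rw [expect_mul_indep' d1 d23 (Set.disjoint_left.mpr fun x h1 h2 => h2 h1),
        expect_mul_indep' d2 d3 (Set.disjoint_left.mpr fun x ⟨e, he, hx⟩ h2 =>
          he (eq_of_suffix hx h2.1))]
      have e1 : 𝔼 ω : Node V N → Fin N, ind (xt ω (d :: c :: l) = t) = 1 / (N : ℝ) := by
        have := expect_coord' (i := inferInstance) (⟨d :: c :: l, hlen⟩ : Node V N) (⟨t, htN⟩ : Fin N)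
        rw [Fintype.card_fin] at this
        rw [← this]
        refine expect_congr rfl fun ω _ => ind_congr ?_
        rw [xt, dif_pos hlen, Fin.ext_iff]
      have e2 : 𝔼 ω : Node V N → Fin N, ind (Sv G r (xt ω) (c :: l) d t) ≤ a t := by
        have := expect_pa G r hN (c :: l) t htN.le (by simp only [List.length_cons]; omega)
          ((kids G (st r (c :: l))).erase d)
        exact this.le.trans (ha (st r l) c hc d t htN)
      have e3 := ih d (c :: l) t ψ hd (by simp only [List.length_cons]; omega) h0 hψ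
      have e4 : 0 ≤ 𝔼 ω : Node V N → Fin N, ind (Pth G r (xt ω) q (d :: c :: l) t) * ψ ω :=
        expect_nonneg fun ω _ => mul_nonneg (ind_nonneg _) (h0 ω)
      rw [e1]
      calc _ ≤ 1 / (N : ℝ) * (a t * ((𝔼 ω, ψ ω) * gr N a θ t / θ ^ q.length)) := by
            gcongr
            exact ha0 t
        _ = _ := by ring
    refine (sum_le_sum step).trans ?_
    rw [← mul_sum]
    have h1 := sum_gr N a θ s
    have h2 : ∑ t ∈ range s, a t / N * gr N a θ t ≤ gr N a θ s / θ := by
      rw [le_div_iff₀ hθ0]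
      linarith
    calc _ ≤ (𝔼 ω, ψ ω) / θ ^ q.length * (gr N a θ s / θ) := by gcongr
      _ = _ := by rw [List.length_cons, pow_succ]; field_simp

/-- A branch below `l` whose first step is not constrained by the clocks. -/
def Br (G : SimpleGraph V) (r : St V) (N : ℕ) (τ : List (Lab V) → ℕ) (l : List (Lab V)) :
    List (Lab V) → Prop
  | [] => True
  | c :: q => val G (st r l) c ∧ l.length + 1 ≤ N ∧ Pth G r τ q (c :: l) (N - (l.length + 1))

omit [Fintype V] in
lemma br_of_act {G : SimpleGraph V} {r : St V} {N : ℕ} {τ : List (Lab V) → ℕ}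
    {q l : List (Lab V)} (h : Act G r N τ (q.reverse ++ l)) : Br G r N τ l q := by
  cases q with
  | nil => trivial
  | cons c q =>
    rw [List.reverse_cons, List.append_assoc, List.singleton_append] at h
    obtain ⟨h1, h2⟩ := act_append q _ h
    have h3 := h1.len
    simp only [List.length_cons] at h3
    exact ⟨h1.2.1, by omega, h2.mono (by omega)⟩

/-- The support of a branch. -/
def Sb (N : ℕ) (l : List (Lab V)) : List (Lab V) → Set (Node V N)
  | [] => ∅
  | c :: _ => Dn N (c :: l)

omit [Fintype V] in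
lemma br_dep (G : SimpleGraph V) (r : St V) (N : ℕ) (l q : List (Lab V)) :
    DependsOn (fun ω : Node V N → Fin N => ind (Br G r N (xt ω) l q)) (Sb N l q) := by
  intro ω ω' h
  cases q with
  | nil => rfl
  | cons c q =>
    refine ind_congr ?_
    simp only [Br]
    rw [pth_congr G r q _ _ (agr_of_Dn h)]

omit [Fintype V] in
lemma Sb_subset (N : ℕ) (l q : List (Lab V)) : Sb N l q ⊆ Dn N l := by
  cases q with
  | nil => exact Set.empty_subset _
  | cons c q => exact Dn_mono N [c] l

lemma expect_br (G : SimpleGraph V) (r : St V) {N : ℕ} (hN : 0 < N) {a : ℕ → ℝ} {θ : ℝ}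
    (hθ : 1 ≤ θ) (ha0 : ∀ t, 0 ≤ a t) (ha : Hbp G N a) (q l : List (Lab V))
    (ψ : (Node V N → Fin N) → ℝ) (h0 : ∀ ω, 0 ≤ ψ ω) (hψ : DependsOn ψ (Dn N (q.reverse ++ l))) :
    𝔼 ω, ind (Br G r N (xt ω) l q) * ψ ω ≤ (𝔼 ω, ψ ω) * (θ * gr N a θ N) / θ ^ q.length := by
  have hθ0 : 0 < θ := by linarith
  have hE : 0 ≤ 𝔼 ω, ψ ω := expect_nonneg fun ω _ => h0 ω
  have hg := one_le_gr N hθ0.le ha0 N
  cases q with
  | nil =>
    simp only [Br, ind_pos trivial, one_mul, List.length_nil, pow_zero, div_one]
    have : 1 ≤ θ * gr N a θ N := by nlinarith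
    nlinarith
  | cons c q =>
    by_cases h : val G (st r l) c ∧ l.length + 1 ≤ N
    swap
    · have : ∀ ω : Node V N → Fin N, ind (Br G r N (xt ω) l (c :: q)) * ψ ω = 0 :=
        fun ω => by rw [ind_neg fun h' => h ⟨h'.1, h'.2.1⟩, zero_mul]
      simp only [this, expect_const_zero]
      positivity
    rw [List.reverse_cons, List.append_assoc, List.singleton_append] at hψ
    have h1 := expect_pth G r hN hθ ha0 ha q c l (N - (l.length + 1)) ψ h.1 (by omega) h0 hψ
    have h2 : gr N a θ (N - (l.length + 1)) ≤ gr N a θ N := gr_mono N hθ0.le ha0 (by omega)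
    calc _ ≤ 𝔼 ω, ind (Pth G r (xt ω) q (c :: l) (N - (l.length + 1))) * ψ ω :=
          expect_le_expect fun ω _ => mul_le_mul_of_nonneg_right (ind_mono fun h' => h'.2.2) (h0 ω)
      _ ≤ _ := h1
      _ ≤ (𝔼 ω, ψ ω) * gr N a θ N / θ ^ q.length := by gcongr
      _ = _ := by rw [List.length_cons, pow_succ]; field_simp

theorem act_two (G : SimpleGraph V) (r : St V) {N : ℕ} (hN : 0 < N) {a : ℕ → ℝ} {θ : ℝ}
    (hθ : 1 ≤ θ) (ha0 : ∀ t, 0 ≤ a t) (ha : Hbp G N a) (l p p' : List (Lab V))
    (hp : p = [] ∨ p' = [] ∨ p.getLast? ≠ p'.getLast?) :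
    𝔼 ω : Node V N → Fin N, ind (Act G r N (xt ω) (p ++ l) ∧ Act G r N (xt ω) (p' ++ l)) ≤
      (θ * ∏ t ∈ range N, (1 + θ * a t / N)) ^ 3 / θ ^ (l.length + p.length + p'.length) := by
  have hθ0 : 0 < θ := by linarith
  have hg := one_le_gr N hθ0.le ha0 N
  have : Nonempty (Fin N) := ⟨⟨0, hN⟩⟩
  have one : ∀ q : List (Lab V), 𝔼 ω : Node V N → Fin N, ind (Br G r N (xt ω) l q) ≤
      θ * gr N a θ N / θ ^ q.length := by
    intro q
    have := expect_br G r hN hθ ha0 ha q l (fun _ => 1) (fun _ => zero_le_one) fun _ _ _ => rfl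
    simpa using this
  have hdis : Disjoint (Sb N l p.reverse) (Sb N l p'.reverse) := by
    rw [← List.head?_reverse, ← List.head?_reverse, ← List.reverse_eq_nil_iff,
      ← List.reverse_eq_nil_iff (xs := p')] at hp
    generalize p.reverse = q at hp
    generalize p'.reverse = q' at hp
    cases q with
    | nil => exact Set.empty_disjoint _
    | cons c q =>
      cases q' with
      | nil => exact Set.disjoint_empty _
      | cons c' q' =>
        refine Set.disjoint_left.mpr fun x h1 h2 => ?_
        have := eq_of_suffix h1.1 h2.1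
        simp [this] at hp
  have two : 𝔼 ω : Node V N → Fin N, ind (Br G r N (xt ω) l p.reverse) *
      ind (Br G r N (xt ω) l p'.reverse) ≤
      θ * gr N a θ N / θ ^ p.length * (θ * gr N a θ N / θ ^ p'.length) := by
    rw [expect_mul_indep' (br_dep G r N l _) (br_dep G r N l _) hdis]
    have h1 := one p.reverse
    have h2 := one p'.reverse
    rw [List.length_reverse] at h1 h2
    exact mul_le_mul h1 h2 (expect_nonneg fun _ _ => ind_nonneg _) (by positivity)
  have three := expect_br G r hN hθ ha0 ha l.reverse []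
    (fun ω => ind (Br G r N (xt ω) l p.reverse) * ind (Br G r N (xt ω) l p'.reverse))
    (fun ω => mul_nonneg (ind_nonneg _) (ind_nonneg _)) (by
      intro ω ω' h
      rw [List.reverse_reverse, List.append_nil] at h
      exact congrArg₂ (· * ·) (br_dep G r N l _ fun x hx => h x (Sb_subset N l _ hx))
        (br_dep G r N l _ fun x hx => h x (Sb_subset N l _ hx)))
  calc _ ≤ 𝔼 ω : Node V N → Fin N, ind (Br G r N (xt ω) [] l.reverse) *
        (ind (Br G r N (xt ω) l p.reverse) * ind (Br G r N (xt ω) l p'.reverse)) := by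
        refine expect_le_expect fun ω _ => ?_
        rw [← ind_and, ← ind_and]
        refine ind_mono fun h => ?_
        have h1 : Act G r N (xt ω) (p.reverse.reverse ++ l) := by simpa using h.1
        have h2 : Act G r N (xt ω) (p'.reverse.reverse ++ l) := by simpa using h.2
        have h3 : Act G r N (xt ω) (l.reverse.reverse ++ []) := by
          simpa using (act_append _ _ h1).1
        exact ⟨br_of_act h3, br_of_act h1, br_of_act h2⟩
    _ ≤ _ := three
    _ ≤ θ * gr N a θ N / θ ^ p.length * (θ * gr N a θ N / θ ^ p'.length) * (θ * gr N a θ N) /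
        θ ^ l.reverse.length := by gcongr
    _ = _ := by
        rw [List.length_reverse, pow_add, pow_add, gr]
        field_simp

end Vale.Agent.P046
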