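import Vale.Agent.P046.Good
import Vale.Agent.P046.TreeB
import Vale.Agent.P046.BPA

/-! Stability of belief propagation. -/

namespace Vale.Agent.P046

open Classical Finset

lemma words_unif (J : ℕ) : ∃ w K : ℝ, 0 < w ∧ 1 ≤ K ∧
    ∀ Ω ∈ words J, Val Ω ∧ w ≤ wt Ω ∧ (6 : ℝ) ^ Ω.length ≤ K :=
  ⟨(1 / 320) ^ (2 * J), 6 ^ (2 * J), by positivity, one_le_pow₀ (by norm_num), fun _ h =>
    ⟨(words_spec h).1, (words_spec h).2.2, pow_le_pow_right₀ (by norm_num) (words_spec h).2.1⟩⟩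

variable {V : Type} [Fintype V]

/-- The invariant of the recursion. -/
structure BInv (G : SimpleGraph V) (q y : ℝ) (N s : ℕ) : Prop where
  acc : ∀ x z w, G.Adj x z → G.Adj x w → G.Adj z w → 0 ≤ bI G N x z w s ∧
    bI G N x z w s ≤ 2 * Real.log (WW (nV V * q ^ 2) N s) / (nV V * q ^ 2)
  wrd : ∀ Ω ∈ words 2100, ∀ a b, G.Adj a b → |ev G q Ω (ll G (nV V * q ^ 2) N s) a b| ≤
    wt Ω * (Real.exp (Real.log (WW (nV V * q ^ 2) N s) / 32) / y ^ 3)
  avg : |mean G q (ll G (nV V * q ^ 2) N s)| ≤ 2000 * (1 / y ^ 4)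

/-- The standing hypotheses. -/
structure BPar (G : SimpleGraph V) (q y : ℝ) (N : ℕ) : Prop where
  y10 : 10 ≤ y
  card : nV V = y ^ 2000
  q0 : 0 < q
  q1 : q ≤ 1
  lo : y ^ 16 ≤ nV V * q ^ 2
  hi : nV V * q ^ 2 ≤ 2 * y ^ 16
  big : y ^ 40 ≤ N
  reg : Reg G q (1 / y ^ 6)
  spec : Spec G q (1 / y)

variable {G : SimpleGraph V} {q y : ℝ} {N s : ℕ}

lemma binv_zero (hy : 0 < y) : BInv G q y N 0 := by
  have e : ll G (nV V * q ^ 2) N 0 = fun _ _ => 0 * 0 := by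
    ext a b
    simp [ll, bI, bi, WW]
  refine ⟨fun x z w _ _ _ => by simp [bI, bi, WW], fun Ω _ a b _ => ?_, ?_⟩
  · rw [e, ev_mul G q Ω 0 (fun _ _ => 0), zero_mul, abs_zero]
    have := wt_pos Ω
    positivity
  · rw [e]
    simp only [mean, av, mul_zero, sum_const_zero, zero_div, abs_zero]
    positivity

lemma BPar.pos (h : BPar G q y N) : 0 < y ∧ 0 < nV V ∧ 0 < N ∧ 1 / y ^ 4 ≤ 1 / 100 ∧
    Reg G q (1 / y ^ 4) ∧ 1 / (N : ℝ) ≤ 1 / y ^ 4 ∧ nV V * q ^ 2 / N ≤ 1 / y ^ 4 := by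
  have y1 : 1 ≤ y := by linarith [h.y10]
  have y0 : 0 < y := by linarith
  have n0 : (0 : ℝ) < N := lt_of_lt_of_le (by positivity) h.big
  have a1 : 1 / y ^ 6 ≤ 1 / y ^ 4 :=
    one_div_le_one_div_of_le (by positivity) (pow_le_pow_right₀ y1 (by norm_num))
  refine ⟨y0, by rw [h.card]; positivity, by exact_mod_cast n0,
    one_div_le_one_div_of_le (by norm_num) ?_,
    ⟨fun x => (h.reg.1 x).trans a1, fun x z hxz => (h.reg.2 x z hxz).trans a1⟩,
    one_div_le_one_div_of_le (by positivity) ((pow_le_pow_right₀ y1 (by norm_num)).trans h.big), ?_⟩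
  · exact le_trans (by norm_num) (pow_le_pow_left₀ (by norm_num) h.y10 4)
  · rw [div_le_div_iff₀ n0 (by positivity), one_mul]
    have a2 : 2 ≤ y ^ 20 := le_trans (by linarith [h.y10]) (le_self_pow₀ y1 (by norm_num))
    calc _ ≤ 2 * y ^ 16 * y ^ 4 := mul_le_mul_of_nonneg_right h.hi (by positivity)
      _ = 2 * y ^ 20 := by ring
      _ ≤ y ^ 20 * y ^ 20 := mul_le_mul_of_nonneg_right a2 (by positivity)
      _ = y ^ 40 := by ring
      _ ≤ _ := h.big

lemma BPar.log_le (h : BPar G q y N) (hs : s ≤ N) : 1 ≤ WW (nV V * q ^ 2) N s ∧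
    Real.exp (Real.log (WW (nV V * q ^ 2) N s) / 32) / y ^ 3 ≤ 1 / y ^ 2 ∧
    2 * Real.log (WW (nV V * q ^ 2) N s) / (nV V * q ^ 2) ≤ 1 / y ^ 4 := by
  obtain ⟨y0, n0, N0, -⟩ := h.pos
  have y1 : 1 ≤ y := by linarith [h.y10]
  have N0' : (0 : ℝ) < N := by exact_mod_cast N0
  have q0 := h.q0
  have a1 : 1 ≤ WW (nV V * q ^ 2) N s := le_add_of_nonneg_right (by positivity)
  have a2 : WW (nV V * q ^ 2) N s ≤ y ^ 32 := by
    have b1 : 2 * (nV V * q ^ 2) * s / N ≤ 2 * (nV V * q ^ 2) := by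
      rw [mul_div_assoc]
      exact mul_le_of_le_one_right (by positivity) ((div_le_one N0').2 (by exact_mod_cast hs))
    have b2 : 10 ≤ y ^ 16 := h.y10.trans (le_self_pow₀ y1 (by norm_num))
    have b3 : y ^ 32 = y ^ 16 * y ^ 16 := by ring
    have b4 := h.hi
    rw [WW]
    nlinarith
  have a3 : Real.log (WW (nV V * q ^ 2) N s) ≤ 32 * Real.log y := by
    have := Real.log_le_log (by linarith) a2
    rwa [Real.log_pow] at this
  have a4 := Real.log_le_sub_one_of_pos y0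
  refine ⟨a1, ?_, ?_⟩
  · have : Real.exp (Real.log (WW (nV V * q ^ 2) N s) / 32) ≤ y := by
      conv_rhs => rw [← Real.exp_log y0]
      exact Real.exp_le_exp.2 (by linarith)
    rw [div_le_div_iff₀ (by positivity) (by positivity)]
    calc _ ≤ y * y ^ 2 := mul_le_mul_of_nonneg_right this (by positivity)
      _ = _ := by ring
  · rw [div_le_div_iff₀ (by positivity) (by positivity), one_mul]
    have b1 : 64 ≤ y ^ 11 := le_trans (by norm_num) (pow_le_pow_left₀ (by norm_num) h.y10 11)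
    calc _ ≤ 64 * y * y ^ 4 := mul_le_mul_of_nonneg_right (by linarith) (by positivity)
      _ ≤ y ^ 11 * y * y ^ 4 := by gcongr
      _ = y ^ 16 := by ring
      _ ≤ _ := h.lo

lemma BInv.small (hi : BInv G q y N s) (h : BPar G q y N) (hs : s ≤ N) :
    (∀ x z w, G.Adj x z → G.Adj x w → G.Adj z w →
      0 ≤ bI G N x z w s ∧ bI G N x z w s ≤ 1 / y ^ 4) ∧
    (∀ a b, G.Adj a b → |ll G (nV V * q ^ 2) N s a b| ≤ 1 / y ^ 2) ∧
    ∀ a b, G.Adj a b → ll G (nV V * q ^ 2) N s a b ^ 2 ≤ 1 / y ^ 4 := by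
  obtain ⟨-, a2, a3⟩ := h.log_le hs
  have b : ∀ a b, G.Adj a b → |ll G (nV V * q ^ 2) N s a b| ≤ 1 / y ^ 2 := fun a b hab => by
    have := hi.wrd [] (nil_mem_words (by norm_num)) a b hab
    rw [wt_nil, one_mul] at this
    exact this.trans a2
  refine ⟨fun x z w h1 h2 h3 => ⟨(hi.acc x z w h1 h2 h3).1, (hi.acc x z w h1 h2 h3).2.trans a3⟩, b,
    fun a c hac => ?_⟩
  rw [← sq_abs]
  calc _ ≤ (1 / y ^ 2) ^ 2 := pow_le_pow_left₀ (abs_nonneg _) (b a c hac) 2
    _ = _ := by ring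

lemma mean_lin (h k l : V → V → ℝ) (c : ℝ) :
    mean G q (fun a b => h a b + c * (k a b + l a b)) =
      mean G q h + c * (mean G q k + mean G q l) := by
  simp only [mean, av, mul_add, sum_add_distrib, add_div, mul_left_comm _ c, ← mul_sum,
    mul_div_assoc]

lemma comb_word {a k f θ d B : ℝ} (d0 : 0 ≤ d) (d1 : d ≤ 1) (h0 : 0 ≤ θ) (h1 : θ ≤ 1)
    (ha : |a| ≤ B) (hk : |k - θ * a + f| ≤ B / 40) : |a + -d * (k + f)| ≤ B * (1 + d / 40) := by
  have g2 : 0 ≤ 1 - d * θ := by nlinarith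
  have g3 : 1 - d * θ ≤ 1 := by nlinarith
  have e : a + -d * (k + f) = (1 - d * θ) * a - d * (k - θ * a + f) := by ring
  rw [e]
  refine (abs_sub _ _).trans ?_
  rw [abs_mul, abs_mul, abs_of_nonneg g2, abs_of_nonneg d0]
  have g4 : (1 - d * θ) * |a| ≤ B := (mul_le_of_le_one_left (abs_nonneg _) g3).trans ha
  have g6 := mul_le_mul_of_nonneg_left hk d0
  linarith

lemma comb_mean {m k f d M : ℝ} (d0 : 0 ≤ d) (d1 : 2 * d ≤ 1) (hm : |m| ≤ M)
    (hk : |k - 2 * m + f| ≤ 2 * M) : |m + -d * (k + f)| ≤ M := by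
  have g2 : 0 ≤ 1 - 2 * d := by linarith
  have e : m + -d * (k + f) = (1 - 2 * d) * m - d * (k - 2 * m + f) := by ring
  rw [e]
  refine (abs_sub _ _).trans ?_
  rw [abs_mul, abs_mul, abs_of_nonneg g2, abs_of_nonneg d0]
  have g4 := mul_le_mul_of_nonneg_left hm g2
  have g6 := mul_le_mul_of_nonneg_left hk d0
  linarith

lemma BPar.more (h : BPar G q y N) : 1 ≤ nV V * q ∧ nV V * (1 / y) ^ (2100 - 1) ≤ 1 / y ^ 2 ∧
    1 / y ^ 6 ≤ 1 / y ^ 4 ∧ 1 / y ^ 6 ≤ 1 / 2 ∧ 1 / y ^ 2 ≤ 1 ∧ 1 / y ≤ 1 := by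
  obtain ⟨y0, n0, -, e1, -⟩ := h.pos
  have y1 : 1 ≤ y := by linarith [h.y10]
  have q0 := h.q0
  have heta : 1 / y ^ 6 ≤ 1 / y ^ 4 :=
    one_div_le_one_div_of_le (by positivity) (pow_le_pow_right₀ y1 (by norm_num))
  refine ⟨?_, ?_, heta, by linarith, (div_le_one (by positivity)).2 (one_le_pow₀ y1),
    (div_le_one y0).2 y1⟩
  · have : nV V * q ^ 2 ≤ nV V * q := by
      rw [sq, ← mul_assoc]
      exact mul_le_of_le_one_right (by positivity) h.q1
    exact (one_le_pow₀ y1).trans (h.lo.trans this)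
  · have : (2100 - 1 : ℕ) = 2000 + 99 := rfl
    rw [this, pow_add, h.card, ← mul_assoc, ← mul_pow, mul_one_div_cancel y0.ne', one_pow, one_mul,
      one_div_pow]
    exact one_div_le_one_div_of_le (by positivity) (pow_le_pow_right₀ y1 (by norm_num))

lemma BInv.data (hi : BInv G q y N s) (h : BPar G q y N) (hs : s < N) :
    ∃ (d : ℝ) (f : V → V → ℝ), 0 < d ∧ d ≤ 1 / 100 ∧
      Real.log (WW (nV V * q ^ 2) N s) + d ≤ Real.log (WW (nV V * q ^ 2) N (s + 1)) ∧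
      (ll G (nV V * q ^ 2) N (s + 1) = fun a b => ll G (nV V * q ^ 2) N s a b +
        (-d) * (Kop G q (ll G (nV V * q ^ 2) N s) a b + f a b)) ∧
      (∀ a b, G.Adj a b → |f a b| ≤ 100 * (1 / y ^ 4)) ∧
      ∀ x z w, G.Adj x z → G.Adj x w → G.Adj z w → 0 ≤ bp G N (cst x z w) s ∧
        bp G N (cst x z w) s / N ≤ 2 * d / (nV V * q ^ 2) := by
  obtain ⟨y0, n0, N0, e1, hR, e2, e3⟩ := h.pos
  obtain ⟨W1, -⟩ := h.log_le hs.le
  obtain ⟨s1, -, s3⟩ := hi.small h hs.le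
  obtain ⟨t1, t2⟩ := ll_step h.q0 n0 N0 e1 hR e2 e3 s1 s3
  have q0 := h.q0
  have N0' : (0 : ℝ) < N := by exact_mod_cast N0
  have hlog := log_WW_succ (D := nV V * q ^ 2) (by positivity) N0 s
  have D0 : 0 < nV V * q ^ 2 := by positivity
  generalize nV V * q ^ 2 = D at *
  have W0 : 0 < WW D N s := one_pos.trans_le W1
  obtain ⟨d, hd⟩ : ∃ d, d = D / (N * WW D N s) := ⟨_, rfl⟩
  rw [← hd] at t2 hlog
  have d0 : 0 < d := by rw [hd]; positivity
  have d1 : d ≤ 1 / 100 := by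
    rw [hd]
    exact (div_le_div_of_nonneg_left D0.le N0' (le_mul_of_one_le_right N0'.le W1)).trans
      (e3.trans e1)
  refine ⟨d, fun a b => (ll G D N s a b - ll G D N (s + 1) a b) / d - Kop G q (ll G D N s) a b, d0,
    d1, ?_, ?_, fun a b hab => ?_, fun x z w h1 h2 h3 => ⟨(t1 x z w h1 h2 h3).1, ?_⟩⟩
  · rw [hlog]
    refine add_le_add_right (le_trans ?_ (log_two_mul d0.le).1) _
    clear * - d0 d1
    nlinarith
  · ext a b
    field_simp
    ring
  · have e : (ll G D N s a b - ll G D N (s + 1) a b) / d - Kop G q (ll G D N s) a b =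
        -(ll G D N (s + 1) a b - ll G D N s a b + d * Kop G q (ll G D N s) a b) / d := by
      field_simp
      ring
    beta_reduce
    rw [e, abs_div, abs_neg, abs_of_pos d0, div_le_iff₀ d0]
    exact t2 a b hab
  · rw [hd, div_le_iff₀ N0']
    refine (t1 x z w h1 h2 h3).2.trans (le_of_le_of_eq
      (div_le_div_of_nonneg_right (by norm_num : (3 / 2 : ℝ) ≤ 2) W0.le) ?_)
    field_simp

theorem binv_succ : ∃ Y : ℝ, ∀ {V : Type} [Fintype V] {G : SimpleGraph V} {q y : ℝ} {N s : ℕ},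
    Y ≤ y → BPar G q y N → s < N → BInv G q y N s → BInv G q y N (s + 1) := by
  obtain ⟨C, hC, hcl⟩ := closure 2100
  obtain ⟨w0, K, hw0, hK, hw⟩ := words_unif 2100
  refine ⟨80 * (2002 * C + 100 * K) / w0, ?_⟩
  intro V _ G q y N s hY h hs hi
  obtain ⟨y0, n0, N0, -⟩ := h.pos
  obtain ⟨W1, A1, -⟩ := h.log_le hs.le
  obtain ⟨nq, hlam, heta, eh, y2, y3⟩ := h.more
  obtain ⟨d, f, d0, d1, hlog, f1, f2, t1⟩ := hi.data h hs
  obtain ⟨i1, i2, i3⟩ := hi
  have q0 := h.q0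
  have e0 : 0 < 1 / y ^ 4 := by positivity
  have e0' : 0 ≤ 100 * (1 / y ^ 4) := by positivity
  have A0 : 1 / y ^ 3 ≤ Real.exp (Real.log (WW (nV V * q ^ 2) N s) / 32) / y ^ 3 :=
    div_le_div_of_nonneg_right
      (Real.one_le_exp (div_nonneg (Real.log_nonneg W1) (by norm_num))) (by positivity)
  have c7 : Real.exp (Real.log (WW (nV V * q ^ 2) N s) / 32) / y ^ 3 * (1 + d / 40) ≤
      Real.exp (Real.log (WW (nV V * q ^ 2) N (s + 1)) / 32) / y ^ 3 := by
    rw [div_mul_eq_mul_div]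
    refine div_le_div_of_nonneg_right ?_ (by positivity)
    refine le_trans (mul_le_mul_of_nonneg_left (c := Real.exp (d / 32)) ?_ (Real.exp_pos _).le) ?_
    · linarith only [Real.add_one_le_exp (d / 32), d0]
    · rw [← Real.exp_add]
      exact Real.exp_le_exp.2 (by linarith only [hlog])
  generalize Real.exp (Real.log (WW (nV V * q ^ 2) N s) / 32) / y ^ 3 = A at *
  have A0' : 0 ≤ A := le_trans (by positivity) A0
  have sA : ∀ a b, G.Adj a b → |ll G (nV V * q ^ 2) N s a b| ≤ A := fun a b hab => by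
    have := i2 [] (nil_mem_words (by norm_num)) a b hab
    rwa [wt_nil, one_mul] at this
  have g1 : 1 / y ^ 6 * A ≤ 1 / y ^ 4 * 1 := mul_le_mul heta (A1.trans y2) A0' e0.le
  refine ⟨fun x z w h1 h2 h3 => ?_, fun Ω hΩ a b hab => ?_, ?_⟩
  · obtain ⟨b1, b2⟩ := t1 x z w h1 h2 h3
    obtain ⟨b3, b4⟩ := i1 x z w h1 h2 h3
    rw [bI_succ]
    refine ⟨by positivity, (add_le_add b4 b2).trans ?_⟩
    rw [← add_div]
    exact div_le_div_of_nonneg_right (by linarith only [hlog]) (by positivity)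
  · obtain ⟨v1, v2, v3⟩ := hw Ω hΩ
    have c1 := hcl q0 nq h.reg eh h.spec (by positivity) y3 A0' A0'
      sA hab.ne (fun Ω' hΩ' => i2 Ω' hΩ' a b hab) Ω hΩ
    have c2 := ev_crude q0 h.reg eh e0' f2 v1 (Or.inl hab.ne) fun _ => f2 a b hab
    have c4 : C * (1 / y ^ 6 * A + |mean G q (ll G (nV V * q ^ 2) N s)| +
        nV V * (1 / y) ^ (2100 - 1) * A) ≤ C * (2002 * (1 / y ^ 4)) := by
      refine mul_le_mul_of_nonneg_left ?_ (zero_le_one.trans hC)
      have g2 : nV V * (1 / y) ^ (2100 - 1) * A ≤ 1 / y ^ 2 * (1 / y ^ 2) :=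
        mul_le_mul hlam A1 A0' (by positivity)
      have g3 : 1 / y ^ 2 * (1 / y ^ 2) = 1 / y ^ 4 := by ring
      generalize nV V * (1 / y) ^ (2100 - 1) * A = u at *
      linarith only [g1, g2, g3, i3]
    have c5 : 6 ^ Ω.length * (100 * (1 / y ^ 4)) ≤ K * (100 * (1 / y ^ 4)) :=
      mul_le_mul_of_nonneg_right v3 e0'
    have c6 : C * (2002 * (1 / y ^ 4)) + K * (100 * (1 / y ^ 4)) ≤ wt Ω * A / 80 := by
      rw [div_le_iff₀ hw0] at hY
      have g1 : w0 * (1 / y ^ 3) ≤ wt Ω * A := mul_le_mul v2 A0 (by positivity) (wt_pos Ω).le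
      have g2 : w0 * (1 / y ^ 3) = y * w0 * (1 / y ^ 4) := by field_simp
      have g3 := mul_le_mul_of_nonneg_right hY e0.le
      linarith only [g1, g2, g3]
    refine le_trans ?_ (mul_le_mul_of_nonneg_left c7 (wt_pos Ω).le)
    rw [f1, ev_add, ev_mul, ev_add, ← mul_assoc]
    refine comb_word d0.le (by linarith only [d1]) (Nat.cast_nonneg (diag Ω))
      (by exact_mod_cast diag_le_one Ω) (i2 Ω hΩ a b hab) ((abs_add_le _ _).trans ?_)
    have c8 := add_le_add (c1.trans (add_le_add le_rfl c4)) (c2.trans c5)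
    refine c8.trans ?_
    linarith only [c6]
  · have : Nonempty V := Fintype.card_pos_iff.1 (by exact_mod_cast n0)
    obtain ⟨x⟩ := this
    have c1 := mean_Kop q0 h.reg ((abs_nonneg _).trans (h.reg.1 x)) eh A0' sA
    have c2 := ev_crude q0 h.reg eh e0' f2
      (Ω := [(false, .m), (false, .p)]) (by simp [Val]) (x := x) (y := x)
      (Or.inr ⟨_, _, rfl, by simp⟩) (by simp)
    rw [ev_mp] at c2
    rw [f1, mean_lin]
    refine comb_mean d0.le (by linarith only [d1]) i3 ((abs_add_le _ _).trans ?_)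
    simp only [List.length_cons, List.length_nil] at c2
    linarith only [c1, c2, g1, e0]

theorem bp_stable : ∃ Y : ℝ, ∀ {V : Type} [Fintype V] {G : SimpleGraph V} {y q : ℝ} {N : ℕ},
    Y ≤ y → nV V = y ^ 2000 → 0 < q → q ≤ 1 → y ^ 16 ≤ nV V * q ^ 2 → nV V * q ^ 2 ≤ 2 * y ^ 16 →
    y ^ 40 ≤ N → Reg G q (1 / y ^ 6) → Spec G q (1 / y) →
    Hbp G N (fun t => 2 / (1 + 2 * (nV V * q ^ 2) * t / N)) ∧
    (∀ x z, G.Adj x z → |bp G N (root x z x x) N * √(1 + 2 * (nV V * q ^ 2)) - 1| ≤ 1 / y) ∧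
    ∀ x z u v, G.Adj x z → G.Adj u v →
      |bp G N (root x z u v) N * (1 + 2 * (nV V * q ^ 2)) - 1| ≤ 1 / y := by
  obtain ⟨Y, hY⟩ := binv_succ
  refine ⟨max Y 10, ?_⟩
  intro V _ G y q N hy h1 h2 h3 h4 h5 h6 h7 h8
  have h : BPar G q y N := ⟨(le_max_right _ _).trans hy, h1, h2, h3, h4, h5, h6, h7, h8⟩
  obtain ⟨y0, n0, N0, e1, hR, e2, e3⟩ := h.pos
  have inv : ∀ s ≤ N, BInv G q y N s := fun s => by
    induction s with
    | zero => exact fun _ => binv_zero y0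
    | succ s ih => exact fun hs => hY ((le_max_left _ _).trans hy) h hs (ih (by omega))
  have N0' : (0 : ℝ) < N := by exact_mod_cast N0
  obtain ⟨s1, s2, -⟩ := (inv N le_rfl).small h le_rfl
  have hI : ∀ x z w, G.Adj x z → G.Adj x w → G.Adj z w → bI G N x z w N < 1 :=
    fun x z w a b c => by linarith [(s1 x z w a b c).2]
  have hW : WW (nV V * q ^ 2) N N = 1 + 2 * (nV V * q ^ 2) := by
    rw [WW, mul_div_cancel_right₀ _ N0'.ne']
  have W0 : 0 < 1 + 2 * (nV V * q ^ 2) := by positivity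
  have y4 : 4 * (1 / y ^ 2) ≤ 1 / y := by
    rw [mul_one_div, div_le_div_iff₀ (by positivity) y0]
    nlinarith [h.y10]
  have y5 : 1 / y ≤ 1 := (div_le_one y0).2 (by linarith [h.y10])
  have y6 : 0 < 1 / y ^ 2 := by positivity
  refine ⟨fun σ c hc c' t ht => ?_, fun x z hxz => ?_, fun x z u v hxz huv => ?_⟩
  · obtain ⟨a1, -, a3⟩ := (inv t ht.le).small h ht.le
    have a4 := ((ll_step h2 n0 N0 e1 hR e2 e3 a1 a3).1 _ _ _ hc.1 hc.2.1 hc.2.2.1).2
    have W1 := (h.log_le ht.le).1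
    change bp G N (child σ c) t ≤ _ at a4
    change _ ≤ 2 / WW (nV V * q ^ 2) N t
    rw [bp_eq] at a4
    by_cases hm : c' ∈ kids G (child σ c)
    · have hv : val G (child σ c) c' := (mem_filter.1 hm).2
      have a5 : bi G N (child (child σ c) c') t ≤ 1 / y ^ 4 :=
        (a1 _ _ _ hv.1 hv.2.1 hv.2.2.1).2
      rw [← mul_prod_erase _ _ hm, ← le_div_iff₀' (by linarith), div_div] at a4
      refine a4.trans ?_
      rw [div_le_div_iff₀ (mul_pos (by linarith) (by linarith)) (by linarith)]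
      nlinarith
    · rw [erase_eq_of_notMem hm]
      exact a4.trans (div_le_div_of_nonneg_right (by norm_num) (by linarith))
  · have e : bp G N (root x z x x) N * √(1 + 2 * (nV V * q ^ 2)) =
        Real.exp (ll G (nV V * q ^ 2) N N x z) := by
      rw [bp_split]
      change eE G N (x, z, x) N * eE G N (x, x, x) N * _ = _
      rw [eE_root (D := nV V * q ^ 2) hI hxz, eE, if_neg G.irrefl, mul_one, hW, ← Real.log_sqrt W0.le,
        Real.exp_sub, Real.exp_log (Real.sqrt_pos.2 W0),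
        div_mul_cancel₀ _ (Real.sqrt_pos.2 W0).ne']
    have a1 := s2 x z hxz
    rw [e]
    exact (Real.abs_exp_sub_one_le (by linarith)).trans (by linarith)
  · have e : bp G N (root x z u v) N * (1 + 2 * (nV V * q ^ 2)) =
        Real.exp (ll G (nV V * q ^ 2) N N x z + ll G (nV V * q ^ 2) N N u v) := by
      rw [bp_split]
      change eE G N (x, z, x) N * eE G N (u, v, u) N * _ = _
      rw [eE_root (D := nV V * q ^ 2) hI hxz, eE_root (D := nV V * q ^ 2) hI huv, hW,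
        ← Real.exp_add, ← Real.exp_log W0, ← Real.exp_add, Real.log_exp]
      exact congrArg _ (by ring)
    have a1 := (abs_add_le _ _).trans (add_le_add (s2 x z hxz) (s2 u v huv))
    rw [e]
    exact (Real.abs_exp_sub_one_le (by linarith)).trans (by linarith)

end Vale.Agent.P046
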