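import Vale.Agent.P046.CollB

/-! Counting collisions. -/

namespace Vale.Agent.P046

open Classical Finset
open scoped BigOperators

variable {V : Type} [Fintype V]

/-- The root is a single edge (`ρ = 1`) or two vertex disjoint edges (`ρ = 2`). -/
def IsRoot (r : St V) (ρ : ℕ) : Prop :=
  (∃ x y, x ≠ y ∧ r = root x y x x ∧ ρ = 1) ∨
    ∃ x y u v, x ≠ y ∧ u ≠ v ∧ x ≠ u ∧ x ≠ v ∧ y ≠ u ∧ y ≠ v ∧ r = root x y u v ∧ ρ = 2

omit [Fintype V] in
lemma IsRoot.inj {r : St V} {ρ : ℕ} (hr : IsRoot r ρ) : RootInj r := by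
  intro b b' w h1 h2 h3 h4
  rcases hr with ⟨x, y, _, rfl, _⟩ | ⟨x, y, u, v, _, _, e1, e2, e3, e4, rfl, _⟩
  · cases b <;> cases b' <;> simp_all [root]
  · cases b <;> cases b' <;> simp only [root, cond_true, cond_false] at h3 h4 ⊢ <;>
      first | rfl | (rcases h3 with rfl | rfl <;> rcases h4 with rfl | rfl <;> simp_all)

omit [Fintype V] in
lemma IsRoot.sides {r : St V} {ρ : ℕ} (hr : IsRoot r ρ) :
    ∃ B : Finset Bool, (∀ b ∈ B, (r b).1 ≠ (r b).2.1) ∧ ρ ≤ B.card := by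
  rcases hr with ⟨x, y, h, rfl, rfl⟩ | ⟨x, y, u, v, h1, h2, _, _, _, _, rfl, rfl⟩
  · exact ⟨{false}, by simpa [root] using h, by simp⟩
  · exact ⟨univ, by simpa [root] using ⟨h1, h2⟩, by simp⟩

/-- The labels which collide with the root or with the head of `l`. -/
noncomputable def hit (r : St V) (l : List (Lab V)) : Finset (Lab V) :=
  univ.filter fun c => c.2 ∈ rootV r ∨ ∃ d ∈ l.head?, d.2 = c.2

lemma card_hit (r : St V) (l : List (Lab V)) : (hit r l).card ≤ 10 := by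
  have h : hit r l ⊆ (univ : Finset Bool) ×ˢ ({(r false).1, (r false).2.1, (r true).1, (r true).2.1,
      (l.head?.getD (true, (r true).1)).2} : Finset V) := by
    intro c hc
    rw [mem_product]
    refine ⟨mem_univ _, ?_⟩
    simp only [mem_insert, mem_singleton]
    rcases (mem_filter.mp hc).2 with ⟨b, hb⟩ | ⟨d, hd, e⟩
    · cases b <;> tauto
    · rw [Option.mem_def.mp hd]
      simp [e]
  refine (card_le_card h).trans ?_
  rw [card_product, card_univ, Fintype.card_bool]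
  exact Nat.mul_le_mul_left 2 card_le_five

/-- The edge set of a configuration. -/
noncomputable def cfgS (r : St V) (f : List (Lab V) × List (Lab V) × List (Lab V) × Lab V) :
    Finset (Sym2 V) :=
  edges r (insert (f.2.2.2 :: (f.2.2.1 ++ f.1)) (sfx (f.2.1 ++ f.1) ∪ sfx (f.2.2.1 ++ f.1)))

/-- The size of a configuration. -/
def cfgK (f : List (Lab V) × List (Lab V) × List (Lab V) × Lab V) : ℕ :=
  f.1.length + f.2.1.length + f.2.2.1.length

/-- The configurations. -/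
noncomputable def cfg (r : St V) (ρ K : ℕ) :
    Finset (List (Lab V) × List (Lab V) × List (Lab V) × Lab V) :=
  (lists (Lab V) K ×ˢ lists (Lab V) K ×ˢ lists (Lab V) K ×ˢ univ).filter fun f =>
    f.2.2.2 ∈ hit r (f.2.1 ++ f.1) ∧ Shape f.2.1 f.2.2.1 ∧ (cfgS r f).card ≤ 4 * K + 3 ∧
      ρ + 2 * cfgK f + 1 ≤ (cfgS r f).card

lemma sum_cfg (r : St V) (ρ K : ℕ) {θ q : ℝ} (hθ : 0 < θ) (h0 : 0 ≤ q) (h1 : q ≤ 1)
    (h : 2 * Fintype.card V * q ^ 2 ≤ θ) :
    ∑ f ∈ cfg r ρ K, q ^ (cfgS r f).card / θ ^ cfgK f ≤ 2 * (2 * K + 4) ^ 4 * q ^ (ρ + 1) := by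
  obtain ⟨w, hw⟩ : ∃ w, w = q ^ 2 / θ := ⟨_, rfl⟩
  have hw0 : 0 ≤ w := by rw [hw]; positivity
  have hw1 : Fintype.card (Lab V) * w ≤ 1 := by
    rw [hw, Fintype.card_prod, Fintype.card_bool, ← mul_div_assoc, div_le_one hθ]
    push_cast
    exact h
  have hs := sum_lists hw0 hw1 K
  have hs0 : 0 ≤ ∑ l ∈ lists (Lab V) K, w ^ l.length := sum_nonneg fun _ _ => by positivity
  calc _ ≤ ∑ f ∈ lists (Lab V) K ×ˢ lists (Lab V) K ×ˢ lists (Lab V) K ×ˢ (univ : Finset (Lab V)),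
        if f.2.2.2 ∈ hit r (f.2.1 ++ f.1) then
          q ^ (ρ + 1) * (w ^ f.1.length * (w ^ f.2.1.length * w ^ f.2.2.1.length)) else 0 := by
        rw [cfg, sum_filter]
        refine sum_le_sum fun f _ => ?_
        split_ifs with a1 a2 a2
        · have e : q ^ (ρ + 1) * (w ^ f.1.length * (w ^ f.2.1.length * w ^ f.2.2.1.length)) =
              q ^ (ρ + 2 * cfgK f + 1) / θ ^ cfgK f := by
            rw [← pow_add, ← pow_add, ← add_assoc, hw, div_pow, ← pow_mul, ← mul_div_assoc,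
              ← pow_add, cfgK, add_right_comm ρ]
          rw [e]
          exact div_le_div_of_nonneg_right (pow_le_pow_of_le_one h0 h1 a1.2.2.2) (by positivity)
        · exact absurd a1.1 a2
        · positivity
        · exact le_rfl
    _ ≤ ∑ l ∈ lists (Lab V) K, ∑ p ∈ lists (Lab V) K, ∑ p' ∈ lists (Lab V) K,
          10 * (q ^ (ρ + 1) * (w ^ l.length * (w ^ p.length * w ^ p'.length))) := by
        rw [sum_product]
        refine sum_le_sum fun l _ => ?_
        rw [sum_product]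
        refine sum_le_sum fun p _ => ?_
        rw [sum_product]
        refine sum_le_sum fun p' _ => ?_
        dsimp only
        rw [sum_ite_mem, univ_inter, sum_const, nsmul_eq_mul]
        exact mul_le_mul_of_nonneg_right (by exact_mod_cast card_hit r _) (by positivity)
    _ = 10 * (∑ l ∈ lists (Lab V) K, w ^ l.length) ^ 3 * q ^ (ρ + 1) := by
        simp only [← mul_sum, ← sum_mul]
        ring
    _ ≤ 10 * ((K : ℝ) + 1) ^ 3 * q ^ (ρ + 1) := by gcongr
    _ ≤ _ := by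
        refine mul_le_mul_of_nonneg_right ?_ (by positivity)
        have hK : (0 : ℝ) ≤ K := Nat.cast_nonneg _
        have a1 : ((K : ℝ) + 1) ^ 3 ≤ (2 * K + 4) ^ 3 := by gcongr <;> linarith
        have a2 : (0 : ℝ) ≤ (2 * K + 4) ^ 3 := by positivity
        have a3 : ((K : ℝ) + 1) ^ 3 * 8 ≤ (2 * K + 4) ^ 3 := by
          have : ((K : ℝ) + 1) ^ 3 * 8 = (2 * K + 2) ^ 3 := by ring
          rw [this]
          gcongr
          norm_num
        nlinarith

lemma bad_cases {G : SimpleGraph V} {r : St V} {ρ : ℕ} (hr : IsRoot r ρ) (K : ℕ) {N : ℕ}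
    {τ : List (Lab V) → ℕ} (hG : ∀ b, (r b).1 ≠ (r b).2.1 → G.Adj (r b).1 (r b).2.1)
    (h : Bad G r N τ) : (∃ l ∈ vl G r K, Act G r N τ l) ∨ ∃ f ∈ cfg r ρ K,
      (∀ e ∈ cfgS r f, e ∈ G.edgeSet) ∧ Act G r N τ (f.2.1.tail ++ f.1) ∧
        Act G r N τ (f.2.2.1 ++ f.1) := by
  obtain ⟨c, l₂, l₁, h1, h2, h3, h4, h5, h6⟩ := h.minimal
  by_cases hK : K ≤ l₂.length
  · refine Or.inl ⟨l₂.drop (l₂.length - K), ?_, h1.1.suffix (List.drop_suffix _ _)⟩
    have := mem_vl (h1.1.suffix (List.drop_suffix (l₂.length - K) l₂))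
    rwa [List.length_drop, Nat.sub_sub_self hK] at this
  obtain ⟨l, p, p', rfl, rfl, hs⟩ := exists_split l₁ l₂
  simp only [List.length_append] at h3 hK
  have hl : p' ++ l ∈ sfx (p ++ l) ∪ sfx (p' ++ l) :=
    mem_union_right _ (mem_sfx.mpr (List.suffix_refl _))
  refine Or.inr ⟨(l, p, p', c), mem_filter.mpr ⟨?_, mem_filter.mpr ⟨mem_univ _, h4⟩, hs, ?_, ?_⟩,
    fun e he => ?_, ?_, h1.1⟩
  · simp only [mem_product, mem_univ, and_true]
    exact ⟨mem_lists (by omega), mem_lists (by omega), mem_lists (by omega)⟩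
  · refine (card_edges_le r _).trans ?_
    have a1 := card_insert_le (c :: (p' ++ l)) (sfx (p ++ l) ∪ sfx (p' ++ l))
    have a2 := card_sfx_union_le (p ++ l) (p' ++ l)
    simp only [List.length_append] at a2
    dsimp only
    omega
  · obtain ⟨B, hB, hρ⟩ := hr.sides
    have a1 := h6.card_edges hr.inj (mem_union_right _ (mem_sfx.mpr List.nil_suffix)) hB hρ
    have a2 := h6.card_edges_insert hr.inj hl h1.2 h5
    have a3 := hs.card (l := l)
    simp only [cfgK, cfgS]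
    omega
  · obtain ⟨m, hm, b, hb, rfl⟩ := mem_edges.mp he
    rcases mem_insert.mp hm with rfl | hm
    · exact val_adj h1.2 b
    · cases m with
      | nil => exact hG b hb
      | cons d k => exact val_adj (h6.val _ _ hm) b
  · cases p with
    | nil => exact h1.1.suffix (List.suffix_append _ _)
    | cons d k => exact h2

/-- A collision needs a long activated path or a configuration with a surplus edge. -/
theorem coll (r : St V) {ρ : ℕ} (hr : IsRoot r ρ) (K : ℕ) :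
    ∃ (Cfg : Finset (List (Lab V) × List (Lab V) × List (Lab V) × Lab V))
      (S : List (Lab V) × List (Lab V) × List (Lab V) × Lab V → Finset (Sym2 V))
      (k : List (Lab V) × List (Lab V) × List (Lab V) × Lab V → ℕ),
      (∀ f ∈ Cfg, (S f).card ≤ 4 * K + 3) ∧
      (∀ θ q : ℝ, 0 < θ → 0 ≤ q → q ≤ 1 → 2 * Fintype.card V * q ^ 2 ≤ θ →
        ∑ f ∈ Cfg, q ^ (S f).card / θ ^ k f ≤ 2 * (2 * K + 4) ^ 4 * q ^ (ρ + 1)) ∧
      ∀ (G : SimpleGraph V) (N : ℕ) (a : ℕ → ℝ) (θ : ℝ), 0 < N → 1 ≤ θ → (∀ t, 0 ≤ a t) →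
        Hbp G N a → (∀ σ, 2 * ((kids G σ).card : ℝ) ≤ θ) →
        (∀ b, (r b).1 ≠ (r b).2.1 → G.Adj (r b).1 (r b).2.1) →
        badP G r N ≤ (θ * ∏ t ∈ range N, (1 + θ * a t / N)) ^ 4 *
          (1 / 2 ^ K + ∑ f ∈ Cfg, ind (∀ e ∈ S f, e ∈ G.edgeSet) / θ ^ k f) := by
  refine ⟨cfg r ρ K, cfgS r, cfgK, fun f hf => (mem_filter.mp hf).2.2.2.1,
    fun θ q hθ h0 h1 h => sum_cfg r ρ K hθ h0 h1 h, fun G N a θ hN hθ ha0 ha hk hG => ?_⟩
  have hθ0 : 0 < θ := by linarith
  have hg : 1 ≤ ∏ t ∈ range N, (1 + θ * a t / N) := one_le_gr N hθ0.le ha0 N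
  have two := act_two G r hN hθ ha0 ha
  generalize ∏ t ∈ range N, (1 + θ * a t / N) = P at hg two ⊢
  have hP : θ ≤ θ * P := by nlinarith
  have key : ∀ ω : Node V N → Fin N, ind (Bad G r N (xt ω)) ≤
      ∑ l ∈ vl G r K, ind (Act G r N (xt ω) ([] ++ l) ∧ Act G r N (xt ω) ([] ++ l)) +
      ∑ f ∈ cfg r ρ K, ind (∀ e ∈ cfgS r f, e ∈ G.edgeSet) *
        ind (Act G r N (xt ω) (f.2.1.tail ++ f.1) ∧ Act G r N (xt ω) (f.2.2.1 ++ f.1)) := by
    intro ω
    have n1 : ∀ l ∈ vl G r K,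
        0 ≤ ind (Act G r N (xt ω) ([] ++ l) ∧ Act G r N (xt ω) ([] ++ l)) := fun _ _ => ind_nonneg _
    have n2 : ∀ f ∈ cfg r ρ K, 0 ≤ ind (∀ e ∈ cfgS r f, e ∈ G.edgeSet) *
        ind (Act G r N (xt ω) (f.2.1.tail ++ f.1) ∧ Act G r N (xt ω) (f.2.2.1 ++ f.1)) :=
      fun _ _ => mul_nonneg (ind_nonneg _) (ind_nonneg _)
    have s1 := sum_nonneg n1
    have s2 := sum_nonneg n2
    by_cases h : Bad G r N (xt ω)
    · rw [ind_pos h]
      rcases bad_cases hr K hG h with ⟨l, hl, h1⟩ | ⟨f, hf, h1, h2⟩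
      · have := single_le_sum n1 hl
        rw [ind_pos ⟨h1, h1⟩] at this
        linarith
      · have := single_le_sum n2 hf
        rw [ind_pos h1, ind_pos h2] at this
        linarith
    · rw [ind_neg h]
      linarith
  refine (expect_le_expect fun ω _ => key ω).trans ?_
  rw [expect_add_distrib, expect_sum_comm, expect_sum_comm, mul_add, mul_sum]
  refine add_le_add ?_ (sum_le_sum fun f hf => ?_)
  · calc _ ≤ ∑ l ∈ vl G r K, (θ * P) ^ 3 / θ ^ K := sum_le_sum fun l hl => by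
          have := two l [] [] (Or.inl rfl)
          rwa [List.length_nil, add_zero, vl_length hl] at this
      _ ≤ (θ / 2) ^ K * ((θ * P) ^ 3 / θ ^ K) := by
          rw [sum_const, nsmul_eq_mul]
          exact mul_le_mul_of_nonneg_right (card_vl r hk K) (by positivity)
      _ = (θ * P) ^ 3 * (1 / 2 ^ K) := by rw [div_pow]; field_simp
      _ ≤ _ := mul_le_mul_of_nonneg_right (pow_le_pow_right₀ (by linarith) (by norm_num))
          (by positivity)
  · rw [← mul_expect]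
    have h1 := two f.1 f.2.1.tail f.2.2.1 (mem_filter.mp hf).2.2.1.tail
    have h2 : (θ * P) ^ 3 / θ ^ (f.1.length + f.2.1.tail.length + f.2.2.1.length) ≤
        (θ * P) ^ 4 / θ ^ cfgK f := by
      have h3 : θ ^ cfgK f ≤ θ ^ (f.1.length + f.2.1.tail.length + f.2.2.1.length + 1) :=
        pow_le_pow_right₀ hθ (by rw [cfgK, List.length_tail]; omega)
      rw [div_le_div_iff₀ (by positivity) (by positivity)]
      calc _ ≤ (θ * P) ^ 3 * θ ^ (f.1.length + f.2.1.tail.length + f.2.2.1.length + 1) := by gcongr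
        _ = (θ * P) ^ 3 * θ * θ ^ (f.1.length + f.2.1.tail.length + f.2.2.1.length) := by ring
        _ ≤ (θ * P) ^ 3 * (θ * P) * θ ^ (f.1.length + f.2.1.tail.length + f.2.2.1.length) := by
            gcongr
        _ = _ := by ring
    calc _ ≤ ind (∀ e ∈ cfgS r f, e ∈ G.edgeSet) * ((θ * P) ^ 4 / θ ^ cfgK f) :=
          mul_le_mul_of_nonneg_left (h1.trans h2) (ind_nonneg _)
      _ = _ := by ring

end Vale.Agent.P046
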