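import Vale.Agent.P046.Good

/-! The discrepancy bound and the survival bound. -/

namespace Vale.Agent.P046

open Classical Finset

section Aux

variable {V : Type} [Fintype V]

lemma td_ratio {y : ℝ} {i t : ℕ} (hp : Par V y i) (hy : 1 ≤ y) (ht : t < i) :
    0 < qq V i / qq V (t + 1) ∧ qq V i / qq V (t + 1) ≤ 1 ∧
    qq V i / qq V t = qq V i / qq V (t + 1) * (1 - du V (qq V t)) ∧
    et V y t = et V y i * (qq V i / qq V t) ∧
    1 / (nV V * qq V t ^ 2) = (qq V i / qq V t) ^ 2 / (nV V * qq V i ^ 2) := by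
  have h0 := (hp.mono ht.le).q_pos hy
  have h1 := (hp.mono (t := t + 1) ht).q_pos hy
  have h2 := hp.q_pos hy
  have h3 := (hp.mono ht.le).qq_succ hy
  have hn : 0 < nV V := by rw [hp.card]; positivity
  have h4 : qq V i ≤ qq V (t + 1) := by
    have h5 : ((t + 1 : ℕ) : ℝ) ≤ i := by exact_mod_cast ht
    unfold qq
    gcongr
  have h6 : 1 - du V (qq V t) = qq V (t + 1) / qq V t := by rw [h3]; field_simp
  have hy0 : 0 < y := by linarith
  refine ⟨by positivity, (div_le_one h1).2 h4, ?_, ?_, ?_⟩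
  · rw [h6]; field_simp
  · unfold et; field_simp
  · field_simp

lemma td_hit {G : SimpleGraph V} {q η : ℝ} (h : StepHyp G q η) {a b : V} (hab : G.Adj a b) :
    |tav G (fun T => ind (a ∈ T ∧ b ∈ T)) - du V q| ≤ 3 * η * du V q := by
  have h1 := abs_le.1 (h.reg.2 a b hab.ne)
  have h2 := abs_le.1 h.gam
  have h3 := h.eta
  have h4 := h.du_le.1
  have h5 : 0 < 1 + gam G q := by linarith
  have e : du V q * (1 + zeta G q a b) / (1 + gam G q) - du V q =
      (zeta G q a b - gam G q) / (1 + gam G q) * du V q := by field_simp; ring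
  rw [tav_hit h hab, e, abs_mul, abs_of_pos h4]
  refine mul_le_mul_of_nonneg_right ?_ h4.le
  rw [abs_div, abs_of_pos h5, div_le_iff₀ h5, abs_le]
  constructor <;> nlinarith

lemma td_du {G : SimpleGraph V} {q η : ℝ} (h : StepHyp G q η) : du V q ≤ 1 / 2 :=
  h.du_le.2.trans (one_div_le_one_div_of_le (by norm_num) (by linarith [h.big]))

lemma td_eta {G : SimpleGraph V} {q η : ℝ} (h : StepHyp G q η) : 0 ≤ η :=
  (abs_nonneg _).trans h.gam

/-- The number of ordered adjacent pairs between two sets. -/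
noncomputable def tdN (U W : Finset V) (G : SimpleGraph V) : ℝ := ∑ u ∈ U, ∑ w ∈ W, X G u w

omit [Fintype V] in
lemma tdN_nonneg (U W : Finset V) (G : SimpleGraph V) : 0 ≤ tdN U W G :=
  sum_nonneg fun _ _ => sum_nonneg fun _ _ => ind_nonneg _

omit [Fintype V] in
lemma td_X_rem (G : SimpleGraph V) (T : Finset V) (u w : V) :
    X (rem G T) u w = X G u w - X G u w * ind (u ∈ T ∧ w ∈ T) := by
  have e : (rem G T).Adj u w ↔ G.Adj u w ∧ ¬(u ∈ T ∧ w ∈ T) := Iff.rfl
  unfold X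
  rw [ind_congr e]
  by_cases h1 : G.Adj u w <;> by_cases h2 : u ∈ T ∧ w ∈ T <;> simp [ind, h1, h2]

omit [Fintype V] in
lemma td_sum_ind (U T : Finset V) : ∑ u ∈ U, ind (u ∈ T) ≤ T.card := by
  have h : ∑ u ∈ U, ind (u ∈ T) = ((U.filter fun u => u ∈ T).card : ℝ) := by
    rw [← sum_boole]
    exact sum_congr rfl fun u _ => by by_cases hu : u ∈ T <;> simp [ind, hu]
  rw [h]
  exact_mod_cast card_le_card fun u hu => (mem_filter.1 hu).2

lemma td_step {G : SimpleGraph V} {q η s : ℝ} (h : StepHyp G q η) (hs : |s| ≤ 1 / 9)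
    (U W : Finset V) : avg G (fun H => Real.exp (s * tdN U W H)) ≤
      Real.exp ((s * (1 - du V q) + |s| * du V q * (3 * η + 10 * |s|)) * tdN U W G) := by
  set K : Finset V → ℝ := fun T => ∑ u ∈ U, ∑ w ∈ W, X G u w * ind (u ∈ T ∧ w ∈ T) with hK
  have h1 : ∀ T, tdN U W (rem G T) = tdN U W G - K T := fun T => by
    simp only [tdN, hK, td_X_rem, sum_sub_distrib]
  have h2 : ∀ T, 0 ≤ K T := fun T =>
    sum_nonneg fun _ _ => sum_nonneg fun _ _ => mul_nonneg (ind_nonneg _) (ind_nonneg _)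
  have h3 : ∀ T ∈ tri G, K T ≤ 9 := fun T hT => by
    have hc : (T.card : ℝ) = 3 := by exact_mod_cast (mem_tri.1 hT).2
    calc K T ≤ ∑ u ∈ U, ∑ w ∈ W, ind (u ∈ T) * ind (w ∈ T) :=
          sum_le_sum fun u _ => sum_le_sum fun w _ => by
            rw [← ind_and]
            exact mul_le_of_le_one_left (ind_nonneg _) (ind_le_one _)
      _ = (∑ u ∈ U, ind (u ∈ T)) * ∑ w ∈ W, ind (w ∈ T) := (sum_mul_sum _ _ _ _).symm
      _ ≤ 3 * 3 := mul_le_mul (hc ▸ td_sum_ind U T) (hc ▸ td_sum_ind W T)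
          (sum_nonneg fun _ _ => ind_nonneg _) (by norm_num)
      _ = 9 := by norm_num
  have h4 : |tav G K - du V q * tdN U W G| ≤ 3 * η * du V q * tdN U W G := by
    have e : tav G K - du V q * tdN U W G = ∑ u ∈ U, ∑ w ∈ W,
        X G u w * (tav G (fun T => ind (u ∈ T ∧ w ∈ T)) - du V q) := by
      simp only [hK, tav_sum, tav_mul, tdN, mul_sub, sum_sub_distrib, mul_comm (du V q), sum_mul]
    rw [e, tdN, mul_sum]
    refine (abs_sum_le_sum_abs _ _).trans (sum_le_sum fun u _ => ?_)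
    rw [mul_sum]
    refine (abs_sum_le_sum_abs _ _).trans (sum_le_sum fun w _ => ?_)
    by_cases huw : G.Adj u w
    · simpa [X, ind_pos huw] using td_hit h huw
    · simp [X, ind_neg huw]
  have h5 : tav G (fun T => Real.exp (s * tdN U W (rem G T))) ≤
      tav G fun T => Real.exp (s * tdN U W G) * (1 + (9 * s ^ 2 - s) * K T) := by
    refine tav_mono fun T hT => ?_
    rw [h1, mul_sub, sub_eq_add_neg, Real.exp_add]
    refine mul_le_mul_of_nonneg_left ?_ (Real.exp_pos _).le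
    have h6 : |-(s * K T)| ≤ 1 := by
      rw [abs_neg, abs_mul, abs_of_nonneg (h2 T)]
      nlinarith [h3 T hT, h2 T, abs_nonneg s]
    have h7 := (abs_le.1 (Real.abs_exp_sub_one_sub_id_le h6)).2
    nlinarith [mul_nonneg (sq_nonneg s) (mul_nonneg (h2 T) (sub_nonneg.2 (h3 T hT)))]
  rw [tav_mul, tav_add, tav_mul, tav_const h.nonempty] at h5
  rw [avg, if_pos h.nonempty]
  refine h5.trans ?_
  have e2 : (s * (1 - du V q) + |s| * du V q * (3 * η + 10 * |s|)) * tdN U W G =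
      s * tdN U W G + (-s + |s| * (3 * η + 10 * |s|)) * (du V q * tdN U W G) := by ring
  rw [e2, Real.exp_add]
  refine mul_le_mul_of_nonneg_left (le_trans ?_ (Real.add_one_le_exp _)) (Real.exp_pos _).le
  have h8 : 0 ≤ du V q * tdN U W G := mul_nonneg h.du_le.1.le (tdN_nonneg _ _ _)
  rw [mul_assoc (3 * η)] at h4
  set A := du V q * tdN U W G
  set B := tav G K
  have h9 : -s * (B - A) ≤ |s| * (3 * η * A) := by
    refine (le_abs_self _).trans ?_
    rw [abs_mul, abs_neg]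
    exact mul_le_mul_of_nonneg_left h4 (abs_nonneg _)
  have h10 : 9 * B ≤ 10 * A := by nlinarith [(abs_le.1 h4).2, h.eta]
  have h11 := mul_le_mul_of_nonneg_left h10 (sq_nonneg s)
  have h12 : |s| * |s| = s ^ 2 := by rw [← sq, sq_abs]
  nlinarith

lemma td_mgf {y c σ θ k : ℝ} {i : ℕ} (hc : c ≤ 1 / 2) (hy : 10 ≤ y) (hp : Par V y i)
    (hσ : |σ| = 1) (hθ : 0 < θ) (hk : 6 * et V y i + 80 * θ ≤ k) (hk1 : k ≤ 1) (U W : Finset V) :
    kil (Good y c) 0 i (fun G => Real.exp (σ * θ * tdN U W G)) (⊤ : SimpleGraph V) ≤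
      Real.exp (σ * θ * qq V i * (1 + σ * k * (1 - qq V i)) * tdN U W ⊤) := by
  have hy1 : 1 ≤ y := by linarith
  have he := (hp.et_le hy1).1
  have h := kil_le (Good y c) (fun t G => Real.exp (σ * θ * (qq V i / qq V t) *
    (1 + σ * k * (1 - qq V i / qq V t)) * tdN U W G)) (fun _ => 0) i
    (fun _ _ => (Real.exp_pos _).le) (fun _ => le_rfl) (fun t ht G hG => by
      have hS := hG.stepHyp (hp.mono ht.le) hy hc
      obtain ⟨r0, r1, r2, r3, -⟩ := td_ratio hp hy1 ht
      have d0 := hS.du_le.1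
      have d1 := td_du hS
      rw [r2] at r3 ⊢
      set r := qq V i / qq V (t + 1)
      set d := du V (qq V t)
      have hk0 : 0 ≤ k := by linarith
      have s1 : |σ * θ * r * (1 + σ * k * (1 - r))| ≤ 2 * θ * r := by
        have s2 : |1 + σ * k * (1 - r)| ≤ 2 := by
          refine (abs_add_le _ _).trans ?_
          rw [abs_mul, abs_mul, hσ, abs_one, abs_of_nonneg hk0, abs_of_nonneg (by linarith)]
          nlinarith
        rw [abs_mul, abs_mul, abs_mul, hσ, abs_of_pos hθ, abs_of_pos r0]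
        nlinarith [mul_pos hθ r0]
      rw [add_zero]
      refine (td_step hS (s1.trans (by nlinarith)) U W).trans (Real.exp_le_exp.2
        (mul_le_mul_of_nonneg_right ?_ (tdN_nonneg _ _ _)))
      have hσ2 : σ * σ = 1 := by rw [← abs_mul_abs_self, hσ, mul_one]
      have e : σ * θ * (r * (1 - d)) * (1 + σ * k * (1 - r * (1 - d))) =
          σ * θ * r * (1 + σ * k * (1 - r)) * (1 - d) + (σ * σ) * (θ * r * d * (k * (r * (1 - d)))) := by
        ring
      rw [e, hσ2, one_mul, r3]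
      set a := |σ * θ * r * (1 + σ * k * (1 - r))|
      have a0 : 0 ≤ a := abs_nonneg _
      have a1 : 3 * (et V y i * (r * (1 - d))) + 10 * a ≤ k * (r * (1 - d)) / 2 := by
        have a2 : r ≤ 2 * (r * (1 - d)) := by nlinarith
        have a3 : 0 ≤ r * (1 - d) := by nlinarith
        nlinarith [mul_le_mul_of_nonneg_left a2 hθ.le, mul_le_mul_of_nonneg_right hk a3]
      have a4 : a * d * (3 * (et V y i * (r * (1 - d))) + 10 * a) ≤
          2 * θ * r * d * (k * (r * (1 - d)) / 2) :=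
        mul_le_mul (mul_le_mul_of_nonneg_right s1 d0.le) a1
          (by have : 0 ≤ r * (1 - d) := by nlinarith
              positivity) (by positivity)
      linarith) ⊤
  simpa [div_self (hp.q_pos hy1).ne', qq_zero] using h

omit [Fintype V] in
lemma tdN_top (U W : Finset V) :
    (U.card : ℝ) * W.card - U.card ≤ tdN U W ⊤ ∧ tdN U W ⊤ ≤ U.card * W.card := by
  constructor
  · have h1 : ∀ u, (W.card : ℝ) - 1 ≤ ∑ w ∈ W, X (⊤ : SimpleGraph V) u w := fun u => by
      have h2 := td_sum_ind W {u}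
      have h3 : ∑ w ∈ W, X (⊤ : SimpleGraph V) u w = ∑ w ∈ W, (1 - ind (w ∈ ({u} : Finset V))) :=
        sum_congr rfl fun w _ => by
          by_cases e : u = w
          · simp [X, ind, e]
          · simp [X, ind, e, Ne.symm e]
      rw [h3, sum_sub_distrib]
      simp only [sum_const, nsmul_eq_mul, mul_one, card_singleton, Nat.cast_one] at h2 ⊢
      linarith
    have h4 := sum_le_sum fun u (_ : u ∈ U) => h1 u
    rw [sum_const, nsmul_eq_mul] at h4
    unfold tdN
    linarith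
  · have h4 : tdN U W ⊤ ≤ ∑ _u ∈ U, ∑ _w ∈ W, (1 : ℝ) :=
      sum_le_sum fun _ _ => sum_le_sum fun _ _ => ind_le_one _
    simpa using h4

lemma td_pair {y c : ℝ} {i : ℕ} (hc : c ≤ 1 / 2) (hy : 10 ≤ y) (hp : Par V y i)
    (U W : Finset V) : kil (Good y c) 0 i (fun G => ind (¬|tdN U W G - qq V i * U.card * W.card| ≤
      1 / y ^ 4 * (qq V i * U.card * W.card + nV V * qq V i ^ 2 * (U.card + W.card))))
      (⊤ : SimpleGraph V) ≤ 2 * (Real.exp (-y) ^ U.card * Real.exp (-y) ^ W.card) := by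
  have hy1 : 1 ≤ y := by linarith
  have hy0 : 0 < y := by linarith
  obtain ⟨e0, e1⟩ := hp.et_le hy1
  have hD := (hp.D_eq hy1).2
  have q0 := hp.q_pos hy1
  have q1 := qq_le_one (V := V) i
  obtain ⟨n0, n1⟩ := tdN_top U W
  have hκ : 0 < 1 / y ^ 4 := by positivity
  have hy2 : 100 ≤ y ^ 2 := by nlinarith
  have hκ1 : 1 / y ^ 4 ≤ 1 := by
    rw [div_le_one (by positivity)]; exact one_le_pow₀ hy1
  have hk : 6 * et V y i + 80 * (1 / y ^ 4 / 100) ≤ 1 / y ^ 4 := by
    have : 1 / y ^ 6 ≤ 1 / y ^ 4 / 100 := by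
      rw [div_div]
      refine one_div_le_one_div_of_le (by positivity) ?_
      calc y ^ 4 * 100 ≤ y ^ 4 * y ^ 2 := by gcongr
        _ = y ^ 6 := by ring
    linarith
  have hbig : y ≤ 1 / y ^ 4 / 100 * (1 / y ^ 4 * (nV V * qq V i ^ 2) - 1) := by
    have h1 : y ^ 12 ≤ 1 / y ^ 4 * (nV V * qq V i ^ 2) := by
      rw [one_div_mul_eq_div, le_div_iff₀ (by positivity)]
      calc y ^ 12 * y ^ 4 = y ^ 16 := by ring
        _ ≤ _ := hD
    have h2 : y ^ 5 * 100 + 1 ≤ y ^ 12 := by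
      have h3 : 1 ≤ y ^ 5 := one_le_pow₀ hy1
      have h4 : 10 ^ 7 ≤ y ^ 7 := pow_le_pow_left₀ (by norm_num) hy 7
      calc y ^ 5 * 100 + 1 ≤ y ^ 5 * 10 ^ 7 := by nlinarith
        _ ≤ y ^ 5 * y ^ 7 := by gcongr
        _ = y ^ 12 := by ring
    calc y = 1 / y ^ 4 / 100 * (y ^ 5 * 100) := by field_simp
      _ ≤ _ := by gcongr; linarith
  have m1 := td_mgf (σ := 1) hc hy hp abs_one (by positivity) hk hκ1 U W
  have m2 := td_mgf (σ := -1) hc hy hp (by simp) (by positivity) hk hκ1 U W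
  set κ := 1 / y ^ 4
  set θ := κ / 100
  have hθ : 0 < θ := by positivity
  set q := qq V i
  set D := nV V * q ^ 2
  set a := (U.card : ℝ)
  set b := (W.card : ℝ)
  have a0 : 0 ≤ a := Nat.cast_nonneg _
  have b0 : 0 ≤ b := Nat.cast_nonneg _
  set R := κ * (q * a * b + D * (a + b)) with hR
  have h1 : ∀ G : SimpleGraph V, ind (¬|tdN U W G - q * a * b| ≤ R) ≤
      Real.exp (-(θ * (q * a * b + R))) * Real.exp (1 * θ * tdN U W G) +
      Real.exp (θ * (q * a * b - R)) * Real.exp (-1 * θ * tdN U W G) := fun G => by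
    by_cases hG : |tdN U W G - q * a * b| ≤ R
    · rw [ind_neg (not_not.2 hG)]; positivity
    · rw [ind_pos hG, ← Real.exp_add, ← Real.exp_add]
      rcases lt_abs.1 (not_le.1 hG) with h2 | h2
      · exact le_add_of_le_of_nonneg (Real.one_le_exp (by nlinarith)) (Real.exp_pos _).le
      · exact le_add_of_nonneg_of_le (Real.exp_pos _).le (Real.one_le_exp (by nlinarith))
  refine (kil_mono _ _ _ h1 _).trans ?_
  rw [kil_add, kil_mul, kil_mul, two_mul, ← pow_add, ← Real.exp_nat_mul]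
  have hab : ((U.card + W.card : ℕ) : ℝ) = a + b := by push_cast; rfl
  have hb2 := mul_le_mul_of_nonneg_right hbig (add_nonneg a0 b0)
  have t1 : 0 ≤ θ * q * κ := by positivity
  have ab0 : 0 ≤ a * b := mul_nonneg a0 b0
  have t0 := tdN_nonneg U W (⊤ : SimpleGraph V)
  refine add_le_add ((mul_le_mul_of_nonneg_left m1 (Real.exp_pos _).le).trans ?_)
    ((mul_le_mul_of_nonneg_left m2 (Real.exp_pos _).le).trans ?_)
  · rw [← Real.exp_add, Real.exp_le_exp, hab, hR]
    have t2 : θ * q * (1 + κ * (1 - q)) * tdN U W ⊤ ≤ θ * q * (1 + κ) * (a * b) := by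
      have : 0 ≤ 1 - q := by linarith
      gcongr
      nlinarith
    nlinarith [mul_nonneg hθ.le (add_nonneg a0 b0)]
  · rw [← Real.exp_add, Real.exp_le_exp, hab, hR]
    have t2 : 0 ≤ 1 - κ * (1 - q) := by nlinarith
    have t3 : θ * q * (1 - κ * (1 - q)) * (a * b - a) ≤ θ * q * (1 - κ * (1 - q)) * tdN U W ⊤ :=
      mul_le_mul_of_nonneg_left n0 (by positivity)
    have t4 : q * (1 - κ * (1 - q)) ≤ 1 := mul_le_one₀ q1 t2 (by nlinarith)
    have t5 := mul_le_mul_of_nonneg_left t4 (mul_nonneg hθ.le a0)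
    nlinarith [mul_nonneg hθ.le b0, mul_nonneg (mul_nonneg t1 q0.le) ab0]

lemma td_union {x : ℝ} (hx : 0 ≤ x) (h : nV V * x ≤ 1) :
    ∑ U ∈ (univ : Finset (Finset V)).erase ∅, ∑ W : Finset V, 2 * (x ^ U.card * x ^ W.card) ≤
      12 * (nV V * x) := by
  have h1 : ∑ W : Finset V, x ^ W.card = (1 + x) ^ Fintype.card V := by
    have := prod_one_add (f := fun _ : V => x) univ
    simpa using this.symm
  have h2 : (1 + x) ^ Fintype.card V ≤ 1 + 2 * (nV V * x) := by
    have h0 : 0 ≤ nV V * x := mul_nonneg (Nat.cast_nonneg _) hx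
    have h3 := (abs_le.1 (Real.abs_exp_sub_one_le (x := nV V * x)
      (by rwa [abs_of_nonneg h0]))).2
    rw [abs_of_nonneg h0] at h3
    have h4 : (1 + x) ^ Fintype.card V ≤ Real.exp (nV V * x) := by
      rw [Real.exp_nat_mul]
      exact pow_le_pow_left₀ (by linarith) (by linarith [Real.add_one_le_exp x]) _
    linarith
  have h5 := add_sum_erase (univ : Finset (Finset V)) (fun U => x ^ U.card) (mem_univ ∅)
  simp only [card_empty, pow_zero, h1] at h5
  simp only [← mul_sum, ← sum_mul, h1]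
  have h6 : 0 ≤ ∑ U ∈ (univ : Finset (Finset V)).erase ∅, x ^ U.card :=
    sum_nonneg fun _ _ => pow_nonneg hx _
  nlinarith

omit [Fintype V] in
lemma td_edge_rem (G : SimpleGraph V) (T : Finset V) (e : Sym2 V) :
    e ∈ (rem G T).edgeSet ↔ e ∈ G.edgeSet ∧ ¬∀ v ∈ e, v ∈ T := by
  induction e using Sym2.ind with
  | _ a b =>
    have e : (rem G T).Adj a b ↔ G.Adj a b ∧ ¬(a ∈ T ∧ b ∈ T) := Iff.rfl
    simp [e]

lemma td_bonf {ι : Type} [DecidableEq ι] (S : Finset ι) (p : ι → Prop) : ind (∀ e ∈ S, ¬p e) ≤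
    1 - ∑ e ∈ S, ind (p e) + ∑ e ∈ S, ∑ e' ∈ S.erase e, ind (p e ∧ p e') := by
  by_cases h : ∀ e ∈ S, ¬p e
  · have h1 : ∑ e ∈ S, ind (p e) = 0 := sum_eq_zero fun e he => ind_neg (h e he)
    have h2 : 0 ≤ ∑ e ∈ S, ∑ e' ∈ S.erase e, ind (p e ∧ p e') :=
      sum_nonneg fun _ _ => sum_nonneg fun _ _ => ind_nonneg _
    rw [ind_pos h, h1]
    linarith
  · have h1 : ∑ e ∈ S, ∑ e' ∈ S.erase e, ind (p e ∧ p e') =
        ∑ e ∈ S, (ind (p e) * ∑ e' ∈ S, ind (p e') - ind (p e)) := sum_congr rfl fun e he => by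
      rw [← add_sum_erase S _ he, mul_add, mul_sum, ← ind_and, and_self]
      simp only [ind_and]
      ring
    rw [ind_neg h, h1, sum_sub_distrib, ← sum_mul]
    nlinarith [sq_nonneg (1 - ∑ e ∈ S, ind (p e))]

lemma td_surv_step {G : SimpleGraph V} {q η : ℝ} (h : StepHyp G q η) (S : Finset (Sym2 V))
    (hS : ∀ e ∈ S, e ∈ G.edgeSet) : tav G (fun T => ind (∀ e ∈ S, e ∈ (rem G T).edgeSet)) ≤
      1 + S.card * -(du V q * (1 - (3 * η + 2 * S.card * (1 / (nV V * q ^ 2))))) := by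
  have h1 : tav G (fun T => ind (∀ e ∈ S, e ∈ (rem G T).edgeSet)) ≤ tav G fun T =>
      1 - ∑ e ∈ S, ind (∀ v ∈ e, v ∈ T) +
        ∑ e ∈ S, ∑ e' ∈ S.erase e, ind ((∀ v ∈ e, v ∈ T) ∧ ∀ v ∈ e', v ∈ T) :=
    tav_mono fun T _ => (ind_mono fun hh e he => ((td_edge_rem G T e).1 (hh e he)).2).trans
      (td_bonf S _)
  rw [tav_add, tav_sub, tav_const h.nonempty, tav_sum, tav_sum] at h1
  have h2 : ∀ e ∈ S, du V q - 3 * η * du V q ≤ tav G fun T => ind (∀ v ∈ e, v ∈ T) := by
    intro e he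
    have h3 := hS e he
    induction e using Sym2.ind with
    | _ a b =>
      have h4 := (abs_le.1 (td_hit h h3)).1
      simp only [Sym2.mem_iff, forall_eq_or_imp, forall_eq]
      linarith
  have d0 := h.du_le.1
  have D0 : 0 < nV V * q ^ 2 := by linarith [h.big]
  have h5 : ∀ e ∈ S, tav G (fun T => ∑ e' ∈ S.erase e, ind ((∀ v ∈ e, v ∈ T) ∧ ∀ v ∈ e', v ∈ T)) ≤
      S.card * (2 * du V q / (nV V * q ^ 2)) := by
    intro e he
    rw [tav_sum]
    refine (sum_le_card_nsmul _ _ (2 * du V q / (nV V * q ^ 2)) fun e' he' => ?_).trans ?_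
    · have h3 := hS e he
      have h4 := hS e' (mem_of_mem_erase he')
      have h6 := ne_of_mem_erase he'
      induction e using Sym2.ind with
      | _ a b =>
      induction e' using Sym2.ind with
      | _ a' b' =>
      have hab : a ≠ b := SimpleGraph.Adj.ne h3
      have hab' : a' ≠ b' := SimpleGraph.Adj.ne h4
      obtain ⟨c, hc, h7, h8⟩ : ∃ c, (c = a' ∨ c = b') ∧ a ≠ c ∧ b ≠ c := by
        by_contra hcon
        push Not at hcon
        have h9 := hcon a' (Or.inl rfl)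
        have h10 := hcon b' (Or.inr rfl)
        rw [Ne, Sym2.eq_iff] at h6
        grind
      refine le_trans (tav_mono fun T _ => ind_mono fun hh => ?_) (tav_tri h hab h7 h8)
      exact ⟨hh.1 a (by simp), hh.1 b (by simp), hh.2 c (by simpa using hc)⟩
    · rw [nsmul_eq_mul]
      have : ((S.erase e).card : ℝ) ≤ S.card := by exact_mod_cast card_erase_le
      gcongr
  have h6 := card_nsmul_le_sum _ _ _ h2
  have h7 := sum_le_card_nsmul _ _ _ h5
  rw [nsmul_eq_mul] at h6 h7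
  have e : (S.card : ℝ) * (S.card * (2 * du V q / (nV V * q ^ 2))) =
      S.card * (du V q * (2 * S.card * (1 / (nV V * q ^ 2)))) := by ring
  linarith

lemma td_surv_num {r d η D p : ℝ} {m : ℕ} (r0 : 0 < r) (r1 : r ≤ 1) (d0 : 0 < d) (d1 : d ≤ 1 / 2)
    (e0 : 0 ≤ η) (e2 : η ≤ 1 / 100) (D0 : 0 < D) (e3 : m * (1 / D) ≤ 1 / 100)
    (h1 : p ≤ 1 + m * -(d * (1 - (3 * (η * (r * (1 - d))) + 2 * m * ((r * (1 - d)) ^ 2 / D))))) :
    |r * (2 - r)| ^ m * p ≤ |r * (1 - d) * (2 - r * (1 - d))| ^ m := by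
  have a3 : 0 ≤ r * (1 - d) := mul_nonneg r0.le (by linarith)
  have a4 : r * (1 - d) ≤ 1 := mul_le_one₀ r1 (by linarith) (by linarith)
  have x0 : 0 ≤ 3 * (η * (r * (1 - d))) + 2 * m * ((r * (1 - d)) ^ 2 / D) := by positivity
  have x1 : 2 * (3 * (η * (r * (1 - d))) + 2 * m * ((r * (1 - d)) ^ 2 / D)) ≤ r * (1 - d) := by
    have e : 2 * m * ((r * (1 - d)) ^ 2 / D) =
        2 * ((m * (1 / D)) * ((r * (1 - d)) * (r * (1 - d)))) := by ring
    have x2 : (r * (1 - d)) * (r * (1 - d)) ≤ r * (1 - d) := mul_le_of_le_one_left a3 a4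
    have x3 := mul_le_mul e3 x2 (mul_nonneg a3 a3) (by norm_num)
    have x4 := mul_le_mul_of_nonneg_right e2 a3
    rw [e]
    linarith
  generalize 3 * (η * (r * (1 - d))) + 2 * m * ((r * (1 - d)) ^ 2 / D) = ξ at h1 x0 x1
  have x6 : d * (1 - ξ) ≤ 1 := by nlinarith
  have h2 := h1.trans (one_add_mul_le_pow (by linarith) _)
  refine (mul_le_mul_of_nonneg_left h2 (by positivity)).trans ?_
  rw [← mul_pow]
  refine pow_le_pow_left₀ (mul_nonneg (abs_nonneg _) (by linarith)) ?_ _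
  rw [abs_of_nonneg (mul_nonneg r0.le (by linarith)), abs_of_nonneg (mul_nonneg a3 (by linarith))]
  have x5 : ξ * (2 - r) ≤ r * (1 - d) := by nlinarith
  nlinarith [mul_le_mul_of_nonneg_left x5 (mul_pos d0 r0).le]

end Aux

theorem track_disc : ∃ Y : ℝ, ∀ {V : Type} [Fintype V] {y c : ℝ} {i : ℕ}, c ≤ 1 / 2 → Y ≤ y →
    Par V y i → kil (Good y c) 0 i (fun G => ind (¬Disc G (qq V i) (1 / y ^ 4)))
      (⊤ : SimpleGraph V) ≤ 1 / y ^ 10000 := by
  obtain ⟨Y, hY⟩ := Filter.eventually_atTop.1 ((Real.tendsto_pow_mul_exp_neg_atTop_nhds_zero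
    12000).eventually_le_const (show (0 : ℝ) < 1 / 12 by norm_num))
  refine ⟨max Y 10, fun {V} _ {y c i} hc hy hp => ?_⟩
  have hy1 : 10 ≤ y := le_of_max_le_right hy
  have h0 := hY y (le_of_max_le_left hy)
  have hy0 : 0 < y := by linarith
  have h1 : 12 * (nV V * Real.exp (-y)) ≤ 1 / y ^ 10000 := by
    rw [hp.card, le_div_iff₀ (by positivity)]
    have e : y ^ 12000 = y ^ 2000 * y ^ 10000 := by rw [← pow_add]
    rw [e] at h0
    linarith
  have h2 : 1 / y ^ 10000 ≤ 1 := by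
    rw [div_le_one (by positivity)]; exact one_le_pow₀ (by linarith)
  have h3 : 0 ≤ nV V * Real.exp (-y) := by positivity
  refine le_trans ?_ ((td_union (V := V) (Real.exp_pos (-y)).le (by linarith)).trans h1)
  have h4 : ∀ G : SimpleGraph V, ind (¬Disc G (qq V i) (1 / y ^ 4)) ≤
      ∑ U ∈ (univ : Finset (Finset V)).erase ∅, ∑ W : Finset V,
        ind (¬|tdN U W G - qq V i * U.card * W.card| ≤
          1 / y ^ 4 * (qq V i * U.card * W.card + nV V * qq V i ^ 2 * (U.card + W.card))) := by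
    intro G
    by_cases hG : Disc G (qq V i) (1 / y ^ 4)
    · rw [ind_neg (not_not.2 hG)]
      exact sum_nonneg fun _ _ => sum_nonneg fun _ _ => ind_nonneg _
    · rw [ind_pos hG]
      obtain ⟨U, hU⟩ := not_forall.1 hG
      obtain ⟨W, hW⟩ := not_forall.1 hU
      have hU0 : U ≠ ∅ := by
        rintro rfl
        apply hW
        simp only [sum_empty, card_empty, Nat.cast_zero, mul_zero, zero_mul, sub_zero, abs_zero,
          zero_add]
        positivity
      refine le_trans ?_ (single_le_sum (fun _ _ => sum_nonneg fun _ _ => ind_nonneg _)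
        (mem_erase.2 ⟨hU0, mem_univ U⟩))
      refine le_trans ?_ (single_le_sum (fun _ _ => ind_nonneg _) (mem_univ W))
      exact (ind_pos hW).ge
  refine (kil_mono _ _ _ h4 _).trans ?_
  rw [kil_sum]
  refine sum_le_sum fun U _ => ?_
  rw [kil_sum]
  exact sum_le_sum fun W _ => td_pair hc hy1 hp U W

theorem track_surv : ∃ Y : ℝ, ∀ {V : Type} [Fintype V] {y c : ℝ} {i : ℕ}, c ≤ 1 / 2 → Y ≤ y →
    Par V y i → ∀ S : Finset (Sym2 V), (S.card : ℝ) ≤ y ^ 2 →
    kil (Good y c) 0 i (fun G => ind (∀ e ∈ S, e ∈ G.edgeSet)) (⊤ : SimpleGraph V) ≤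
      (2 * qq V i) ^ S.card := by
  refine ⟨10, fun {V} _ {y c i} hc hy hp S hS => ?_⟩
  have hy1 : 1 ≤ y := by linarith
  have hy0 : 0 < y := by linarith
  obtain ⟨e0, e1⟩ := hp.et_le hy1
  have hD := (hp.D_eq hy1).2
  have q0 := hp.q_pos hy1
  have q1 := qq_le_one (V := V) i
  have e2 : et V y i ≤ 1 / 100 := e1.trans (one_div_le_one_div_of_le (by norm_num) (by
    have := pow_le_pow_left₀ (by norm_num) hy 6
    linarith))
  have e3 : S.card * (1 / (nV V * qq V i ^ 2)) ≤ 1 / 100 := by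
    have h1 : 0 < y ^ 16 := by positivity
    rw [mul_one_div, div_le_div_iff₀ (by linarith) (by norm_num)]
    have h2 : y ^ 2 * 10 ^ 14 ≤ y ^ 2 * y ^ 14 := by gcongr
    have h3 : y ^ 2 * y ^ 14 = y ^ 16 := by ring
    nlinarith [sq_nonneg y]
  have h := kil_le (Good y c) (fun t G => ind (∀ e ∈ S, e ∈ G.edgeSet) *
    |qq V i / qq V t * (2 - qq V i / qq V t)| ^ S.card) (fun _ => 0) i
    (fun _ _ => mul_nonneg (ind_nonneg _) (by positivity)) (fun _ => le_rfl) (fun t ht G hG => by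
      have hS := hG.stepHyp (hp.mono ht.le) hy hc
      obtain ⟨r0, r1, r2, r3, r4⟩ := td_ratio hp hy1 ht
      have d0 := hS.du_le.1
      have d1 := td_du hS
      rw [avg, if_pos hS.nonempty, add_zero]
      simp only [mul_comm (ind _)]
      rw [tav_mul]
      by_cases hE : ∀ e ∈ S, e ∈ G.edgeSet
      · have h1 := td_surv_step hS S hE
        rw [r4, r3, r2] at h1
        rw [ind_pos hE, mul_one, r2]
        exact td_surv_num r0 r1 d0 d1 e0.le e2 (lt_of_lt_of_le (by positivity) hD) e3 h1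
      · have h1 : tav G (fun T => ind (∀ e ∈ S, e ∈ (rem G T).edgeSet)) ≤ tav G fun _ => 0 :=
          tav_mono fun T _ => (ind_neg fun hh => hE fun e he =>
            ((td_edge_rem G T e).1 (hh e he)).1).le
        rw [tav_const hS.nonempty] at h1
        rw [ind_neg hE, mul_zero]
        exact mul_nonpos_of_nonneg_of_nonpos (by positivity) h1) ⊤
  have e4 : |(1 : ℝ) * (2 - 1)| = 1 := by norm_num
  simp only [div_self q0.ne', e4, one_pow, mul_one, qq_zero, div_one, sum_const_zero,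
    add_zero] at h
  refine h.trans ((mul_le_of_le_one_left (by positivity) (ind_le_one _)).trans
    (pow_le_pow_left₀ (abs_nonneg _) ?_ _))
  rw [abs_of_nonneg (by nlinarith)]
  nlinarith

end Vale.Agent.P046
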