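import Vale.Agent.P046.BP
import Vale.Agent.P046.Coll
import Vale.Agent.P046.TrackD

/-! The expected collision probability is small. -/

namespace Vale.Agent.P046

open Classical Finset W

variable {V : Type} [Fintype V]

lemma prod_bound {D : ℝ} (hD : 0 ≤ D) {N : ℕ} (hN : 0 < N) :
    ∏ t ∈ range N, (1 + 8 * D * (2 / (1 + 2 * D * (t : ℝ) / N)) / N) ≤ (1 + 2 * D) ^ 8 := by
  have h0 : (0 : ℝ) < N := Nat.cast_pos.mpr hN
  have key : ∀ k : ℕ, ∏ t ∈ range k, (1 + 8 * D * (2 / (1 + 2 * D * (t : ℝ) / N)) / N) ≤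
      (1 + 2 * D * k / N) ^ 8 := fun k => by
    induction k with
    | zero => simp
    | succ k ih =>
      have h1 : 0 < 1 + 2 * D * k / N := by positivity
      have h2 := one_add_mul_le_pow (a := 2 * D / N / (1 + 2 * D * k / N))
        (le_trans (by norm_num) (by positivity : 0 ≤ 2 * D / N / (1 + 2 * D * k / N))) 8
      rw [prod_range_succ]
      refine (mul_le_mul ih (le_trans (le_of_eq ?_) h2) (by positivity) (by positivity)).trans_eq ?_
      · push_cast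
        field_simp
      · rw [← mul_pow]
        congr 1
        push_cast
        field_simp
        ring
  simpa [mul_div_assoc, h0.ne'] using key N

lemma card_kids_le {G : SimpleGraph V} {q η : ℝ} (hq : 0 < q) (hR : Reg G q η) (hη : η ≤ 1)
    (σ : St V) : 2 * ((kids G σ).card : ℝ) ≤ 8 * (nV V * q ^ 2) := by
  have key : ∀ b, ∑ z, ind (val G σ (b, z)) ≤ 2 * (nV V * q ^ 2) := fun b => by
    by_cases h : G.Adj (σ b).1 (σ b).2.1
    · have h1 := (abs_le.mp (hR.2 _ _ h.ne)).2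
      have h2 := nV_pos (σ b).1
      have h3 : zeta G q (σ b).1 (σ b).2.1 =
          (∑ z, X G (σ b).1 z * X G (σ b).2.1 z) / (nV V * q ^ 2) - 1 := by
        simp only [zeta, av, Xh, div_mul_div_comm, ← sum_div]
        rw [div_div, mul_comm, sq]
      refine (sum_le_sum fun z _ => (ind_mono fun h => ⟨h.2.1, h.2.2.1⟩).trans_eq
        (ind_and _ _)).trans ?_
      rw [← div_le_iff₀ (by positivity)]
      change (∑ z, X G (σ b).1 z * X G (σ b).2.1 z) / _ ≤ _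
      linarith
    · rw [sum_eq_zero fun z _ => ind_neg fun h' => h h'.1]
      positivity
  have e : ((kids G σ).card : ℝ) = ∑ b, ∑ z, ind (val G σ (b, z)) := by
    rw [kids, card_filter, ← Fintype.sum_prod_type']
    push_cast
    rfl
  rw [e, Fintype.sum_bool]
  linarith [key true, key false]

theorem bad_bound : ∃ Y : ℝ, ∀ {V : Type} [Fintype V] {y c : ℝ} {i : ℕ}, c ≤ 1 / 2 → Y ≤ y →
    Par V y i → nV V * qq V i ^ 2 ≤ 2 * y ^ 16 → ∀ (r : St V) (ρ : ℕ),
    ∃ Z : SimpleGraph V → ℝ, (∀ G, 0 ≤ Z G) ∧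
      kil (Good y c) 0 i Z ⊤ ≤ y ^ 598 * qq V i ^ (ρ + 1) ∧
      (IsRoot r ρ → ∀ (G : SimpleGraph V) (N : ℕ), y ^ 40 ≤ N → Good y c i G →
        (∀ b, (r b).1 ≠ (r b).2.1 → G.Adj (r b).1 (r b).2.1) → badP G r N ≤ Z G) := by
  obtain ⟨Y1, h1⟩ := bp_stable
  obtain ⟨Y2, h2⟩ := Good.spec
  obtain ⟨Y3, h3⟩ := track_surv
  obtain ⟨K0, h4⟩ := Filter.eventually_atTop.mp
    ((tendsto_pow_const_div_const_pow_of_one_lt 3000 one_lt_two).eventually_le_const one_pos)
  refine ⟨max (max Y1 Y2) (max Y3 (max K0 100)), ?_⟩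
  intro V _ y c i hc hy hp hD r ρ
  simp only [max_le_iff] at hy
  obtain ⟨⟨y1, y2⟩, y3, y4, y5⟩ := hy
  have hy1 : 1 ≤ y := by linarith
  have hy0 : 0 < y := by linarith
  have hq := hp.q_pos hy1
  by_cases hr : IsRoot r ρ
  swap
  · refine ⟨fun _ => 0, fun _ => le_rfl, (kil_const_le _ _ _ le_rfl _).trans (by positivity),
      fun h => absurd h hr⟩
  obtain ⟨Cfg, S, k, c1, c2, c3⟩ := coll r hr ⌈y⌉₊
  set q := qq V i
  set D := nV V * q ^ 2 with hDe
  have hD1 : y ^ 16 ≤ D := (hp.D_eq hy1).2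
  have hD2 : 1 ≤ y ^ 16 := one_le_pow₀ hy1
  have hK : (⌈y⌉₊ : ℝ) ≤ y + 1 := (Nat.ceil_lt_add_one hy0.le).le
  have hθ : 0 < 8 * D := by linarith
  have hq2 : 2 * q ≤ 1 := by
    have h5 : y ^ 16 * 8 ≤ y ^ 2000 := by
      rw [show y ^ 2000 = y ^ 16 * y ^ 1984 by ring]
      exact mul_le_mul_of_nonneg_left (le_trans (by linarith) (le_self_pow₀ hy1 (by norm_num)))
        (by positivity)
    rw [hDe, hp.card] at hD
    have h6 : y ^ 16 * (4 * q ^ 2) ≤ y ^ 16 * 1 := by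
      nlinarith [mul_le_mul_of_nonneg_right h5 (sq_nonneg q)]
    nlinarith [le_of_mul_le_mul_left h6 (by positivity)]
  refine ⟨fun G => y ^ 592 * (1 / 2 ^ ⌈y⌉₊ + ∑ f ∈ Cfg, 1 / (8 * D) ^ k f *
    ind (∀ e ∈ S f, e ∈ G.edgeSet)), fun G => ?_, ?_, fun _ G N hN hG hadj => ?_⟩
  · have := sum_nonneg fun f (_ : f ∈ Cfg) => mul_nonneg (by positivity : 0 ≤ 1 / (8 * D) ^ k f)
      (ind_nonneg (∀ e ∈ S f, e ∈ G.edgeSet))
    positivity
  · have hρ : ρ ≤ 2 := by
      rcases hr with ⟨_, _, _, _, h⟩ | ⟨_, _, _, _, _, _, _, _, _, _, _, h⟩ <;> omega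
    have a1 : (1 : ℝ) / 2 ^ ⌈y⌉₊ ≤ q ^ (ρ + 1) := by
      have b1 := h4 ⌈y⌉₊ (by exact_mod_cast y4.trans (Nat.le_ceil y))
      rw [div_le_one (by positivity)] at b1
      have b2 : y ^ 3000 ≤ 2 ^ ⌈y⌉₊ := (pow_le_pow_left₀ hy0.le (Nat.le_ceil y) _).trans b1
      have b3 : 1 / y ^ 1000 ≤ q :=
        (div_le_div_of_nonneg_right (one_le_pow₀ hy1) (by positivity)).trans hp.early
      refine le_trans ?_ ((pow_le_pow_left₀ (by positivity) b3 3).trans
        (pow_le_pow_of_le_one hq.le (by linarith) (by omega)))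
      rw [div_pow, one_pow, ← pow_mul]
      exact one_div_le_one_div_of_le (by positivity) b2
    have a2 : ∑ f ∈ Cfg, kil (Good y c) 0 i (fun G => 1 / (8 * D) ^ k f *
        ind (∀ e ∈ S f, e ∈ G.edgeSet)) (⊤ : SimpleGraph V) ≤
        ∑ f ∈ Cfg, (2 * q) ^ (S f).card / (8 * D) ^ k f := sum_le_sum fun f hf => by
      rw [kil_mul, mul_comm, mul_one_div]
      refine div_le_div_of_nonneg_right (h3 hc y3 hp _ ?_) (by positivity)
      have b1 : ((S f).card : ℝ) ≤ 4 * ⌈y⌉₊ + 3 := by exact_mod_cast c1 f hf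
      nlinarith
    have a3 := c2 (8 * D) (2 * q) hθ (by positivity) hq2 (le_of_eq (by rw [hDe]; ring))
    have a4 : 2 * (2 * (⌈y⌉₊ : ℝ) + 4) ^ 4 * (2 * q) ^ (ρ + 1) ≤ 16 * (3 * y) ^ 4 * q ^ (ρ + 1) := by
      have b1 : (2 * (⌈y⌉₊ : ℝ) + 4) ^ 4 ≤ (3 * y) ^ 4 :=
        pow_le_pow_left₀ (by positivity) (by linarith) 4
      have b2 : (2 : ℝ) ^ (ρ + 1) ≤ 2 ^ 3 := pow_le_pow_right₀ (by norm_num) (by omega)
      rw [mul_pow 2, ← mul_assoc]
      refine mul_le_mul_of_nonneg_right ?_ (by positivity)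
      nlinarith [mul_le_mul b1 b2 (by positivity) (by positivity)]
    have a5 : 1 + 16 * (3 * y) ^ 4 ≤ y ^ 6 := by
      have : 1 ≤ y ^ 4 := one_le_pow₀ hy1
      nlinarith [mul_le_mul_of_nonneg_left (by nlinarith : 10000 ≤ y ^ 2) (by positivity : 0 ≤ y ^ 4)]
    rw [kil_mul, kil_add, kil_sum, show y ^ 598 = y ^ 592 * y ^ 6 by ring, mul_assoc]
    refine mul_le_mul_of_nonneg_left ?_ (by positivity)
    have a6 := kil_const_le (Good y c) 0 i (by positivity : (0 : ℝ) ≤ 1 / 2 ^ ⌈y⌉₊)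
      (⊤ : SimpleGraph V)
    nlinarith [mul_le_mul_of_nonneg_right a5 (by positivity : 0 ≤ q ^ (ρ + 1))]
  · have hη := (hp.et_le hy1).2
    have hR : Reg G q (1 / y ^ 6) :=
      ⟨fun x => (hG.reg.1 x).trans hη, fun x z h => (hG.reg.2 x z h).trans hη⟩
    have hN0 : 0 < N := Nat.cast_pos.mp (lt_of_lt_of_le (by positivity) hN)
    have b1 := (h1 y1 hp.card hq (qq_le_one i) hD1 hD hN hR (h2 y2 hp hG)).1
    refine (c3 G N _ (8 * D) hN0 (by linarith) (fun t => by positivity) b1 (card_kids_le hq hR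
      ((div_le_one (by positivity)).mpr (one_le_pow₀ hy1))) hadj).trans (mul_le_mul ?_ (le_of_eq ?_)
      ?_ (by positivity))
    · have b2 := (prod_bound (D := D) (by linarith) hN0).trans
        (pow_le_pow_left₀ (by linarith) (by linarith : 1 + 2 * D ≤ 5 * y ^ 16) 8)
      have b3 := mul_le_mul (by linarith : 8 * D ≤ 16 * y ^ 16) b2
        (prod_nonneg fun t _ => by positivity) (by positivity)
      refine (pow_le_pow_left₀ (mul_nonneg hθ.le (prod_nonneg fun t _ => by positivity)) b3 4).trans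
        ?_
      rw [show y ^ 592 = (y ^ 4 * y ^ 144) ^ 4 by ring]
      refine pow_le_pow_left₀ (by positivity) ?_ 4
      rw [show 16 * y ^ 16 * (5 * y ^ 16) ^ 8 = 6250000 * y ^ 144 by ring]
      exact mul_le_mul_of_nonneg_right (le_trans (by norm_num)
        (pow_le_pow_left₀ (by norm_num) y5 4)) (by positivity)
    · congr 1
      exact sum_congr rfl fun f _ => by ring
    · have := sum_nonneg fun f (_ : f ∈ Cfg) => div_nonneg (ind_nonneg (∀ e ∈ S f, e ∈ G.edgeSet))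
        (by positivity : 0 ≤ (8 * D) ^ k f)
      positivity

end Vale.Agent.P046
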