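import Vale.Agent.P046.Defs

/-! The process as an averaging operator, and the killed process. -/

namespace Vale.Agent.P046

open Classical Finset

noncomputable section

variable {V : Type} [Fintype V]

/-- Average over the triangles of `G` (zero if there is none). -/
def tav (G : SimpleGraph V) (f : Finset V → ℝ) : ℝ := (∑ T ∈ tri G, f T) / (tri G).card

/-- The transition operator. -/
def avg (G : SimpleGraph V) (φ : SimpleGraph V → ℝ) : ℝ :=
  if (tri G).Nonempty then tav G fun T => φ (rem G T) else φ G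

/-- Expectation after `k` steps. -/
def ex : ℕ → (SimpleGraph V → ℝ) → SimpleGraph V → ℝ
  | 0, φ, G => φ G
  | k + 1, φ, G => avg G (ex k φ)

/-- Expectation of a function of the final graph. -/
def fin (φ : SimpleGraph V → ℝ) (G : SimpleGraph V) : ℝ := ex (tri G).card φ G

/-- Expectation after `i` steps for the process started at time `j` and killed at the first time
`t` at which `good t` fails. -/
def kil (good : ℕ → SimpleGraph V → Prop) : ℕ → ℕ → (SimpleGraph V → ℝ) → SimpleGraph V → ℝ
  | _, 0, φ, G => φ G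
  | j, i + 1, φ, G => if good j G then avg G (kil good (j + 1) i φ) else 0

/-- Indicator. -/
def ind (p : Prop) : ℝ := if p then 1 else 0

lemma ind_nonneg (p : Prop) : 0 ≤ ind p := by unfold ind; split_ifs <;> norm_num
lemma ind_le_one (p : Prop) : ind p ≤ 1 := by unfold ind; split_ifs <;> norm_num
lemma ind_pos {p : Prop} (h : p) : ind p = 1 := if_pos h
lemma ind_neg {p : Prop} (h : ¬p) : ind p = 0 := if_neg h
lemma ind_and (p q : Prop) : ind (p ∧ q) = ind p * ind q := by
  by_cases hp : p <;> by_cases hq : q <;> simp [ind, hp, hq]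
lemma ind_congr {p q : Prop} (h : p ↔ q) : ind p = ind q := by rw [propext h]
lemma ind_mono {p q : Prop} (h : p → q) : ind p ≤ ind q := by
  by_cases hp : p
  · rw [ind_pos hp, ind_pos (h hp)]
  · rw [ind_neg hp]; exact ind_nonneg _

lemma mem_tri {G : SimpleGraph V} {T : Finset V} : T ∈ tri G ↔ G.IsNClique 3 T := by simp [tri]

lemma tav_mono {G : SimpleGraph V} {f g : Finset V → ℝ} (h : ∀ T ∈ tri G, f T ≤ g T) :
    tav G f ≤ tav G g :=
  div_le_div_of_nonneg_right (sum_le_sum h) (Nat.cast_nonneg _)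

lemma tav_add (G : SimpleGraph V) (f g : Finset V → ℝ) :
    tav G (fun T => f T + g T) = tav G f + tav G g := by
  simp [tav, sum_add_distrib, add_div]

lemma tav_sub (G : SimpleGraph V) (f g : Finset V → ℝ) :
    tav G (fun T => f T - g T) = tav G f - tav G g := by
  simp [tav, sum_sub_distrib, sub_div]

lemma tav_mul (G : SimpleGraph V) (c : ℝ) (f : Finset V → ℝ) :
    tav G (fun T => c * f T) = c * tav G f := by
  simp [tav, ← mul_sum, mul_div_assoc]

lemma tav_sum {ι : Type} (G : SimpleGraph V) (s : Finset ι) (f : ι → Finset V → ℝ) :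
    tav G (fun T => ∑ i ∈ s, f i T) = ∑ i ∈ s, tav G (f i) := by
  simp only [tav, ← sum_div]
  rw [sum_comm]

lemma tav_const {G : SimpleGraph V} (h : (tri G).Nonempty) (c : ℝ) : tav G (fun _ => c) = c := by
  have : ((tri G).card : ℝ) ≠ 0 := Nat.cast_ne_zero.mpr h.card_pos.ne'
  simp only [tav, sum_const, nsmul_eq_mul]
  field_simp

lemma abs_tav_le (G : SimpleGraph V) (f : Finset V → ℝ) : |tav G f| ≤ tav G fun T => |f T| := by
  unfold tav
  rw [abs_div, Nat.abs_cast]
  exact div_le_div_of_nonneg_right (abs_sum_le_sum_abs _ _) (Nat.cast_nonneg _)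

lemma tri_rem_subset (G : SimpleGraph V) (T : Finset V) : tri (rem G T) ⊆ (tri G).erase T := by
  intro S hS
  rw [mem_tri] at hS
  have hle : rem G T ≤ G := fun _ _ h => h.1
  refine mem_erase.mpr ⟨?_, mem_tri.mpr (hS.mono hle)⟩
  rintro rfl
  obtain ⟨a, b, c, hab, -, -, h⟩ := SimpleGraph.is3Clique_iff.mp hS
  exact hab.2 ⟨by simp [h], by simp [h]⟩

lemma card_tri_rem {G : SimpleGraph V} {T : Finset V} (hT : T ∈ tri G) :
    (tri (rem G T)).card < (tri G).card :=
  (card_le_card (tri_rem_subset G T)).trans_lt (card_erase_lt_of_mem hT)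

lemma avg_mono {G : SimpleGraph V} {φ ψ : SimpleGraph V → ℝ} (h : ∀ H, φ H ≤ ψ H) :
    avg G φ ≤ avg G ψ := by
  unfold avg
  split_ifs
  · exact tav_mono fun T _ => h _
  · exact h G

lemma avg_add (G : SimpleGraph V) (φ ψ : SimpleGraph V → ℝ) :
    avg G (fun H => φ H + ψ H) = avg G φ + avg G ψ := by
  unfold avg
  split_ifs
  · exact tav_add _ _ _
  · rfl

lemma avg_mul (G : SimpleGraph V) (c : ℝ) (φ : SimpleGraph V → ℝ) :
    avg G (fun H => c * φ H) = c * avg G φ := by
  unfold avg
  split_ifs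
  · exact tav_mul _ _ _
  · rfl

lemma avg_sum {ι : Type} (G : SimpleGraph V) (s : Finset ι) (φ : ι → SimpleGraph V → ℝ) :
    avg G (fun H => ∑ i ∈ s, φ i H) = ∑ i ∈ s, avg G (φ i) := by
  unfold avg
  split_ifs
  · exact tav_sum _ _ _
  · rfl

lemma avg_const (G : SimpleGraph V) (c : ℝ) : avg G (fun _ => c) = c := by
  unfold avg
  split_ifs with h
  · exact tav_const h c
  · rfl

lemma ex_of_empty (φ : SimpleGraph V → ℝ) {G : SimpleGraph V} (h : ¬(tri G).Nonempty) (k : ℕ) :
    ex k φ G = φ G := by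
  induction k with
  | zero => rfl
  | succ k ih => rw [ex, avg, if_neg h, ih]

lemma ex_eq_ex (φ : SimpleGraph V → ℝ) : ∀ (k k' : ℕ) (G : SimpleGraph V), (tri G).card ≤ k →
    (tri G).card ≤ k' → ex k φ G = ex k' φ G := by
  intro k
  induction k with
  | zero =>
    intro k' G h _
    have h1 : ¬(tri G).Nonempty := by rw [← card_pos]; omega
    rw [ex_of_empty φ h1, ex_of_empty φ h1]
  | succ k ih =>
    intro k' G h h'
    by_cases h1 : (tri G).Nonempty
    · obtain ⟨k', rfl⟩ : ∃ j, k' = j + 1 := ⟨k' - 1, by have := h1.card_pos; omega⟩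
      rw [ex, ex, avg, avg, if_pos h1, if_pos h1]
      unfold tav
      congr 1
      refine sum_congr rfl fun T hT => ?_
      have := card_tri_rem hT
      exact ih k' _ (by omega) (by omega)
    · rw [ex_of_empty φ h1, ex_of_empty φ h1]

lemma fin_eq_avg (φ : SimpleGraph V → ℝ) (G : SimpleGraph V) : fin φ G = avg G (fin φ) := by
  by_cases h1 : (tri G).Nonempty
  · rw [fin, ex_eq_ex φ _ ((tri G).card + 1) G le_rfl (by omega), ex, avg, avg, if_pos h1,
      if_pos h1]
    unfold tav
    congr 1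
    exact sum_congr rfl fun T hT => ex_eq_ex φ _ _ _ (card_tri_rem hT).le le_rfl
  · rw [avg, if_neg h1]

lemma fin_of_empty (φ : SimpleGraph V → ℝ) {G : SimpleGraph V} (h : ¬(tri G).Nonempty) :
    fin φ G = φ G := ex_of_empty φ h _

lemma ex_mono {φ ψ : SimpleGraph V → ℝ} (h : ∀ H, φ H ≤ ψ H) (k : ℕ) (G : SimpleGraph V) :
    ex k φ G ≤ ex k ψ G := by
  induction k generalizing G with
  | zero => exact h G
  | succ k ih => exact avg_mono ih

lemma ex_const (c : ℝ) (k : ℕ) (G : SimpleGraph V) : ex k (fun _ => c) G = c := by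
  induction k generalizing G with
  | zero => rfl
  | succ k ih => rw [ex, funext ih, avg_const]

lemma fin_mono {φ ψ : SimpleGraph V → ℝ} (h : ∀ H, φ H ≤ ψ H) (G : SimpleGraph V) :
    fin φ G ≤ fin ψ G := ex_mono h _ G

lemma fin_const (c : ℝ) (G : SimpleGraph V) : fin (fun _ => c) G = c := ex_const c _ G

lemma abs_fin_le {φ : SimpleGraph V → ℝ} {M : ℝ} (h : ∀ H, |φ H| ≤ M) (G : SimpleGraph V) :
    |fin φ G| ≤ M :=
  abs_le.mpr ⟨(fin_const (-M) G).symm.le.trans (fin_mono (fun H => (abs_le.mp (h H)).1) G),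
    (fin_mono (fun H => (abs_le.mp (h H)).2) G).trans (fin_const M G).le⟩

lemma kil_mono (good : ℕ → SimpleGraph V → Prop) (j i : ℕ) {φ ψ : SimpleGraph V → ℝ}
    (h : ∀ H, φ H ≤ ψ H) (G : SimpleGraph V) : kil good j i φ G ≤ kil good j i ψ G := by
  induction i generalizing j G with
  | zero => exact h G
  | succ i ih =>
    rw [kil, kil]
    split_ifs
    · exact avg_mono (ih _)
    · rfl

lemma kil_add (good : ℕ → SimpleGraph V → Prop) (j i : ℕ) (φ ψ : SimpleGraph V → ℝ)
    (G : SimpleGraph V) :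
    kil good j i (fun H => φ H + ψ H) G = kil good j i φ G + kil good j i ψ G := by
  induction i generalizing j G with
  | zero => rfl
  | succ i ih =>
    rw [kil, kil, kil]
    split_ifs
    · rw [funext (ih _), avg_add]
    · simp

lemma kil_mul (good : ℕ → SimpleGraph V → Prop) (j i : ℕ) (c : ℝ) (φ : SimpleGraph V → ℝ)
    (G : SimpleGraph V) : kil good j i (fun H => c * φ H) G = c * kil good j i φ G := by
  induction i generalizing j G with
  | zero => rfl
  | succ i ih =>
    rw [kil, kil]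
    split_ifs
    · rw [funext (ih _), avg_mul]
    · simp

lemma kil_sum {ι : Type} (good : ℕ → SimpleGraph V → Prop) (j i : ℕ) (s : Finset ι)
    (φ : ι → SimpleGraph V → ℝ) (G : SimpleGraph V) :
    kil good j i (fun H => ∑ a ∈ s, φ a H) G = ∑ a ∈ s, kil good j i (φ a) G := by
  induction i generalizing j G with
  | zero => rfl
  | succ i ih =>
    simp only [kil]
    split_ifs
    · rw [funext (ih _), avg_sum]
    · simp

lemma kil_const_le (good : ℕ → SimpleGraph V → Prop) (j i : ℕ) {c : ℝ} (hc : 0 ≤ c)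
    (G : SimpleGraph V) : kil good j i (fun _ => c) G ≤ c := by
  induction i generalizing j G with
  | zero => exact le_rfl
  | succ i ih =>
    rw [kil]
    split_ifs
    · exact (avg_mono (ih _)).trans (avg_const G c).le
    · exact hc

lemma kil_nonneg (good : ℕ → SimpleGraph V → Prop) (j i : ℕ) {φ : SimpleGraph V → ℝ}
    (h : ∀ H, 0 ≤ φ H) (G : SimpleGraph V) : 0 ≤ kil good j i φ G := by
  have h1 := kil_mul good j i 0 φ G
  simp only [zero_mul] at h1
  exact h1.symm.le.trans (kil_mono good j i h G)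

lemma kil_le_aux (good : ℕ → SimpleGraph V → Prop) (φ : ℕ → SimpleGraph V → ℝ) (B : ℕ → ℝ)
    (h0 : ∀ t G, 0 ≤ φ t G) (hB : ∀ t, 0 ≤ B t) : ∀ i j,
    (∀ t < j + i, ∀ G, good t G → avg G (φ (t + 1)) ≤ φ t G + B t) → ∀ G : SimpleGraph V,
    kil good j i (φ (j + i)) G ≤ φ j G + ∑ t ∈ range i, B (j + t) := by
  intro i
  induction i with
  | zero => intro j _ G; simp [kil]
  | succ i ih =>
    intro j h G
    rw [kil, sum_range_succ']
    have hs : 0 ≤ ∑ t ∈ range i, B (j + (t + 1)) := sum_nonneg fun _ _ => hB _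
    split_ifs with hg
    · have h1 := ih (j + 1) fun t ht => h t (by omega)
      rw [show j + 1 + i = j + (i + 1) by omega] at h1
      have h2 := (avg_mono (G := G) h1).trans_eq (avg_add G _ _)
      rw [avg_const] at h2
      have h3 := h j (by omega) G hg
      simp only [show ∀ t, j + 1 + t = j + (t + 1) from fun t => by omega] at h2
      simp only [add_zero]
      linarith
    · have := h0 j G
      have := hB (j + 0)
      linarith

/-- Supermartingale inequality. -/
theorem kil_le (good : ℕ → SimpleGraph V → Prop) (φ : ℕ → SimpleGraph V → ℝ) (B : ℕ → ℝ) (i : ℕ)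
    (h0 : ∀ t G, 0 ≤ φ t G) (hB : ∀ t, 0 ≤ B t)
    (h : ∀ t < i, ∀ G, good t G → avg G (φ (t + 1)) ≤ φ t G + B t) (G : SimpleGraph V) :
    kil good 0 i (φ i) G ≤ φ 0 G + ∑ t ∈ range i, B t := by
  simpa using kil_le_aux good φ B h0 hB i 0 (by simpa using h) G

lemma fin_le_kil_aux (good : ℕ → SimpleGraph V → Prop) {ψ : SimpleGraph V → ℝ} {M : ℝ}
    (h0 : ∀ H, 0 ≤ ψ H) (hM : ∀ H, ψ H ≤ M) (i j : ℕ) (G : SimpleGraph V) :
    fin ψ G ≤ kil good j i (fun H => ind (good (j + i) H) * fin ψ H) G +
      M * ∑ t ∈ range (i + 1), kil good j t (fun H => ind (¬good (j + t) H)) G := by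
  have hf : ∀ H, fin ψ H ≤ M := fun H => (fin_mono hM H).trans (fin_const M H).le
  have hM0 : 0 ≤ M := (h0 G).trans (hM G)
  induction i generalizing j G with
  | zero =>
    simp only [kil, add_zero, zero_add, sum_range_one]
    by_cases hg : good j G
    · rw [ind_pos hg, ind_neg (not_not.mpr hg)]; simp
    · rw [ind_neg hg, ind_pos hg]; simpa using hf G
  | succ i ih =>
    rw [sum_range_succ']
    simp only [kil, add_zero]
    by_cases hg : good j G
    · simp only [if_pos hg]
      rw [ind_neg (not_not.mpr hg), add_zero, ← avg_sum, ← avg_mul, ← avg_add, fin_eq_avg]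
      refine avg_mono fun H => ?_
      have h1 := ih (j + 1) H
      simpa only [show ∀ t, j + 1 + t = j + (t + 1) from fun t => by omega] using h1
    · simp only [if_neg hg]
      rw [ind_pos hg]
      simpa using hf G

/-- Decomposition at the first failure. -/
theorem fin_le_kil (good : ℕ → SimpleGraph V → Prop) {ψ : SimpleGraph V → ℝ} {M : ℝ}
    (h0 : ∀ H, 0 ≤ ψ H) (hM : ∀ H, ψ H ≤ M) (i : ℕ) (G : SimpleGraph V) :
    fin ψ G ≤ kil good 0 i (fun H => ind (good i H) * fin ψ H) G +
      M * ∑ t ∈ range (i + 1), kil good 0 t (fun H => ind (¬good t H)) G := by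
  simpa using fin_le_kil_aux good h0 hM i 0 G

lemma sum_bind {α β : Type} [Fintype α] [Fintype β] (p : PMF α) (f : α → PMF β) (φ : β → ℝ) :
    ∑ b, (p.bind f b).toReal * φ b = ∑ a, (p a).toReal * ∑ b, (f a b).toReal * φ b := by
  simp only [PMF.bind_apply, tsum_fintype, mul_sum]
  rw [sum_comm]
  refine sum_congr rfl fun b _ => ?_
  rw [ENNReal.toReal_sum fun a _ => ENNReal.mul_ne_top (p.apply_ne_top a) ((f a).apply_ne_top b),
    sum_mul]
  exact sum_congr rfl fun a _ => by rw [ENNReal.toReal_mul, mul_assoc]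

lemma sum_pure {α : Type} [Fintype α] (a : α) (φ : α → ℝ) :
    ∑ b, (PMF.pure a b).toReal * φ b = φ a := by
  rw [sum_eq_single a]
  · simp
  · intro b _ hb
    simp [PMF.pure_apply, hb]
  · simp

lemma sum_step (G : SimpleGraph V) (φ : SimpleGraph V → ℝ) :
    ∑ H, (step G H).toReal * φ H = avg G φ := by
  unfold step avg
  split_ifs with h
  · rw [PMF.map, sum_bind]
    simp only [Function.comp, sum_pure, PMF.uniformOfFinset_apply]
    rw [tav, sum_div, ← sum_subset (subset_univ (tri G))]
    · refine sum_congr rfl fun T hT => ?_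
      rw [if_pos hT, ENNReal.toReal_inv, ENNReal.toReal_natCast, div_eq_inv_mul]
    · intro T _ hT
      simp [hT]
  · exact sum_pure G φ

lemma sum_run (φ : SimpleGraph V → ℝ) (k : ℕ) (G : SimpleGraph V) :
    ∑ H, (run k G H).toReal * φ H = ex k φ G := by
  induction k generalizing G with
  | zero => exact sum_pure G φ
  | succ k ih =>
    rw [run, sum_bind]
    simp only [ih]
    exact sum_step G _

lemma card_tri_le (G : SimpleGraph V) : (tri G).card ≤ (Fintype.card V).choose 3 := by
  rw [← card_univ, ← card_powersetCard]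
  exact card_le_card fun T hT => mem_powersetCard.mpr ⟨subset_univ _, (mem_tri.mp hT).card_eq⟩

lemma tsum_run (φ : SimpleGraph V → ℝ) (k : ℕ) (G : SimpleGraph V) :
    ∑' H, (run k G H).toReal * φ H = ex k φ G :=
  (tsum_fintype _).trans (sum_run φ k G)

theorem tsum_final (n : ℕ) (φ : SimpleGraph (Fin n) → ℝ) :
    ∑' G, (final n G).toReal * φ G = fin φ ⊤ :=
  (tsum_run φ (n.choose 3) ⊤).trans
    (ex_eq_ex φ _ _ _ (by simpa using card_tri_le (⊤ : SimpleGraph (Fin n))) le_rfl)

lemma run_cliqueFree : ∀ (k : ℕ) (G : SimpleGraph V), (tri G).card ≤ k →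
    ∀ H ∈ (run k G).support, H.CliqueFree 3 := by
  have key : ∀ G : SimpleGraph V, ¬(tri G).Nonempty → G.CliqueFree 3 := fun G h T hT =>
    h ⟨T, mem_tri.mpr hT⟩
  intro k
  induction k with
  | zero =>
    intro G h H hH
    rw [run, PMF.mem_support_pure_iff] at hH
    rw [hH]
    exact key G (by rw [← card_pos]; omega)
  | succ k ih =>
    intro G h H hH
    rw [run, PMF.mem_support_bind_iff] at hH
    obtain ⟨G', h1, h2⟩ := hH
    refine ih G' ?_ H h2
    unfold step at h1
    split_ifs at h1 with h3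
    · obtain ⟨T, hT, rfl⟩ := (PMF.mem_support_map_iff _ _ _).mp h1
      have := card_tri_rem ((PMF.mem_support_uniformOfFinset_iff _ _).mp hT)
      omega
    · rw [(PMF.mem_support_pure_iff _ _).mp h1, not_nonempty_iff_eq_empty.mp h3]
      simp

theorem final_cliqueFree (n : ℕ) : ∀ G ∈ (final n).support, G.CliqueFree 3 :=
  run_cliqueFree _ _ (by simpa using card_tri_le (⊤ : SimpleGraph (Fin n)))

end

end Vale.Agent.P046
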