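import Vale.Agent.P046.Chain

/-! The process driven by independent clocks. -/

namespace Vale.Agent.P046

open Classical Finset
open scoped BigOperators

noncomputable section

section Indep

variable {A Λ : Type} [Fintype Λ] [Fintype (A → Λ)]

omit [Fintype Λ] in
theorem expect_mul_indep {φ ψ : (A → Λ) → ℝ} {S S' : Set A} (hφ : DependsOn φ S)
    (hψ : DependsOn ψ S') (h : Disjoint S S') :
    𝔼 ω, φ ω * ψ ω = (𝔼 ω, φ ω) * 𝔼 ω, ψ ω := by
  rcases isEmpty_or_nonempty (A → Λ) with he | he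
  · simp
  let mix : (A → Λ) × (A → Λ) → (A → Λ) × (A → Λ) := fun p =>
    (fun a => if a ∈ S then p.1 a else p.2 a, fun a => if a ∈ S then p.2 a else p.1 a)
  have hm : Function.Involutive mix := fun p => by
    ext a <;> by_cases ha : a ∈ S <;> simp [mix, ha]
  have e1 : 𝔼 ω, φ ω * ψ ω = 𝔼 p : (A → Λ) × (A → Λ), φ p.1 * ψ p.1 := by
    rw [← univ_product_univ, expect_product]
    simp only [Fintype.expect_const]
  rw [e1, Fintype.expect_mul_expect, ← expect_product', univ_product_univ]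
  refine (Fintype.expect_bijective mix hm.bijective _ _ fun p => ?_).symm
  have a1 : φ p.1 = φ (mix p).1 := hφ fun a ha => by simp [mix, ha]
  have a2 : ψ p.2 = ψ (mix p).1 := hψ fun a ha => by
    simp [mix, Set.disjoint_right.1 h ha]
  rw [a1, a2]

omit [Fintype Λ] in
theorem expect_prod_indep [Nonempty Λ] {ι : Type} (s : Finset ι) {φ : ι → (A → Λ) → ℝ}
    {S : ι → Set A} (hφ : ∀ i ∈ s, DependsOn (φ i) (S i))
    (h : ∀ i ∈ s, ∀ j ∈ s, i ≠ j → Disjoint (S i) (S j)) :
    𝔼 ω, ∏ i ∈ s, φ i ω = ∏ i ∈ s, 𝔼 ω, φ i ω := by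
  induction s using Finset.induction_on with
  | empty => simp only [prod_empty, Fintype.expect_const]
  | insert a s ha ih =>
    simp only [prod_insert ha]
    rw [← ih (fun i hi => hφ i (mem_insert_of_mem hi))
      fun i hi j hj => h i (mem_insert_of_mem hi) j (mem_insert_of_mem hj)]
    refine expect_mul_indep (S' := ⋃ i ∈ s, S i) (hφ a (mem_insert_self _ _))
      (fun x y hxy => prod_congr rfl fun i hi => hφ i (mem_insert_of_mem hi) fun b hb =>
        hxy b (Set.mem_biUnion hi hb)) ?_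
    simp only [Set.disjoint_iUnion_right]
    exact fun i hi => h a (mem_insert_self _ _) i (mem_insert_of_mem hi) fun e => ha (e ▸ hi)

theorem expect_coord (a : A) (v : Λ) :
    𝔼 ω : A → Λ, ind (ω a = v) = 1 / (Fintype.card Λ : ℝ) := by
  have : Nonempty (A → Λ) := ⟨fun _ => v⟩
  have : Nonempty Λ := ⟨v⟩
  have h1 : ∀ w : Λ, 𝔼 ω : A → Λ, ind (ω a = w) = 𝔼 ω : A → Λ, ind (ω a = v) := fun w => by
    let f : (A → Λ) → (A → Λ) := fun ω b => Equiv.swap v w (ω b)
    have hf : Function.Involutive f := fun ω => by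
      ext b
      simp [f]
    refine Fintype.expect_bijective f hf.bijective _ _ fun ω => ind_congr ?_
    simp only [f]
    rw [Equiv.swap_apply_eq_iff, Equiv.swap_apply_left]
  have h2 : ∑ w : Λ, 𝔼 ω : A → Λ, ind (ω a = w) = 1 := by
    rw [← expect_sum_comm]
    simp [ind]
  simp only [h1, sum_const, card_univ, nsmul_eq_mul] at h2
  rw [eq_div_iff (Nat.cast_ne_zero.2 Fintype.card_ne_zero), mul_comm, h2]

lemma ind_forall {ι : Type} (s : Finset ι) (p : ι → Prop) :
    ind (∀ i ∈ s, p i) = ∏ i ∈ s, ind (p i) := by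
  by_cases h : ∀ i ∈ s, p i
  · rw [ind_pos h, prod_eq_one fun i hi => ind_pos (h i hi)]
  · rw [ind_neg h]
    push Not at h
    obtain ⟨i, hi, hp⟩ := h
    rw [prod_eq_zero hi (ind_neg hp)]

theorem expect_agree [Nonempty Λ] {ι : Type} (s : Finset ι) (f : ι → A) (hf : Set.InjOn f s)
    (v : ι → Λ) :
    𝔼 ω : A → Λ, ind (∀ i ∈ s, ω (f i) = v i) = (1 / (Fintype.card Λ : ℝ)) ^ s.card := by
  simp only [ind_forall]
  rw [expect_prod_indep s (S := fun i => {f i}) (fun i _ x y hxy => by rw [hxy _ rfl])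
    fun i hi j hj hij => Set.disjoint_singleton.2 fun e => hij (hf hi hj e)]
  simp only [expect_coord, prod_const]

end Indep

variable {V : Type} [Fintype V]

/-- The edge `x y` is not deleted strictly before time `s`. -/
def al (G : SimpleGraph V) (ω : Finset V → ℕ) (x y : V) (s : ℕ) : Prop :=
  ∀ z, G.Adj x z → G.Adj y z → ∀ _ : ω {x, y, z} < s,
    ¬(al G ω x z (ω {x, y, z}) ∧ al G ω y z (ω {x, y, z}))
termination_by s

omit [Fintype V] in
lemma al_iff (G : SimpleGraph V) (ω : Finset V → ℕ) (x y : V) (s : ℕ) : al G ω x y s ↔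
    ∀ z, G.Adj x z → G.Adj y z → ω {x, y, z} < s →
      ¬(al G ω x z (ω {x, y, z}) ∧ al G ω y z (ω {x, y, z})) := by
  rw [al]

omit [Fintype V] in
lemma al_symm {G : SimpleGraph V} {ω : Finset V → ℕ} {x y : V} {s : ℕ} (h : al G ω x y s) :
    al G ω y x s := by
  rw [al_iff] at h ⊢
  intro z h1 h2
  rw [insert_comm y x]
  exact fun h3 h4 => h z h2 h1 h3 h4.symm

/-- The final graph for clocks with values below `N`. -/
def out (G : SimpleGraph V) (ω : Finset V → ℕ) (N : ℕ) : SimpleGraph V where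
  Adj x y := G.Adj x y ∧ al G ω x y N
  symm := ⟨fun _ _ h => ⟨h.1.symm, al_symm h.2⟩⟩
  loopless := ⟨fun _ h => h.1.ne rfl⟩

lemma mem_tri3 {G : SimpleGraph V} {x y z : V} (h1 : G.Adj x y) (h2 : G.Adj x z)
    (h3 : G.Adj y z) : ({x, y, z} : Finset V) ∈ tri G :=
  mem_tri.2 (SimpleGraph.is3Clique_triple_iff.2 ⟨h1, h2, h3⟩)

lemma al_congr {G : SimpleGraph V} {ω ω' : Finset V → ℕ} (h : ∀ T ∈ tri G, ω T = ω' T) (s : ℕ) :
    ∀ x y, G.Adj x y → (al G ω x y s ↔ al G ω' x y s) := by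
  induction s using Nat.strong_induction_on with
  | _ s ih =>
    intro x y hxy
    rw [al_iff, al_iff]
    refine forall_congr' fun z => forall_congr' fun h1 => forall_congr' fun h2 => ?_
    rw [← h _ (mem_tri3 hxy h1 h2)]
    exact forall_congr' fun h3 => by rw [ih _ h3 x z h1, ih _ h3 y z h2]

lemma out_congr {G : SimpleGraph V} {ω ω' : Finset V → ℕ} (h : ∀ T ∈ tri G, ω T = ω' T) (N : ℕ) :
    out G ω N = out G ω' N := by
  ext x y
  exact and_congr_right fun hxy => al_congr h N x y hxy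

lemma al_of_le {G : SimpleGraph V} {ω : Finset V → ℕ} {s : ℕ} (h : ∀ T ∈ tri G, s ≤ ω T) {x y : V}
    (hxy : G.Adj x y) : al G ω x y s := by
  rw [al_iff]
  exact fun z h1 h2 h3 => absurd (h _ (mem_tri3 hxy h1 h2)) (not_le.2 h3)

lemma out_rem {G : SimpleGraph V} {ω : Finset V → ℕ} {T : Finset V} (hT : T ∈ tri G)
    (h : ∀ T' ∈ tri G, T' ≠ T → ω T < ω T') {N : ℕ} (hN : ω T < N) :
    out G ω N = out (rem G T) ω N := by
  have h0 : ∀ T' ∈ tri G, ω T ≤ ω T' := fun T' hT' => by
    by_cases e : T' = T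
    · rw [e]
    · exact (h T' hT' e).le
  have hb : ∀ x y s, G.Adj x y → x ∈ T → y ∈ T → ω T < s → ¬al G ω x y s := by
    intro x y s hxy hx hy hs hal
    have hc := mem_tri.1 hT
    have c1 : ((T.erase x).erase y).card = 1 := by
      rw [card_erase_of_mem (mem_erase.2 ⟨hxy.ne', hy⟩), card_erase_of_mem hx, hc.card_eq]
    obtain ⟨z, hz⟩ := card_eq_one.1 c1
    have hz' : z ∈ (T.erase x).erase y := hz ▸ mem_singleton_self z
    simp only [mem_erase] at hz'
    have e : T = {x, y, z} := by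
      rw [← hz, insert_erase (mem_erase.2 ⟨hxy.ne', hy⟩), insert_erase hx]
    have a1 : G.Adj x z := hc.isClique hx hz'.2.2 hz'.2.1.symm
    have a2 : G.Adj y z := hc.isClique hy hz'.2.2 hz'.1.symm
    rw [al_iff] at hal
    refine hal z a1 a2 (e ▸ hs) ?_
    rw [← e]
    exact ⟨al_of_le h0 a1, al_of_le h0 a2⟩
  have ha : ∀ s x y, G.Adj x y → ¬(x ∈ T ∧ y ∈ T) → (al G ω x y s ↔ al (rem G T) ω x y s) := by
    intro s
    induction s using Nat.strong_induction_on with
    | _ s ih =>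
      intro x y hxy hn
      rw [al_iff, al_iff]
      refine forall_congr' fun z => ⟨fun H h1 h2 h3 => ?_, fun H h1 h2 h3 => ?_⟩
      · rw [← ih _ h3 x z h1.1 h1.2, ← ih _ h3 y z h2.1 h2.2]
        exact H h1.1 h2.1 h3
      · have lt : ω T < ω {x, y, z} := h _ (mem_tri3 hxy h1 h2) fun e =>
          hn ⟨e ▸ mem_insert_self _ _, e ▸ mem_insert_of_mem (mem_insert_self _ _)⟩
        by_cases c1 : x ∈ T ∧ z ∈ T
        · exact fun h4 => hb x z _ h1 c1.1 c1.2 lt h4.1
        by_cases c2 : y ∈ T ∧ z ∈ T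
        · exact fun h4 => hb y z _ h2 c2.1 c2.2 lt h4.2
        rw [ih _ h3 x z h1 c1, ih _ h3 y z h2 c2]
        exact H ⟨h1, c1⟩ ⟨h2, c2⟩ h3
  ext x y
  refine ⟨fun H => ?_, fun H => ⟨H.1.1, (ha N x y H.1.1 H.1.2).2 H.2⟩⟩
  have hn : ¬(x ∈ T ∧ y ∈ T) := fun c => hb x y N H.1 c.1 c.2 hN H.2
  exact ⟨⟨H.1, hn⟩, (ha N x y H.1 hn).1 H.2⟩

/-- The probability that `k` clocks are distinct and at least `j`. -/
def cc (N : ℕ) : ℕ → ℕ → ℝ
  | 0, _ => 1
  | k + 1, j => (k + 1) / N * ∑ v : Fin N, ind (j ≤ v) * cc N k (v + 1)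

/-- The clocks on `U` are distinct and at least `j`. -/
def Dis {N : ℕ} (U : Finset (Finset V)) (j : ℕ) (ω : Finset V → Fin N) : Prop :=
  Set.InjOn ω U ∧ ∀ T ∈ U, j ≤ (ω T : ℕ)

omit [Fintype V] in
lemma dis_split {N : ℕ} {U : Finset (Finset V)} (hU : U.Nonempty) (j : ℕ)
    (ω : Finset V → Fin N) : ind (Dis U j ω) =
      ∑ T ∈ U, ∑ v : Fin N, ind (j ≤ v) * (ind (ω T = v) * ind (Dis (U.erase T) (v + 1) ω)) := by
  have e : ∀ T, ∑ v : Fin N, ind (j ≤ v) * (ind (ω T = v) * ind (Dis (U.erase T) (v + 1) ω)) =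
      ind (j ≤ ω T ∧ Dis (U.erase T) (ω T + 1) ω) := fun T => by
    rw [sum_eq_single (ω T) (fun v _ hv => by rw [ind_neg hv.symm, zero_mul, mul_zero])
      (by simp), ind_pos rfl, one_mul, ind_and]
  simp only [e]
  obtain ⟨T, hT, hmin⟩ := exists_min_image U ω hU
  rw [sum_eq_single_of_mem T hT fun T' hT' hne => ind_neg fun H => ?_]
  · refine ind_congr ⟨fun H => ⟨H.2 T hT, H.1.mono (erase_subset _ _), fun T' hT' => ?_⟩,
      fun H => ⟨fun T1 h1 T2 h2 e => ?_, fun T' hT' => H.1.trans (hmin T' hT')⟩⟩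
    · rw [mem_erase] at hT'
      exact lt_of_le_of_ne (hmin T' hT'.2) fun e => hT'.1 (H.1 hT'.2 hT e.symm)
    · have k : ∀ T' ∈ U, ω T' = ω T → T' = T := fun T' hT' e' => by
        by_contra c
        have := H.2.2 T' (mem_erase.2 ⟨c, hT'⟩)
        rw [e'] at this
        omega
      by_cases c : T1 = T
      · rw [c, k T2 h2 (by rw [← e, c])]
      by_cases c' : T2 = T
      · rw [c', k T1 h1 (by rw [e, c'])]
      exact H.2.1 (mem_coe.2 (mem_erase.2 ⟨c, h1⟩)) (mem_coe.2 (mem_erase.2 ⟨c', h2⟩)) e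
  · have a1 := H.2.2 T (mem_erase.2 ⟨hne.symm, hT⟩)
    have a2 : (ω T : ℕ) ≤ ω T' := hmin T' hT'
    omega

lemma sum_fin_rem (ψ : SimpleGraph V → ℝ) {G : SimpleGraph V} {U : Finset (Finset V)}
    (hU : tri G ⊆ U) :
    ∑ T ∈ U, fin ψ (if T ∈ tri G then rem G T else G) = U.card * fin ψ G := by
  have h1 : ∑ T ∈ tri G, fin ψ (rem G T) = (tri G).card * fin ψ G := by
    by_cases h : (tri G).Nonempty
    · rw [fin_eq_avg ψ G, avg, if_pos h, tav,
        mul_div_cancel₀ _ (Nat.cast_ne_zero.2 h.card_pos.ne')]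
    · rw [not_nonempty_iff_eq_empty.1 h]
      simp
  have h2 : ∑ T ∈ U \ tri G, fin ψ (if T ∈ tri G then rem G T else G) =
      ∑ _T ∈ U \ tri G, fin ψ G := sum_congr rfl fun T hT => by rw [if_neg (mem_sdiff.1 hT).2]
  have h3 : ∑ T ∈ tri G, fin ψ (if T ∈ tri G then rem G T else G) =
      ∑ T ∈ tri G, fin ψ (rem G T) := sum_congr rfl fun T hT => by rw [if_pos hT]
  rw [← sum_sdiff hU, h2, h3, h1, sum_const, nsmul_eq_mul, ← add_mul,
    ← Nat.cast_add, card_sdiff_add_card_eq_card hU]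

lemma expect_dis {N : ℕ} (hN : 0 < N) (ψ : SimpleGraph V → ℝ) (k : ℕ) :
    ∀ (U : Finset (Finset V)) (G : SimpleGraph V) (j : ℕ), U.card = k → tri G ⊆ U →
      𝔼 ω : Finset V → Fin N, ind (Dis U j ω) * ψ (out G (fun T => ω T) N) =
        cc N k j * fin ψ G := by
  have : Nonempty (Fin N) := ⟨⟨0, hN⟩⟩
  induction k with
  | zero =>
    intro U G j hk hU
    rw [card_eq_zero] at hk
    subst hk
    have h0 : tri G = ∅ := subset_empty.1 hU
    have e : ∀ ω : Finset V → ℕ, out G ω N = G := fun ω => by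
      ext x y
      exact ⟨fun H => H.1, fun H => ⟨H, al_of_le (by simp [h0]) H⟩⟩
    have e' : ∀ ω : Finset V → Fin N, ind (Dis ∅ j ω) = 1 := fun ω => ind_pos (by simp [Dis])
    simp only [e, e', cc, Fintype.expect_const]
    rw [fin_of_empty ψ (by simp [h0])]
  | succ k ih =>
    intro U G j hk hU
    have hne : U.Nonempty := card_pos.1 (by omega)
    have step : ∀ T ∈ U, ∀ v : Fin N, 𝔼 ω : Finset V → Fin N,
        ind (ω T = v) * ind (Dis (U.erase T) (v + 1) ω) * ψ (out G (fun T => ω T) N) =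
          1 / N * (cc N k (v + 1) * fin ψ (if T ∈ tri G then rem G T else G)) := by
      intro T hT v
      set G' := if T ∈ tri G then rem G T else G with hG'
      have hs : tri G' ⊆ U.erase T := by
        rw [hG']
        split_ifs with c
        · exact (tri_rem_subset G T).trans (erase_subset_erase _ hU)
        · exact fun T' hT' => mem_erase.2 ⟨fun e => c (e ▸ hT'), hU hT'⟩
      rw [← ih (U.erase T) G' (v + 1) (by rw [card_erase_of_mem hT, hk]; rfl) hs]
      have e1 : (1 / N : ℝ) = 𝔼 ω : Finset V → Fin N, ind (ω T = v) := by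
        rw [expect_coord, Fintype.card_fin]
      rw [e1, ← expect_mul_indep (S := {T}) (S' := U.erase T) (fun x y hxy => by rw [hxy _ rfl])
        (fun x y hxy => ?_) (by simp)]
      · refine expect_congr rfl fun ω _ => ?_
        by_cases c1 : ω T = v
        swap
        · rw [ind_neg c1, zero_mul, zero_mul, zero_mul]
        by_cases c2 : Dis (U.erase T) (v + 1) ω
        swap
        · rw [ind_neg c2, mul_zero, zero_mul, zero_mul, mul_zero]
        have e2 : out G (fun T => (ω T : ℕ)) N = out G' (fun T => ω T) N := by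
          rw [hG']
          split_ifs with c
          · refine out_rem c (fun T' h1 h2 => ?_) (ω T).2
            have := c2.2 T' (mem_erase.2 ⟨h2, hU h1⟩)
            rw [c1]
            exact this
          · rfl
        rw [e2, mul_assoc]
      · have a1 : Dis (U.erase T) (v + 1) x ↔ Dis (U.erase T) (v + 1) y :=
          and_congr (Set.EqOn.injOn_iff fun T' hT' => hxy T' hT')
            (forall₂_congr fun T' hT' => by rw [hxy T' hT'])
        rw [ind_congr a1, out_congr (ω' := fun T => y T) fun T' hT' => by rw [hxy T' (hs hT')]]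
    simp only [dis_split hne, sum_mul, expect_sum_comm, mul_assoc (ind (j ≤ _)), ← mul_expect]
    rw [sum_congr rfl fun T hT => sum_congr rfl fun v _ => by rw [step T hT v], sum_comm, cc]
    simp only [← mul_sum, sum_fin_rem ψ hU, hk]
    rw [mul_assoc, sum_mul, mul_sum]
    refine sum_congr rfl fun v _ => ?_
    push_cast
    ring

theorem clock (G : SimpleGraph V) {ψ : SimpleGraph V → ℝ} {M : ℝ} (hM : ∀ H, |ψ H| ≤ M) {N : ℕ}
    (hN : 0 < N) :
    |fin ψ G - 𝔼 ω : Finset V → Fin N, ψ (out G (fun T => ω T) N)| ≤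
      2 * M * (tri G).card ^ 2 / N := by
  have : Nonempty (Fin N) := ⟨⟨0, hN⟩⟩
  have hN' : (0 : ℝ) < N := by exact_mod_cast hN
  have hM0 : 0 ≤ M := (abs_nonneg _).trans (hM G)
  have hb : tri (⊥ : SimpleGraph V) = ∅ := by
    refine eq_empty_of_forall_notMem fun T hT => ?_
    obtain ⟨a, b, c, h, -⟩ := SimpleGraph.is3Clique_iff.1 (mem_tri.1 hT)
    exact h
  have h1 := expect_dis hN ψ _ (tri G) G 0 rfl Subset.rfl
  have h2 := expect_dis hN (fun _ => 1) _ (tri G) ⊥ 0 rfl (by rw [hb]; exact empty_subset _)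
  rw [fin_of_empty _ (by simp [hb])] at h2
  simp only [mul_one] at h2
  have h3 : 𝔼 ω : Finset V → Fin N, (1 - ind (Dis (tri G) 0 ω)) ≤ (tri G).card ^ 2 / N := by
    have a1 : ∀ T T' : Finset V, T ≠ T' → 𝔼 ω : Finset V → Fin N, ind (ω T = ω T') = 1 / N := by
      intro T T' hne
      have e : ∀ ω : Finset V → Fin N, ind (ω T = ω T') =
          ∑ v : Fin N, ind (ω T = v) * ind (ω T' = v) := fun ω => by
        rw [sum_eq_single (ω T') (fun v _ hv => by rw [ind_neg hv.symm, mul_zero]) (by simp),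
          ind_pos rfl, mul_one]
      simp only [e, expect_sum_comm]
      rw [sum_congr rfl fun v _ => expect_mul_indep (S := {T}) (S' := {T'})
        (fun x y hxy => by rw [hxy _ rfl]) (fun x y hxy => by rw [hxy _ rfl]) (by simpa)]
      simp only [expect_coord, Fintype.card_fin, sum_const, card_univ, nsmul_eq_mul]
      field_simp
    have a2 : ∀ ω : Finset V → Fin N, 1 - ind (Dis (tri G) 0 ω) ≤
        ∑ p ∈ (tri G).offDiag, ind (ω p.1 = ω p.2) := fun ω => by
      by_cases c : Dis (tri G) 0 ω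
      · rw [ind_pos c, sub_self]
        exact sum_nonneg fun _ _ => ind_nonneg _
      · rw [ind_neg c, sub_zero]
        simp only [Dis, Nat.zero_le, implies_true, and_true, Set.InjOn, not_forall] at c
        obtain ⟨T, hT, T', hT', e, hne⟩ := c
        rw [← ind_pos e]
        exact single_le_sum (f := fun p : Finset V × Finset V => ind (ω p.1 = ω p.2))
          (fun _ _ => ind_nonneg _) (a := (T, T')) (mem_offDiag.2 ⟨hT, hT', hne⟩)
    refine (expect_le_expect fun ω _ => a2 ω).trans ?_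
    rw [expect_sum_comm, sum_congr rfl fun p hp => a1 _ _ (mem_offDiag.1 hp).2.2, sum_const,
      nsmul_eq_mul, mul_one_div]
    refine div_le_div_of_nonneg_right ?_ hN'.le
    rw [offDiag_card, sq]
    exact_mod_cast Nat.sub_le _ _
  have h4 : fin ψ G - 𝔼 ω : Finset V → Fin N, ψ (out G (fun T => ω T) N) =
      𝔼 ω : Finset V → Fin N,
        (1 - ind (Dis (tri G) 0 ω)) * (fin ψ G - ψ (out G (fun T => ω T) N)) := by
    simp only [sub_mul, mul_sub, one_mul, expect_sub_distrib, ← expect_mul, h1, h2,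
      Fintype.expect_const]
    ring
  rw [h4, mul_div_assoc]
  refine (abs_expect_le _ _).trans (le_trans ?_ (mul_le_mul_of_nonneg_left h3 (by positivity)))
  rw [mul_expect]
  refine expect_le_expect fun ω _ => ?_
  rw [abs_mul, abs_of_nonneg (sub_nonneg.2 (ind_le_one _)), mul_comm]
  refine mul_le_mul_of_nonneg_right ((abs_sub _ _).trans ?_) (sub_nonneg.2 (ind_le_one _))
  linarith [abs_fin_le hM G, hM (out G (fun T => ω T) N)]

end

end Vale.Agent.P046
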