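import Vale.Agent.P046.TreeB

/-! Edges spanned by a collision free family of nodes. -/

namespace Vale.Agent.P046

open Classical Finset

noncomputable section

variable {V : Type}

/-- The edge on side `b` of a state. -/
def eS (σ : St V) (b : Bool) : Sym2 V := s((σ b).1, (σ b).2.1)

/-- The proper root edges are vertex disjoint. -/
def RootInj (r : St V) : Prop :=
  ∀ b b' w, (r b).1 ≠ (r b).2.1 → (r b').1 ≠ (r b').2.1 → (w = (r b).1 ∨ w = (r b).2.1) →
    (w = (r b').1 ∨ w = (r b').2.1) → b = b'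

/-- A collision free family of nodes, closed under taking parents. -/
structure Fam (G : SimpleGraph V) (r : St V) (U : Finset (List (Lab V))) : Prop where
  tail : ∀ d l, d :: l ∈ U → l ∈ U
  val : ∀ d l, d :: l ∈ U → val G (st r l) d
  root : ∀ d l, d :: l ∈ U → d.2 ∉ rootV r
  inj : ∀ d l d' l', d :: l ∈ U → d' :: l' ∈ U → d.2 = d'.2 → d :: l = d' :: l'

/-- The depth of a vertex. -/
def dep (U : Finset (List (Lab V))) (z : V) : ℕ :=
  if h : ∃ m : Lab V × List (Lab V), m.1 :: m.2 ∈ U ∧ m.1.2 = z then h.choose.2.length + 1 else 0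

lemma st_snd (r : St V) (d : Lab V) (l : List (Lab V)) (b : Bool) :
    (st r (d :: l) b).2.1 = d.2 := by
  cases b <;> rfl

lemma st_fst (r : St V) (d : Lab V) (l : List (Lab V)) (b : Bool) :
    (st r (d :: l) b).1 = (st r l d.1).1 ∨ (st r (d :: l) b).1 = (st r l d.1).2.1 := by
  cases b
  · exact Or.inl rfl
  · exact Or.inr rfl

lemma st_other (r : St V) (d : Lab V) (l : List (Lab V)) {b b' : Bool} (h : b ≠ b') :
    (st r (d :: l) b).2.2 = (st r (d :: l) b').1 := by
  cases b <;> cases b' <;> first | rfl | exact absurd rfl h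

lemma st_base (r : St V) (d : Lab V) (l : List (Lab V)) {b b' : Bool} (h : b ≠ b') :
    s((st r (d :: l) b).1, (st r (d :: l) b').1) = eS (st r l) d.1 := by
  cases b <;> cases b' <;> first | rfl | exact absurd rfl h | exact Sym2.eq_swap

lemma val_adj {G : SimpleGraph V} {r : St V} {d : Lab V} {l : List (Lab V)}
    (h : val G (st r l) d) (b : Bool) : G.Adj (st r (d :: l) b).1 (st r (d :: l) b).2.1 := by
  cases b
  · exact h.2.1
  · exact h.2.2.1

lemma val_side {G : SimpleGraph V} {r : St V} {d : Lab V} {l : List (Lab V)}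
    (h : val G (st r l) d) {b b' : Bool} (hb : (st r (d :: l) b).1 = (st r (d :: l) b').1) :
    b = b' := by
  cases b <;> cases b'
  · rfl
  · exact absurd hb h.1.ne
  · exact absurd hb h.1.ne'
  · rfl

variable {G : SimpleGraph V} {r : St V} {U : Finset (List (Lab V))}

lemma Fam.dep_apex (h : Fam G r U) {d : Lab V} {l : List (Lab V)} (hm : d :: l ∈ U) :
    dep U d.2 = l.length + 1 := by
  have he : ∃ m : Lab V × List (Lab V), m.1 :: m.2 ∈ U ∧ m.1.2 = d.2 := ⟨(d, l), hm, rfl⟩
  rw [dep, dif_pos he]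
  have := h.inj _ _ _ _ he.choose_spec.1 hm he.choose_spec.2
  rw [(List.cons.inj this).2]

lemma Fam.dep_root (h : Fam G r U) {z : V} (hz : z ∈ rootV r) : dep U z = 0 := by
  rw [dep, dif_neg]
  rintro ⟨m, hm, rfl⟩
  exact h.root _ _ hm hz

lemma Fam.dep_snd (h : Fam G r U) {m : List (Lab V)} (hm : m ∈ U) (b : Bool) :
    dep U (st r m b).2.1 = m.length := by
  cases m with
  | nil => exact h.dep_root ⟨b, Or.inr rfl⟩
  | cons d l => rw [st_snd, h.dep_apex hm, List.length_cons]

lemma Fam.dep_fst (h : Fam G r U) : ∀ {m : List (Lab V)}, m ∈ U → ∀ b,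
    dep U (st r m b).1 ≤ m.length - 1
  | [], _, b => (h.dep_root ⟨b, Or.inl rfl⟩).le
  | d :: l, hm, b => by
    have h1 := h.dep_fst (h.tail _ _ hm) d.1
    have h2 := h.dep_snd (h.tail _ _ hm) d.1
    rcases st_fst r d l b with e | e <;> rw [e] <;> simp only [List.length_cons] <;> omega

/-- Nodes of the family are determined by their apex. -/
lemma Fam.eq_of_snd (h : Fam G r U) {m m' : List (Lab V)} (hm : m ∈ U) (hm' : m' ∈ U)
    {b b' : Bool} (e : (st r m b).2.1 = (st r m' b').2.1) : m = m' := by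
  have h1 := h.dep_snd hm b
  have h2 := h.dep_snd hm' b'
  rw [e, h2] at h1
  cases m with
  | nil => exact (List.length_eq_zero_iff.mp h1).symm
  | cons d l =>
    cases m' with
    | nil => simp at h1
    | cons d' l' =>
      rw [st_snd, st_snd] at e
      exact h.inj _ _ _ _ hm hm' e

lemma Fam.edge_inj (h : Fam G r U) (hr : RootInj r) {m m' : List (Lab V)} (hm : m ∈ U)
    (hm' : m' ∈ U) {b b' : Bool} (hn : (st r m b).1 ≠ (st r m b).2.1)
    (e : eS (st r m) b = eS (st r m') b') : m = m' ∧ b = b' := by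
  rcases Sym2.eq_iff.mp e with ⟨e1, e2⟩ | ⟨e1, e2⟩
  · obtain rfl := h.eq_of_snd hm hm' e2
    refine ⟨rfl, ?_⟩
    cases m with
    | nil =>
      exact hr b b' _ hn (fun e3 => hn (e1.trans (e3.trans e2.symm))) (Or.inl rfl) (Or.inl e1)
    | cons d l => exact val_side (h.val _ _ hm) e1
  · have h1 := h.dep_snd hm b
    have h2 := h.dep_snd hm' b'
    have h3 := h.dep_fst hm b
    have h4 := h.dep_fst hm' b'
    rw [e1, h2] at h3
    rw [← e2, h1] at h4
    obtain rfl : m = [] := List.length_eq_zero_iff.mp (by omega)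
    obtain rfl : m' = [] := List.length_eq_zero_iff.mp (by omega)
    exact ⟨rfl, hr b b' _ hn (fun e3 => hn (e1.trans (e3.symm.trans e2.symm))) (Or.inl rfl)
      (Or.inr e1)⟩

/-- One of the two edges of a new node is new. -/
lemma Fam.new_edge (h : Fam G r U) (hr : RootInj r) {c : Lab V} {l : List (Lab V)} (hl : l ∈ U)
    (hc : P046.val G (st r l) c) (hn : c :: l ∉ U) {m m' : List (Lab V)} (hm : m ∈ U) (hm' : m' ∈ U)
    {b b' : Bool} (e : eS (st r (c :: l)) true = eS (st r m) b)
    (e' : eS (st r (c :: l)) false = eS (st r m') b') : False := by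
  obtain ⟨hxy, hxz, hyz, hzo⟩ := hc
  have hx := h.dep_fst hl c.1
  have hy := h.dep_snd hl c.1
  rcases Sym2.eq_iff.mp e with ⟨e1, e2⟩ | ⟨e1, e2⟩
  · change (st r l c.1).2.1 = _ at e1
    change c.2 = _ at e2
    have h1 := h.dep_fst hm b
    have h2 := h.dep_snd hm b
    rw [← e1, hy] at h1
    rw [← e2] at h2
    cases m with
    | nil =>
      obtain rfl : l = [] := List.length_eq_zero_iff.mp (by simpa using h1)
      have := hr b c.1 _ (fun e3 => hyz.ne (e1.trans (e3.trans e2.symm))) hxy.ne (Or.inl e1)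
        (Or.inr rfl)
      subst this
      exact hxy.ne e1.symm
    | cons d k =>
      simp only [List.length_cons] at h1 h2
      rcases Sym2.eq_iff.mp e' with ⟨e3, e4⟩ | ⟨e3, e4⟩
      · change (st r l c.1).1 = _ at e3
        change c.2 = _ at e4
        obtain rfl := h.eq_of_snd hm hm' (e2.symm.trans e4)
        have hb : b' ≠ b := fun hb => hxy.ne (by rw [e3, e1, hb])
        have h5 := st_base r d k hb
        rw [← e3, ← e1] at h5
        obtain ⟨rfl, h6⟩ := h.edge_inj hr hl (h.tail _ _ hm) hxy.ne h5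
        rw [st_snd] at e2
        exact hn (by rwa [show c = d from Prod.ext h6 e2])
      · change (st r l c.1).1 = _ at e3
        change c.2 = _ at e4
        have h3 := h.dep_fst hm' b'
        have h4 := h.dep_snd hm' b'
        rw [← e4] at h3
        rw [← e3] at h4
        omega
  · change (st r l c.1).2.1 = _ at e1
    change c.2 = _ at e2
    obtain rfl := h.eq_of_snd hl hm e1
    have hb : c.1 ≠ b := fun hb => hxz.ne (by rw [e2, hb])
    cases l with
    | nil =>
      exact hb (hr c.1 b _ hxy.ne (fun e3 => hyz.ne (e1.trans (e3.symm.trans e2.symm)))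
        (Or.inr rfl) (Or.inr e1))
    | cons d k => exact hzo (e2.trans (st_other r d k hb).symm)

/-- The proper edges of the nodes of a family. -/
def edges (r : St V) (U : Finset (List (Lab V))) : Finset (Sym2 V) :=
  ((U ×ˢ (univ : Finset Bool)).filter fun x => (st r x.1 x.2).1 ≠ (st r x.1 x.2).2.1).image
    fun x => eS (st r x.1) x.2

lemma mem_edges {e : Sym2 V} : e ∈ edges r U ↔
    ∃ m ∈ U, ∃ b, (st r m b).1 ≠ (st r m b).2.1 ∧ eS (st r m) b = e := by
  simp only [edges, mem_image, mem_filter, mem_product, mem_univ, and_true, Prod.exists]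
  constructor
  · rintro ⟨m, b, ⟨h1, h2⟩, h3⟩
    exact ⟨m, h1, b, h2, h3⟩
  · rintro ⟨m, h1, b, h2, h3⟩
    exact ⟨m, b, ⟨h1, h2⟩, h3⟩

lemma card_edges_le (r : St V) (U : Finset (List (Lab V))) : (edges r U).card ≤ 2 * U.card := by
  refine card_image_le.trans ((card_filter_le _ _).trans ?_)
  simp [mul_comm]

lemma Fam.card_edges (h : Fam G r U) (hr : RootInj r) (h0 : [] ∈ U) {ρ : ℕ} {B : Finset Bool}
    (hB : ∀ b ∈ B, (r b).1 ≠ (r b).2.1) (hρ : ρ ≤ B.card) :
    ρ + 2 * U.card ≤ (edges r U).card + 2 := by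
  rw [edges, card_image_of_injOn]
  swap
  · intro x hx y hy e
    simp only [coe_filter, mem_product, mem_univ, and_true, Set.mem_ofPred_eq] at hx hy
    obtain ⟨h1, h2⟩ := h.edge_inj hr hx.1 hy.1 hx.2 e
    exact Prod.ext h1 h2
  have hs : ({[]} : Finset (List (Lab V))) ×ˢ B ∪ (U.erase []) ×ˢ (univ : Finset Bool) ⊆
      (U ×ˢ (univ : Finset Bool)).filter fun x => (st r x.1 x.2).1 ≠ (st r x.1 x.2).2.1 := by
    rintro ⟨m, b⟩ hx
    simp only [mem_union, mem_product, mem_singleton, mem_erase, mem_univ, and_true,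
      mem_filter] at hx ⊢
    rcases hx with ⟨rfl, hb⟩ | ⟨hm, hU⟩
    · exact ⟨h0, hB b hb⟩
    · cases m with
      | nil => exact absurd rfl hm
      | cons d l => exact ⟨hU, (val_adj (h.val _ _ hU) b).ne⟩
  have h1 := card_le_card hs
  rw [card_union_of_disjoint, card_product, card_product, card_erase_of_mem h0] at h1
  · have := card_pos.mpr ⟨_, h0⟩
    simp only [card_singleton, card_univ, Fintype.card_bool] at h1
    omega
  · refine disjoint_left.mpr fun x h1 h2 => ?_
    simp only [mem_product, mem_singleton, mem_erase] at h1 h2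
    exact h2.1.1 h1.1

lemma Fam.card_edges_insert (h : Fam G r U) (hr : RootInj r) {c : Lab V} {l : List (Lab V)}
    (hl : l ∈ U) (hc : P046.val G (st r l) c) (hn : c :: l ∉ U) :
    (edges r U).card + 1 ≤ (edges r (insert (c :: l) U)).card := by
  refine card_lt_card ⟨fun e he => ?_, fun hs => ?_⟩
  · obtain ⟨m, h1, h2⟩ := mem_edges.mp he
    exact mem_edges.mpr ⟨m, mem_insert_of_mem h1, h2⟩
  · have : ∀ b, ∃ m ∈ U, ∃ b', eS (st r (c :: l)) b = eS (st r m) b' := fun b => by
      obtain ⟨m, h1, b', _, h2⟩ := mem_edges.mp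
        (hs (mem_edges.mpr ⟨c :: l, mem_insert_self _ _, b, (val_adj hc b).ne, rfl⟩))
      exact ⟨m, h1, b', h2.symm⟩
    obtain ⟨m, hm, b, e⟩ := this true
    obtain ⟨m', hm', b', e'⟩ := this false
    exact h.new_edge hr hl hc hn hm hm' e e'

end

end Vale.Agent.P046
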