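import Vale.Agent.P046.CollA

/-! Counting lists. -/

namespace Vale.Agent.P046

open Classical Finset

noncomputable section

section Lists

variable {α : Type}

/-- The set of suffixes. -/
def sfx : List α → Finset (List α)
  | [] => {[]}
  | c :: l => insert (c :: l) (sfx l)

lemma mem_sfx {m : List α} : ∀ {l : List α}, m ∈ sfx l ↔ m <:+ l
  | [] => by simp [sfx]
  | c :: l => by rw [sfx, mem_insert, mem_sfx, List.suffix_cons_iff]

lemma card_sfx : ∀ l : List α, (sfx l).card = l.length + 1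
  | [] => by simp [sfx]
  | c :: l => by
    rw [sfx, card_insert_of_notMem, card_sfx, List.length_cons]
    intro h
    have := (mem_sfx.mp h).length_le
    simp at this

/-- The shape condition. -/
def Shape (p p' : List α) : Prop := p = [] ∨ p' = [] ∨ p.getLast? ≠ p'.getLast?

lemma exists_split_head : ∀ a b : List α, ∃ l p p' : List α, a = l ++ p ∧ b = l ++ p' ∧
    (p = [] ∨ p' = [] ∨ p.head? ≠ p'.head?)
  | [], b => ⟨[], [], b, rfl, rfl, Or.inl rfl⟩
  | c :: a, [] => ⟨[], c :: a, [], rfl, rfl, Or.inr (Or.inl rfl)⟩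
  | c :: a, d :: b => by
    by_cases h : c = d
    · obtain ⟨l, p, p', h1, h2, h3⟩ := exists_split_head a b
      exact ⟨c :: l, p, p', by rw [h1]; rfl, by rw [h2, h]; rfl, h3⟩
    · exact ⟨[], c :: a, d :: b, rfl, rfl, Or.inr (Or.inr (by simpa using h))⟩

lemma exists_split (a b : List α) : ∃ l p p' : List α, a = p ++ l ∧ b = p' ++ l ∧ Shape p p' := by
  obtain ⟨l, p, p', h1, h2, h3⟩ := exists_split_head a.reverse b.reverse
  refine ⟨l.reverse, p.reverse, p'.reverse, ?_, ?_, ?_⟩
  · rw [← List.reverse_append, ← h1, List.reverse_reverse]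
  · rw [← List.reverse_append, ← h2, List.reverse_reverse]
  · simpa [Shape, List.getLast?_reverse] using h3

lemma Shape.tail {p p' : List α} (h : Shape p p') : Shape p.tail p' := by
  rcases h with h | h | h
  · exact Or.inl (by simp [h])
  · exact Or.inr (Or.inl h)
  · by_cases h1 : p.tail = []
    · exact Or.inl h1
    · refine Or.inr (Or.inr ?_)
      cases p with
      | nil => exact absurd rfl h1
      | cons c p =>
        rw [List.tail_cons] at h1 ⊢
        rwa [List.getLast?_cons_of_ne_nil h1] at h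

lemma Shape.suffix {l p p' m : List α} (h : Shape p p') (h1 : m <:+ p ++ l) (h2 : m <:+ p' ++ l) :
    m <:+ l := by
  by_cases hm : m.length ≤ l.length
  · exact List.suffix_of_suffix_length_le h1 (List.suffix_append p l) hm
  · obtain ⟨u, rfl⟩ := List.suffix_of_suffix_length_le (List.suffix_append p l) h1 (by omega)
    have hu : u ≠ [] := fun e => hm (by simp [e])
    obtain ⟨v, hv⟩ := h1
    obtain ⟨v', hv'⟩ := h2
    rw [← List.append_assoc, List.append_cancel_right_eq] at hv hv'
    subst hv hv'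
    rcases h with h | h | h
    · simp [hu] at h
    · simp [hu] at h
    · rw [List.getLast?_append_of_ne_nil _ hu, List.getLast?_append_of_ne_nil _ hu] at h
      exact absurd rfl h

lemma Shape.card [DecidableEq α] {l p p' : List α} (h : Shape p p') :
    l.length + p.length + p'.length + 1 ≤ (sfx (p ++ l) ∪ sfx (p' ++ l)).card := by
  have h1 := card_union_add_card_inter (sfx (p ++ l)) (sfx (p' ++ l))
  have h2 : (sfx (p ++ l) ∩ sfx (p' ++ l)).card ≤ (sfx l).card :=
    card_le_card fun m hm => mem_sfx.mpr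
      (h.suffix (mem_sfx.mp (mem_inter.mp hm).1) (mem_sfx.mp (mem_inter.mp hm).2))
  rw [card_sfx] at h2
  rw [card_sfx, card_sfx, List.length_append, List.length_append] at h1
  omega

lemma card_sfx_union_le [DecidableEq α] (a b : List α) :
    (sfx a ∪ sfx b).card ≤ a.length + b.length + 1 := by
  have h1 := card_union_add_card_inter (sfx a) (sfx b)
  have h2 : 0 < (sfx a ∩ sfx b).card :=
    card_pos.mpr ⟨[], mem_inter.mpr ⟨mem_sfx.mpr List.nil_suffix, mem_sfx.mpr List.nil_suffix⟩⟩
  rw [card_sfx, card_sfx] at h1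
  omega

variable [Fintype α]

/-- The lists of length at most `K`. -/
def lists (α : Type) [Fintype α] : ℕ → Finset (List α)
  | 0 => {[]}
  | K + 1 => insert [] ((univ ×ˢ lists α K).image fun x : α × List α => x.1 :: x.2)

lemma mem_lists : ∀ {K : ℕ} {l : List α}, l.length ≤ K → l ∈ lists α K
  | 0, l, h => by simpa [lists] using h
  | K + 1, [], _ => mem_insert_self _ _
  | K + 1, c :: l, h => mem_insert_of_mem (mem_image.mpr
      ⟨(c, l), mem_product.mpr ⟨mem_univ _, mem_lists (by simpa using h)⟩, rfl⟩)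

lemma sum_lists {w : ℝ} (h0 : 0 ≤ w) (h1 : Fintype.card α * w ≤ 1) :
    ∀ K : ℕ, ∑ l ∈ lists α K, w ^ l.length ≤ K + 1
  | 0 => by simp [lists]
  | K + 1 => by
    have ih := sum_lists h0 h1 K
    have h2 : 0 ≤ ∑ l ∈ lists α K, w ^ l.length := sum_nonneg fun _ _ => by positivity
    rw [lists, sum_insert (by simp), sum_image fun x _ y _ e => Prod.ext (List.cons.inj e).1
      (List.cons.inj e).2, sum_product]
    simp only [List.length_cons, pow_succ, ← sum_mul, sum_const, card_univ, nsmul_eq_mul,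
      List.length_nil, pow_zero]
    push_cast
    nlinarith

end Lists

variable {V : Type} [Fintype V]

/-- The valid paths of a given length. -/
def vl (G : SimpleGraph V) (r : St V) : ℕ → Finset (List (Lab V))
  | 0 => {[]}
  | K + 1 => (vl G r K).biUnion fun l => (kids G (st r l)).image fun c => c :: l

lemma vl_length {G : SimpleGraph V} {r : St V} : ∀ {K : ℕ} {l : List (Lab V)}, l ∈ vl G r K →
    l.length = K
  | 0, l, h => by simpa [vl] using h
  | K + 1, l, h => by
    obtain ⟨m, hm, h1⟩ := mem_biUnion.mp h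
    obtain ⟨c, _, rfl⟩ := mem_image.mp h1
    rw [List.length_cons, vl_length hm]

lemma mem_vl {G : SimpleGraph V} {r : St V} {N : ℕ} {τ : List (Lab V) → ℕ} :
    ∀ {l : List (Lab V)}, Act G r N τ l → l ∈ vl G r l.length
  | [], _ => mem_singleton_self _
  | c :: l, h => mem_biUnion.mpr ⟨l, mem_vl h.1, mem_image.mpr
      ⟨c, mem_filter.mpr ⟨mem_univ _, h.2.1⟩, rfl⟩⟩

lemma card_vl {G : SimpleGraph V} (r : St V) {θ : ℝ} (h : ∀ σ, 2 * ((kids G σ).card : ℝ) ≤ θ) :
    ∀ K : ℕ, ((vl G r K).card : ℝ) ≤ (θ / 2) ^ K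
  | 0 => by simp [vl]
  | K + 1 => by
    have ih := card_vl r h K
    have h0 : 0 ≤ θ / 2 := by
      have := h r
      have : (0 : ℝ) ≤ (kids G r).card := Nat.cast_nonneg _
      linarith
    have h1 : ((vl G r (K + 1)).card : ℝ) ≤ ∑ l ∈ vl G r K, θ / 2 := by
      refine le_trans (Nat.cast_le.mpr card_biUnion_le) ?_
      rw [Nat.cast_sum]
      refine sum_le_sum fun l _ => le_trans (Nat.cast_le.mpr card_image_le) ?_
      linarith [h (st r l)]
    rw [sum_const, nsmul_eq_mul] at h1
    rw [pow_succ]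
    exact h1.trans (mul_le_mul_of_nonneg_right ih h0)

omit [Fintype V] in
lemma Act.suffix {G : SimpleGraph V} {r : St V} {N : ℕ} {τ : List (Lab V) → ℕ}
    {l m : List (Lab V)} (h : Act G r N τ l) (hm : m <:+ l) : Act G r N τ m := by
  obtain ⟨u, rfl⟩ := hm
  exact (act_append u.reverse m (by simpa using h)).1

omit [Fintype V] in
lemma Act.read {G : SimpleGraph V} {r : St V} {N : ℕ} {τ : List (Lab V) → ℕ} {c : Lab V}
    {l : List (Lab V)} (h : Act G r N τ (c :: l)) : Read G r N τ (c :: l) := ⟨h.1, h.2.1⟩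

omit [Fintype V] in
/-- A minimal collision. -/
lemma Bad.minimal {G : SimpleGraph V} {r : St V} {N : ℕ} {τ : List (Lab V) → ℕ} [Countable V]
    (h : Bad G r N τ) : ∃ c l₂ l₁, Read G r N τ (c :: l₂) ∧ Act G r N τ l₁.tail ∧
      l₁.length ≤ l₂.length + 1 ∧ (c.2 ∈ rootV r ∨ ∃ d ∈ l₁.head?, d.2 = c.2) ∧
      c :: l₂ ∉ sfx l₁ ∪ sfx l₂ ∧ Fam G r (sfx l₁ ∪ sfx l₂) := by
  obtain ⟨e, he⟩ := exists_injective_nat (List (Lab V))
  let R : List (Lab V) → List (Lab V) → Prop := fun a b =>
    a.length < b.length ∨ a.length = b.length ∧ e a < e b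
  have wf : WellFounded R := by
    have := InvImage.wf (fun a : List (Lab V) => (a.length, e a))
      (WellFounded.prod_lex (wellFounded_lt (α := ℕ)) (wellFounded_lt (α := ℕ)))
    refine Subrelation.wf (fun {a b} hab => ?_) this
    exact Prod.lex_def.mpr hab
  have tot : ∀ a b, a ≠ b → R a b ∨ R b a := by
    intro a b hab
    have : e a ≠ e b := fun h => hab (he h)
    simp only [R]
    omega
  let W : Set (List (Lab V)) := {n | ∃ c l, n = c :: l ∧ Read G r N τ (c :: l) ∧
    (c.2 ∈ rootV r ∨ ∃ c' l', Read G r N τ (c' :: l') ∧ R (c' :: l') (c :: l) ∧ c'.2 = c.2)}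
  have hW : W.Nonempty := by
    obtain ⟨c, l, h1, h2 | ⟨c', l', h2, h3, h4⟩⟩ := h
    · exact ⟨_, c, l, rfl, h1, Or.inl h2⟩
    · rcases tot _ _ h3 with h5 | h5
      · exact ⟨_, c, l, rfl, h1, Or.inr ⟨c', l', h2, h5, h4⟩⟩
      · exact ⟨_, c', l', rfl, h2, Or.inr ⟨c, l, h1, h5, h4.symm⟩⟩
  obtain ⟨_, ⟨c, l₂, rfl, h1, h2⟩, hmin⟩ := wf.has_min W hW
  have main : ∀ l₁, (l₁ = [] ∨ Read G r N τ l₁) → R l₁ (c :: l₂) →
      Act G r N τ l₁.tail ∧ l₁.length ≤ l₂.length + 1 ∧ c :: l₂ ∉ sfx l₁ ∪ sfx l₂ ∧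
        Fam G r (sfx l₁ ∪ sfx l₂) := by
    intro l₁ hl hR
    have a1 : Act G r N τ l₁.tail := by
      cases l₁ with
      | nil => trivial
      | cons d k => exact (hl.resolve_left (by simp)).1
    have a2 : ∀ m ∈ sfx l₁ ∪ sfx l₂, R m (c :: l₂) := by
      intro m hm
      rcases mem_union.mp hm with hm | hm
      · have hm := mem_sfx.mp hm
        by_cases e1 : m.length = l₁.length
        · rwa [hm.eq_of_length e1]
        · have := hm.length_le
          simp only [R] at hR ⊢
          omega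
      · have := (mem_sfx.mp hm).length_le
        exact Or.inl (by simp only [List.length_cons]; omega)
    have a3 : ∀ d k, d :: k ∈ sfx l₁ ∪ sfx l₂ → Read G r N τ (d :: k) := by
      intro d k hm
      rcases mem_union.mp hm with hm | hm
      · cases l₁ with
        | nil => simp [sfx] at hm
        | cons d' k' =>
          rcases List.suffix_cons_iff.mp (mem_sfx.mp hm) with e1 | e1
          · rw [e1]; exact hl.resolve_left (by simp)
          · exact (a1.suffix e1).read
      · exact (h1.1.suffix (mem_sfx.mp hm)).read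
    refine ⟨a1, ?_, fun hm => ?_, ⟨fun d k hm => ?_, fun d k hm => (a3 d k hm).2, fun d k hm hd => ?_,
      fun d k d' k' hm hm' hd => ?_⟩⟩
    · simp only [R, List.length_cons] at hR
      omega
    · have := a2 _ hm
      simp only [R] at this
      omega
    · rw [mem_union, mem_sfx, mem_sfx] at hm ⊢
      exact hm.imp (List.suffix_cons d k).trans (List.suffix_cons d k).trans
    · exact hmin _ ⟨d, k, rfl, a3 d k hm, Or.inl hd⟩ (a2 _ hm)
    · by_contra hne
      rcases tot _ _ hne with h5 | h5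
      · exact hmin _ ⟨d', k', rfl, a3 _ _ hm', Or.inr ⟨d, k, a3 _ _ hm, h5, hd⟩⟩ (a2 _ hm')
      · exact hmin _ ⟨d, k, rfl, a3 _ _ hm, Or.inr ⟨d', k', a3 _ _ hm', h5, hd.symm⟩⟩ (a2 _ hm)
  rcases h2 with h2 | ⟨c', l', h2, h3, h4⟩
  · obtain ⟨b1, b2, b3, b4⟩ := main [] (Or.inl rfl) (Or.inl (by simp))
    exact ⟨c, l₂, [], h1, b1, b2, Or.inl h2, b3, b4⟩
  · obtain ⟨b1, b2, b3, b4⟩ := main (c' :: l') (Or.inr h2) h3
    exact ⟨c, l₂, c' :: l', h1, b1, b2, Or.inr ⟨c', rfl, h4⟩, b3, b4⟩

end

end Vale.Agent.P046
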