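import Mathlib

/-! The random triangle removal process. -/

namespace Vale.Agent.P046

open Classical

variable {V : Type} [Fintype V]

/-- The triangles of a graph, as vertex sets. -/
noncomputable def tri (G : SimpleGraph V) : Finset (Finset V) :=
  Finset.univ.filter fun T => G.IsNClique 3 T

/-- Deletes all edges with both end points in `T`. -/
def rem (G : SimpleGraph V) (T : Finset V) : SimpleGraph V where
  Adj a b := G.Adj a b ∧ ¬(a ∈ T ∧ b ∈ T)
  symm := ⟨fun _ _ h => ⟨h.1.symm, fun h' => h.2 ⟨h'.2, h'.1⟩⟩⟩
  loopless := ⟨fun _ h => h.1.ne rfl⟩

/-- One step: delete the edges of a uniformly random triangle; stay if there is none. -/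
noncomputable def step (G : SimpleGraph V) : PMF (SimpleGraph V) :=
  if h : (tri G).Nonempty then (PMF.uniformOfFinset (tri G) h).map (rem G) else PMF.pure G

/-- The law of the graph after `k` steps. -/
noncomputable def run : ℕ → SimpleGraph V → PMF (SimpleGraph V)
  | 0, G => PMF.pure G
  | k + 1, G => (step G).bind (run k)

/-- The law of the final graph of the process started at the complete graph on `n` vertices (each
step destroys a triangle, so the process has stopped after `n.choose 3` steps). -/
noncomputable def final (n : ℕ) : PMF (SimpleGraph (Fin n)) := run (n.choose 3) ⊤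

/-- The number of edges divided by `n ^ (3 / 2)`. -/
noncomputable def ratio {n : ℕ} (G : SimpleGraph (Fin n)) : ℝ :=
  (G.edgeSet.ncard : ℝ) / (n : ℝ) ^ (3 / 2 : ℝ)

end Vale.Agent.P046
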