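import Vale.Agent.P046.TrackWA

/-! The tracked statistics stay within their error bounds. -/

namespace Vale.Agent.P046

open Classical Finset

namespace Tw

variable {V : Type} [Fintype V]

lemma exists_c (J : ℕ) : ∃ c : ℝ, 0 < c ∧ c ≤ 1 / 2 ∧
    ∀ Ω ∈ words J, 16 * c * 6 ^ Ω.length ≤ wt Ω := by
  have h1 : (1 / 320 : ℝ) ^ (2 * J) ≤ 1 := pow_le_one₀ (by norm_num) (by norm_num)
  have h2 : (1 : ℝ) ≤ 6 ^ (2 * J) := one_le_pow₀ (by norm_num)
  have h3 : (0 : ℝ) < (1 / 320 : ℝ) ^ (2 * J) := by positivity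
  refine ⟨(1 / 320) ^ (2 * J) / (16 * 6 ^ (2 * J)), by positivity, ?_, fun Ω hΩ => ?_⟩
  · rw [div_le_iff₀ (by positivity)]
    linarith
  · obtain ⟨-, h4, h5⟩ := words_spec hΩ
    have h6 : (6 : ℝ) ^ Ω.length ≤ 6 ^ (2 * J) := pow_le_pow_right₀ (by norm_num) h4
    refine (mul_le_mul_of_nonneg_left h6 (by positivity)).trans (le_trans (le_of_eq ?_) h5)
    generalize (1 / 320 : ℝ) ^ (2 * J) = A
    generalize (6 : ℝ) ^ (2 * J) = B at h2
    field_simp

lemma eps_eq {y : ℝ} {t : ℕ} (hp : Par V y t) (hy : 1 ≤ y) :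
    1 / (nV V * qq V t) = et V y t / y ^ 1002 := by
  have := (hp.q_pos hy).ne'
  have : y ≠ 0 := by positivity
  unfold et
  rw [hp.card]
  field_simp

lemma eps_le {y : ℝ} {t : ℕ} (hp : Par V y t) (hy : 1 ≤ y) :
    0 ≤ 1 / (nV V * qq V t) ∧ 1 / (nV V * qq V t) ≤ et V y t / y := by
  have h0 := (hp.et_le hy).1
  rw [eps_eq hp hy]
  exact ⟨by positivity, div_le_div_of_nonneg_left h0.le (by linarith)
    (le_self_pow₀ hy (by norm_num))⟩

lemma et_le_inv {y : ℝ} {t : ℕ} (hp : Par V y t) (hy : 1 ≤ y) : et V y t ≤ 1 / y :=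
  (hp.et_le hy).2.trans (one_div_le_one_div_of_le (by linarith) (le_self_pow₀ hy (by norm_num)))

lemma div_y_le {η c y M : ℝ} (hη : 0 ≤ η) (hy : 0 < y) (h : M ≤ c * y) : M * (η / y) ≤ c * η := by
  rw [← mul_div_assoc, div_le_iff₀ hy]
  nlinarith

section Good

variable {y c : ℝ} {t : ℕ} {G : SimpleGraph V}

lemma gam_le (hG : Good y c t G) (hp : Par V y t) (hy : 10 ≤ y) (hcy : 1 ≤ c * y) :
    |gam G (qq V t)| ≤ 2 * c * et V y t := by
  have hy1 : 1 ≤ y := by linarith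
  obtain ⟨h1, h2⟩ := eps_le hp hy1
  have h3 := div_y_le (hp.et_le hy1).1.le (by linarith) hcy
  have h4 := abs_le.1 hG.avz
  rw [hG.gam_eq hp hy1, abs_le]
  constructor <;> linarith

lemma h_le (hG : Good y c t G) (hp : Par V y t) (hy : 10 ≤ y) (hc : c ≤ 1 / 2) (a b : V)
    (hab : G.Adj a b) : |zeta G (qq V t) a b - gam G (qq V t)| ≤ 2 * et V y t := by
  have hS := hG.stepHyp hp hy hc
  have h1 := abs_le.1 (hS.reg.2 a b hab.ne)
  have h2 := abs_le.1 hS.gam
  rw [abs_le]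
  constructor <;> linarith

lemma ev_h (G : SimpleGraph V) (q : ℝ) (Ω : Word) (a b : V) :
    ev G q Ω (fun a b => zeta G q a b - gam G q) a b =
      ev G q Ω (zeta G q) a b - gam G q * ev G q Ω (fun _ _ => 1) a b := by
  have e : (fun a b => zeta G q a b - gam G q) =
      fun a b => zeta G q a b + (fun _ _ => -gam G q * (fun _ _ => (1 : ℝ)) a b) a b := by
    funext a b
    simp only
    ring
  rw [e, ev_add, ev_mul]
  ring

lemma mean_h (hG : Good y c t G) (hp : Par V y t) (hy : 10 ≤ y) (hc : c ≤ 1 / 2) :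
    |mean G (qq V t) fun a b => zeta G (qq V t) a b - gam G (qq V t)| ≤ 2 * (et V y t / y) := by
  have hy1 : 1 ≤ y := by linarith
  have hS := hG.stepHyp hp hy hc
  have hn := St.n_pos hS
  have hq := hS.q0
  obtain ⟨x⟩ : Nonempty V := Fintype.card_pos_iff.1 (Nat.cast_pos.1 hn)
  have e1 : mean G (qq V t) (fun _ _ => 1) = 1 - 1 / (nV V * qq V t) := by
    unfold mean av Xh
    simp only [mul_one, ← sum_div]
    rw [hG.cnt]
    field_simp
  have e2 := ev_h G (qq V t) [(false, .m), (false, .p)] x x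
  rw [ev_mp, ev_mp, ev_mp, e1] at e2
  have e3 := hG.gam_eq hp hy1
  obtain ⟨h1, h2⟩ := eps_le hp hy1
  have h3 := abs_le.1 hS.gam
  have h4 := hS.eta
  have e4 : mean G (qq V t) (fun a b => zeta G (qq V t) a b - gam G (qq V t)) =
      1 / (nV V * qq V t) * (1 + gam G (qq V t)) := by
    rw [e2]
    linarith
  rw [e4, abs_mul, abs_of_nonneg h1, mul_comm]
  refine mul_le_mul ?_ h2 h1 (by norm_num)
  rw [abs_le]
  constructor <;> linarith

lemma ev_h_sub (hG : Good y c t G) (hp : Par V y t) (hy : 10 ≤ y) (hc : c ≤ 1 / 2)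
    (hcy : 1 ≤ c * y) {Ω : Word} (hΩ : Val Ω) (hw : 16 * c * 6 ^ Ω.length ≤ wt Ω) {a b : V}
    (hab : a ≠ b) :
    |ev G (qq V t) Ω (fun a b => zeta G (qq V t) a b - gam G (qq V t)) a b -
      ev G (qq V t) Ω (zeta G (qq V t)) a b| ≤ wt Ω * et V y t / 8 := by
  have hS := hG.stepHyp hp hy hc
  have h1 : |ev G (qq V t) Ω (fun _ _ => 1) a b| ≤ 6 ^ Ω.length * 1 :=
    ev_crude hS.q0 hS.reg (by linarith [hS.eta]) zero_le_one (fun _ _ _ => by norm_num) hΩ
      (Or.inl hab) fun _ => by norm_num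
  have h2 := gam_le hG hp hy hcy
  have h3 := St.eta_nonneg hS
  rw [ev_h, sub_sub_cancel_left, abs_neg, abs_mul]
  refine (mul_le_mul h2 h1 (abs_nonneg _) ((abs_nonneg _).trans h2)).trans ?_
  have := mul_le_mul_of_nonneg_right hw h3
  linarith

lemma ev_h_le (hG : Good y c t G) (hp : Par V y t) (hy : 10 ≤ y) (hc : c ≤ 1 / 2)
    (hcy : 1 ≤ c * y) (hw : ∀ Ω ∈ words 2100, 16 * c * 6 ^ Ω.length ≤ wt Ω) {a b : V}
    (hab : a ≠ b) : ∀ Ω ∈ words 2100,
    |ev G (qq V t) Ω (fun a b => zeta G (qq V t) a b - gam G (qq V t)) a b| ≤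
      wt Ω * (2 * et V y t) := by
  intro Ω hΩ
  have h1 := abs_le.1 (ev_h_sub hG hp hy hc hcy (words_spec hΩ).1 (hw Ω hΩ) hab)
  have h2 := abs_le.1 (hG.wrd Ω hΩ a b hab)
  have h3 : 0 ≤ wt Ω * et V y t := mul_nonneg (wt_pos Ω).le (hp.et_le (by linarith)).1.le
  rw [abs_le]
  constructor <;> linarith

end Good

lemma sum_top (x : V) : ∑ w, X (⊤ : SimpleGraph V) x w = nV V - 1 := by
  have : ∀ w, X (⊤ : SimpleGraph V) x w = 1 - ind (w ∈ ({x} : Finset V)) := by
    intro w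
    by_cases h : w = x
    · simp [X, ind, h]
    · simp [X, ind, h, Ne.symm h]
  simp only [this, sum_sub_distrib, St.sum_ind_mem]
  simp

lemma sum_top_top {x y : V} (hxy : x ≠ y) :
    ∑ w, X (⊤ : SimpleGraph V) x w * X (⊤ : SimpleGraph V) y w = nV V - 2 := by
  have : ∀ w, X (⊤ : SimpleGraph V) x w * X (⊤ : SimpleGraph V) y w =
      1 - ind (w ∈ ({x, y} : Finset V)) := by
    intro w
    by_cases h : w = x
    · simp [X, ind, h]
    · by_cases h' : w = y
      · simp [X, ind, h']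
      · simp [X, ind, h, h', Ne.symm h, Ne.symm h']
  simp only [this, sum_sub_distrib, St.sum_ind_mem, card_pair hxy]
  simp

lemma reg_top (hn : 0 < nV V) : Reg (⊤ : SimpleGraph V) 1 (2 / nV V) := by
  have h0 : 0 < 1 / nV V := by positivity
  have e0 : 2 / nV V = 2 * (1 / nV V) := by ring
  constructor
  · intro x
    have e : beta (⊤ : SimpleGraph V) 1 x = -(1 / nV V) := by
      unfold beta av Xh
      simp only [div_one]
      rw [sum_top]
      field_simp
      ring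
    rw [e, abs_neg, abs_of_pos h0]
    linarith
  · intro x y hxy
    have e : zeta (⊤ : SimpleGraph V) 1 x y = -(2 / nV V) := by
      unfold zeta av Xh
      simp only [div_one]
      rw [sum_top_top hxy]
      field_simp
      ring
    rw [e, abs_neg, abs_of_pos (by positivity)]

lemma n_pos {y : ℝ} {i : ℕ} (hp : Par V y i) (hy : 10 ≤ y) : 0 < nV V := by
  rw [hp.card]
  positivity

lemma top_le {y : ℝ} {i : ℕ} (hp : Par V y i) (hy : 10 ≤ y) :
    2 / nV V ≤ 2 * (et V y 0 / y) ∧ 2 / nV V ≤ 1 / 2 := by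
  have hy1 : 1 ≤ y := by linarith
  have hp0 := hp.mono (Nat.zero_le i)
  have h1 := (eps_le hp0 hy1).2
  rw [qq_zero, mul_one] at h1
  have e0 : 2 / nV V = 2 * (1 / nV V) := by ring
  have h2 := et_le_inv hp0 hy1
  have h3 : et V y 0 / y ≤ et V y 0 := div_le_self (hp0.et_le hy1).1.le hy1
  have h4 : 1 / y ≤ 1 / 10 := one_div_le_one_div_of_le (by norm_num) hy
  constructor <;> linarith

lemma ev_top {y : ℝ} {i : ℕ} (hp : Par V y i) (hy : 10 ≤ y) {Ω : Word} (hΩ : Val Ω) {a b : V}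
    (hd : Dom Ω a b) :
    |ev ⊤ (qq V 0) Ω (zeta ⊤ (qq V 0)) a b| ≤ 6 ^ Ω.length * (2 * (et V y 0 / y)) := by
  have hn := n_pos hp hy
  have hR := reg_top hn
  obtain ⟨h1, h2⟩ := top_le hp hy
  rw [qq_zero]
  refine (ev_crude one_pos hR h2 (by positivity) (fun a b hab => hR.2 a b hab.ne) hΩ hd
    fun h0 => hR.2 a b ?_).trans (mul_le_mul_of_nonneg_left h1 (by positivity))
  rcases hd with hd | ⟨l, Ω', hd, -⟩
  · exact hd
  · simp [h0] at hd

lemma trk_beta {y c : ℝ} {i : ℕ} (hp : Par V y i) (hy : 10 ≤ y) (hc : c ≤ 1 / 2)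
    (hcy : 1 ≤ c * y) (hw : ∀ Ω ∈ words 2100, 16 * c * 6 ^ Ω.length ≤ wt Ω) (x : V) :
    Trk y c 1 100 i fun t G => beta G (qq V t) x := by
  have hy1 : 1 ≤ y := by linarith
  refine ⟨fun t ht G hG => ?_, ?_⟩
  · have hpt := hp.mono ht.le
    have hS := hG.stepHyp hpt hy hc
    refine ⟨by rw [one_mul]; exact hG.deg x, _, 0, Or.inl rfl, ?_, by
      simp only [hpt.qq_succ hy1]; exact step_beta hS x⟩
    have h2 : 1 < Fintype.card V := by
      have := St.n_ge hS
      exact_mod_cast (by linarith : (1 : ℝ) < nV V)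
    obtain ⟨z, hz⟩ := Fintype.exists_ne_of_one_lt_card h2 x
    have h3 := ev_h_le hG hpt hy hc hcy hw hz.symm _ (p_mem_words (by norm_num))
    rw [wt_p] at h3
    have h4 := St.eta_nonneg hS
    rw [zero_mul, sub_zero]
    exact le_trans h3 (by linarith)
  · have h1 := (reg_top (n_pos hp hy)).1 x
    have h2 := (top_le hp hy).1
    have h0 := ((hp.mono (Nat.zero_le i)).et_le hy1).1
    have h3 := div_y_le h0.le (by linarith : 0 < y) (by linarith : 2 ≤ 3 / 4 * y)
    simp only [qq_zero]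
    linarith

/-- The statement of the one step estimate for words. -/
def SW (L : ℕ) (C : ℝ) : Prop := ∀ {V : Type} [Fintype V] {G : SimpleGraph V}
    {q η : ℝ}, StepHyp G q η → ∀ {Ω : Word}, Val Ω → Ω.length ≤ L → ∀ {x y : V}, Dom Ω x y →
    Incr G q η C (fun T => ev (rem G T) (q * (1 - du V q)) Ω (zeta (rem G T) (q * (1 - du V q))) x y
        - ev G q Ω (zeta G q) x y)
      (ev G q Ω (Kop G q fun a b => zeta G q a b - gam G q) x y)

lemma trk_mean {y c C : ℝ} {i : ℕ} (hp : Par V y i) (hy : 10 ≤ y) (hc : c ≤ 1 / 2)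
    (hcy : 176 ≤ c * y) (hC : SW (2 * 2100) C) :
    Trk y c c C i fun t (G : SimpleGraph V) => mean G (qq V t) (zeta G (qq V t)) := by
  have hy1 : 1 ≤ y := by linarith
  obtain ⟨x⟩ : Nonempty V := Fintype.card_pos_iff.1 (Nat.cast_pos.1 (n_pos hp hy))
  have hV : Val [(false, Kind.m), (false, Kind.p)] := by simp [Val]
  have hd : Dom [(false, Kind.m), (false, Kind.p)] x x := Or.inr ⟨_, _, rfl, by simp⟩
  refine ⟨fun t ht G hG => ?_, ?_⟩
  · have hpt := hp.mono ht.le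
    have hS := hG.stepHyp hpt hy hc
    have hI := hC hS hV (by simp) hd
    simp only [ev_mp] at hI
    refine ⟨hG.avz, _, 0, Or.inl rfl, ?_, by simp only [hpt.qq_succ hy1]; exact hI⟩
    have h0 := St.eta_nonneg hS
    have h1 := abs_le.1 (mean_Kop hS.q0 hS.reg h0 (by linarith [hS.eta]) (by linarith)
      (h_le hG hpt hy hc))
    have h2 := abs_le.1 (mean_h hG hpt hy hc)
    have h3 := mul_le_mul_of_nonneg_left (et_le_inv hpt hy1) h0
    rw [mul_one_div] at h3
    have h4 := div_y_le h0 (by linarith) hcy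
    rw [zero_mul, sub_zero, abs_le]
    constructor <;> linarith
  · have h1 := ev_top hp hy hV hd
    rw [ev_mp] at h1
    have h0 := ((hp.mono (Nat.zero_le i)).et_le hy1).1
    have h3 := div_y_le h0.le (by linarith : 0 < y) hcy
    have h4 : 0 ≤ et V y 0 / y := by positivity
    simp only [List.length_cons, List.length_nil] at h1
    linarith

/-- The statement of the closure estimate. -/
def CL (J : ℕ) (C : ℝ) : Prop := ∀ {V : Type} [Fintype V] {G : SimpleGraph V}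
    {q η lam s A : ℝ} {h : V → V → ℝ} {x y : V}, 0 < q → 1 ≤ nV V * q → Reg G q η → η ≤ 1 / 2 →
    Spec G q lam → 0 ≤ lam → lam ≤ 1 → 0 ≤ s → 0 ≤ A → (∀ a b, G.Adj a b → |h a b| ≤ s) → x ≠ y →
    (∀ Ω ∈ words J, |ev G q Ω h x y| ≤ wt Ω * A) → ∀ Ω ∈ words J,
    |ev G q Ω (Kop G q h) x y - diag Ω * ev G q Ω h x y| ≤
      wt Ω * A / 80 + C * (η * s + |mean G q h| + nV V * lam ^ (J - 1) * s)

lemma n_lam {y : ℝ} {t : ℕ} (hp : Par V y t) (hy : 1 ≤ y) :
    nV V * (1 / y) ^ (2100 - 1) ≤ 1 / y := by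
  have h0 : 0 < y := by linarith
  have e : nV V * (1 / y) ^ (2100 - 1) = 1 / y ^ 99 := by
    have e1 : 2100 - 1 = 2000 + 99 := by norm_num
    rw [hp.card, e1, pow_add, ← mul_assoc, ← mul_pow, mul_one_div_cancel h0.ne', one_pow, one_mul,
      one_div_pow]
  rw [e]
  exact one_div_le_one_div_of_le h0 (le_self_pow₀ hy (by norm_num))

lemma trk_word {y c C C' : ℝ} {i : ℕ} (hp : Par V y i) (hy : 10 ≤ y) (hc0 : 0 < c)
    (hc : c ≤ 1 / 2) (hC' : 1 ≤ C') (hcy : 240 * C' ≤ c * y) (hC : SW (2 * 2100) C)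
    (hL : CL 2100 C') (hw : ∀ Ω ∈ words 2100, 16 * c * 6 ^ Ω.length ≤ wt Ω)
    (hs : ∀ t < i, ∀ G : SimpleGraph V, Good y c t G → Spec G (qq V t) (1 / y))
    {Ω : Word} (hΩ : Ω ∈ words 2100) {a b : V} (hab : a ≠ b) :
    Trk y c (wt Ω) C i fun t G => ev G (qq V t) Ω (zeta G (qq V t)) a b := by
  have hy1 : 1 ≤ y := by linarith
  have hy0 : 0 < y := by linarith
  have hcy1 : 1 ≤ c * y := by linarith
  obtain ⟨hV, hl, -⟩ := words_spec hΩ
  have hw1 := hw Ω hΩ
  have h6 : (1 : ℝ) ≤ 6 ^ Ω.length := one_le_pow₀ (by norm_num)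
  have hcw : c ≤ wt Ω := by nlinarith
  refine ⟨fun t ht G hG => ?_, ?_⟩
  · have hpt := hp.mono ht.le
    have hS := hG.stepHyp hpt hy hc
    have hI := hC hS hV hl (Or.inl hab)
    refine ⟨hG.wrd Ω hΩ a b hab, _, diag Ω, ?_, ?_, by simp only [hpt.qq_succ hy1]; exact hI⟩
    · unfold diag
      split_ifs <;> simp
    · beta_reduce
      have h0 := St.eta_nonneg hS
      have hq := hS.q0
      have hnq : 1 ≤ nV V * qq V t := by
        have h1 := hS.big
        have h2 := hS.q1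
        have h3 : 0 ≤ nV V * qq V t := by positivity
        nlinarith
      have h1 := hL hq hnq hS.reg (by linarith [hS.eta]) (hs t ht G hG) (by positivity)
        ((div_le_one hy0).2 hy1) (by linarith) (by linarith) (h_le hG hpt hy hc) hab
        (ev_h_le hG hpt hy hc hcy1 hw hab) Ω hΩ
      have h2 := ev_h_sub hG hpt hy hc hcy1 hV hw1 hab
      have h3 := mul_le_mul_of_nonneg_left (et_le_inv hpt hy1) h0
      have h4 := mean_h hG hpt hy hc
      have h5 := mul_le_mul_of_nonneg_left (n_lam hpt hy1) h0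
      rw [mul_one_div] at h3 h5
      have h7 := div_y_le h0 hy0 hcy
      have h8 := mul_le_mul_of_nonneg_right hcw h0
      have h9 : et V y t * (2 * et V y t) +
          |mean G (qq V t) fun a b => zeta G (qq V t) a b - gam G (qq V t)| +
          nV V * (1 / y) ^ (2100 - 1) * (2 * et V y t) ≤ 6 * (et V y t / y) := by linarith
      have h10 := mul_le_mul_of_nonneg_left h9 (by linarith : 0 ≤ C')
      have hd0 : (0 : ℝ) ≤ diag Ω := Nat.cast_nonneg _
      have hd1 : (diag Ω : ℝ) ≤ 1 := by exact_mod_cast diag_le_one Ω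
      generalize ev G (qq V t) Ω (Kop G (qq V t) fun a b =>
        zeta G (qq V t) a b - gam G (qq V t)) a b = A at h1 ⊢
      generalize ev G (qq V t) Ω (fun a b => zeta G (qq V t) a b - gam G (qq V t)) a b = B
        at h1 h2
      generalize ev G (qq V t) Ω (zeta G (qq V t)) a b = E at h2 ⊢
      have e : A - diag Ω * E = (A - diag Ω * B) + diag Ω * (B - E) := by ring
      have h11 : |diag Ω * (B - E)| ≤ |B - E| := by
        rw [abs_mul, abs_of_nonneg hd0]
        exact mul_le_of_le_one_left (abs_nonneg _) hd1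
      have h12 : 0 ≤ wt Ω * et V y t := mul_nonneg (wt_pos Ω).le h0
      rw [e]
      refine (abs_add_le _ _).trans ?_
      linarith
  · have h1 := ev_top hp hy hV (Or.inl hab : Dom Ω a b)
    have h0 := ((hp.mono (Nat.zero_le i)).et_le hy1).1
    have h3 := div_y_le h0.le hy0 hcy1
    have h4 := mul_le_mul_of_nonneg_left h3 (by linarith : (0 : ℝ) ≤ 6 ^ Ω.length)
    have h5 := mul_le_mul_of_nonneg_right hw1 h0.le
    have h12 : 0 ≤ wt Ω * et V y 0 := mul_nonneg (wt_pos Ω).le h0.le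
    linarith

lemma kil_cnt {y c : ℝ} {i : ℕ} (hp : Par V y i) (hy : 10 ≤ y) (hc : c ≤ 1 / 2) :
    kil (Good y c) 0 i (fun G => ind (¬∑ a, ∑ b, X G a b = nV V ^ 2 * qq V i - nV V))
      (⊤ : SimpleGraph V) ≤ 0 := by
  have hn := n_pos hp hy
  have key := kil_le (Good y c)
    (fun t (G : SimpleGraph V) => ind (¬∑ a, ∑ b, X G a b = nV V ^ 2 * qq V t - nV V))
    (fun _ => 0) i (fun _ _ => ind_nonneg _) (fun _ => le_rfl) ?_ ⊤
  · refine key.trans (le_of_eq ?_)
    rw [sum_const_zero, add_zero]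
    refine ind_neg (not_not.2 ?_)
    simp only [sum_top, qq_zero, sum_const, card_univ, nsmul_eq_mul]
    ring
  · intro t ht G hG
    have hS := hG.stepHyp (hp.mono ht.le) hy hc
    unfold avg
    rw [if_pos hS.nonempty, add_zero]
    refine le_trans (le_of_eq ?_) (ind_nonneg _)
    rw [← tav_const hS.nonempty 0]
    refine St.tav_congr fun T hT => ind_neg (not_not.2 ?_)
    rw [sum_X_rem hT, hG.cnt]
    unfold qq
    push_cast
    field_simp
    ring

lemma ind_not_and (p q : Prop) : ind (¬(p ∧ q)) ≤ ind (¬p) + ind (¬q) := by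
  by_cases hp : p <;> by_cases hq : q <;> simp [ind, hp, hq]

lemma ind_not_forall {α : Type} (s : Finset α) (p : α → Prop) :
    ind (¬∀ a ∈ s, p a) ≤ ∑ a ∈ s, ind (¬p a) := by
  by_cases h : ∀ a ∈ s, p a
  · rw [ind_neg (not_not.2 h)]
    exact sum_nonneg fun _ _ => ind_nonneg _
  · rw [ind_pos h]
    push Not at h
    obtain ⟨a, ha, hpa⟩ := h
    rw [← ind_pos hpa]
    exact single_le_sum (f := fun a => ind (¬p a)) (fun _ _ => ind_nonneg _) ha

lemma ind_not_all (p : V → Prop) : ind (¬∀ a, p a) ≤ ∑ a, ind (¬p a) := by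
  simpa using ind_not_forall univ p

end Tw

/-- The failure of the counting conditions is unlikely. -/
theorem track_words : ∃ c Y : ℝ, 0 < c ∧ c ≤ 1 / 2 ∧ ∀ {V : Type} [Fintype V] {y : ℝ} {i : ℕ},
    Y ≤ y → Par V y i →
    kil (Good y c) 0 i (fun G => ind (¬((∑ a, ∑ b, X G a b = nV V ^ 2 * qq V i - nV V) ∧
      (∀ x, |beta G (qq V i) x| ≤ et V y i) ∧
      (∀ Ω ∈ words 2100, ∀ a b, a ≠ b →
        |ev G (qq V i) Ω (zeta G (qq V i)) a b| ≤ wt Ω * et V y i) ∧
      |mean G (qq V i) (zeta G (qq V i))| ≤ c * et V y i))) (⊤ : SimpleGraph V) ≤ 1 / y ^ 10000 := by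
  obtain ⟨c, hc0, hc, hw⟩ := Tw.exists_c 2100
  obtain ⟨C, hC1, hC⟩ := step_word (2 * 2100)
  obtain ⟨C', hC1', hL⟩ := closure 2100
  obtain ⟨Y1, hY1⟩ := Good.spec
  obtain ⟨N, hN⟩ : ∃ N : ℝ, N = (words 2100).card := ⟨_, rfl⟩
  obtain ⟨Y2, hY2⟩ := Tw.exp_large 9001 (8 * (N + 2))
  refine ⟨c, max (max Y1 Y2) (max 800 (240 * (C + C') / c)), hc0, hc, ?_⟩
  intro V _ y i hy hp
  simp only [max_le_iff] at hy
  obtain ⟨⟨hy1, hy2⟩, hy3, hy4⟩ := hy
  rw [div_le_iff₀ hc0, mul_comm y] at hy4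
  have hy : 10 ≤ y := by linarith
  have hy0 : 1 ≤ y := by linarith
  obtain ⟨B, hB⟩ : ∃ B, B = 8 * y ^ 4002 * Real.exp (-(y ^ 2 / 4)) := ⟨_, rfl⟩
  have hB0 : 0 ≤ B := by rw [hB]; positivity
  have b1 := Tw.kil_cnt hp hy hc
  have b2 : ∀ x : V, kil (Good y c) 0 i (fun G => ind (¬|beta G (qq V i) x| ≤ et V y i)) ⊤ ≤ B := by
    intro x
    have := Tw.track_abs hp hy hc (by norm_num) one_pos le_rfl (by linarith)
      (Tw.trk_beta hp hy hc (by linarith) hw x)
    simpa only [one_mul, hB] using this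
  have b3 : ∀ Ω ∈ words 2100, ∀ a b : V, kil (Good y c) 0 i (fun G => ind (¬(a ≠ b →
      |ev G (qq V i) Ω (zeta G (qq V i)) a b| ≤ wt Ω * et V y i))) ⊤ ≤ B := by
    intro Ω hΩ a b
    by_cases hab : a = b
    · refine le_trans (kil_mono _ _ _ (fun G => le_of_eq (ind_neg ?_)) _)
        ((kil_const_le _ _ _ le_rfl _).trans hB0)
      exact not_not.2 fun h => absurd hab h
    · have h6 : (1 : ℝ) ≤ 6 ^ Ω.length := one_le_pow₀ (by norm_num)
      have hcw : c ≤ wt Ω := by nlinarith [hw Ω hΩ]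
      have hK : 8 * C ≤ wt Ω * y := by
        have := mul_le_mul_of_nonneg_right hcw (by linarith : 0 ≤ y)
        linarith
      have := Tw.track_abs hp hy hc hC1 (wt_pos Ω) (wt_le_one Ω) hK
        (Tw.trk_word hp hy hc0 hc hC1' (by linarith) hC hL hw
          (fun t ht G hG => hY1 hy1 (hp.mono ht.le) hG) hΩ hab)
      rw [hB]
      exact le_trans (kil_mono _ _ _ (fun G => ind_mono fun h h' => h fun _ => h') _) this
  have b4 := Tw.track_abs hp hy hc hC1 hc0 (by linarith) (by linarith)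
    (Tw.trk_mean hp hy hc (by linarith) hC)
  rw [← hB] at b4
  refine le_trans (kil_mono _ _ _ (ψ := fun G =>
    ind (¬∑ a, ∑ b, X G a b = nV V ^ 2 * qq V i - nV V) +
    (∑ x, ind (¬|beta G (qq V i) x| ≤ et V y i) +
    (∑ Ω ∈ words 2100, ∑ a, ∑ b, ind (¬(a ≠ b →
      |ev G (qq V i) Ω (zeta G (qq V i)) a b| ≤ wt Ω * et V y i)) +
    ind (¬|mean G (qq V i) (zeta G (qq V i))| ≤ c * et V y i)))) (fun G => ?_) _) ?_
  · refine (Tw.ind_not_and _ _).trans (add_le_add_right ((Tw.ind_not_and _ _).trans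
      (add_le_add (Tw.ind_not_all _) ((Tw.ind_not_and _ _).trans (add_le_add_left ?_ _)))) _)
    exact (Tw.ind_not_forall _ _).trans (sum_le_sum fun Ω _ => (Tw.ind_not_all _).trans
      (sum_le_sum fun a _ => Tw.ind_not_all _))
  · rw [kil_add, kil_add, kil_add, kil_sum, kil_sum]
    simp only [kil_sum]
    have c2 := sum_le_sum fun x (_ : x ∈ univ) => b2 x
    have c3 := sum_le_sum fun Ω hΩ => sum_le_sum fun a (_ : a ∈ univ) =>
      sum_le_sum fun b (_ : b ∈ univ) => b3 Ω hΩ a b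
    simp only [sum_const, card_univ, nsmul_eq_mul, ← hN] at c2 c3
    have hn : (Fintype.card V : ℝ) = y ^ 2000 := hp.card
    rw [hn] at c2 c3
    have hN0 : 0 ≤ N := by rw [hN]; positivity
    have d0 : 1 ≤ y ^ 2000 := one_le_pow₀ hy0
    have d1 : B ≤ y ^ 2000 * B := le_mul_of_one_le_left hB0 d0
    have d2 : y ^ 2000 * B ≤ y ^ 2000 * (y ^ 2000 * B) :=
      mul_le_mul_of_nonneg_left d1 (by linarith)
    have d3 : (N + 2) * (y ^ 2000 * (y ^ 2000 * B)) ≤ 1 / y ^ 10000 := by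
      have h1 := hY2 y hy2
      rw [le_div_iff₀ (by positivity), hB, Real.exp_neg]
      have e : (N + 2) * (y ^ 2000 * (y ^ 2000 * (8 * y ^ 4002 * (Real.exp (y ^ 2 / 4))⁻¹))) *
          y ^ 10000 = 8 * (N + 2) * y ^ (2 * 9001) / Real.exp (y ^ 2 / 4) := by ring
      rw [e, div_le_one (Real.exp_pos _)]
      exact h1
    linarith

end Vale.Agent.P046
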