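import Vale.Agent.P046.Bad
import Vale.Agent.P046.TrackW

/-! The second moment of the final number of edges. -/

namespace Vale.Agent.P046

open Classical Finset W
open scoped BigOperators

noncomputable section

lemma second_moment {Ω E : Type} [Fintype Ω] [Nonempty Ω] [Fintype E] (x : E → ℝ) (A : Ω → E → ℝ)
    {p1 p2 m κ : ℝ} (hm : 0 < m) (hκ : 0 ≤ κ) {z1 : E → ℝ} {z2 : E → E → ℝ}
    (h1 : ∀ e, x e * p1 - z1 e ≤ x e * 𝔼 ω, A ω e)
    (h2 : ∀ e e', x e * x e' * 𝔼 ω, A ω e * A ω e' ≤ x e * x e' * p2 + z2 e e') :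
    𝔼 ω, ((∑ e, x e * A ω e) / m - κ) ^ 2 ≤ ((∑ e, x e) ^ 2 * p2 + ∑ e, ∑ e', z2 e e') / m ^ 2 -
      2 * κ / m * ((∑ e, x e) * p1 - ∑ e, z1 e) + κ ^ 2 := by
  have e1 : ∀ ω, ((∑ e, x e * A ω e) / m - κ) ^ 2 =
      (∑ e, ∑ e', x e * x e' * (A ω e * A ω e')) / m ^ 2 - 2 * κ / m * ∑ e, x e * A ω e + κ ^ 2 :=
    fun ω => by
      rw [sub_sq, div_pow, sq (∑ e, x e * A ω e), sum_mul_sum]
      simp only [mul_mul_mul_comm (x _) (A ω _)]
      ring
  simp only [e1, expect_add_distrib, expect_sub_distrib, ← expect_div, ← mul_expect,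
    expect_sum_comm, Fintype.expect_const]
  have k1 := sum_le_sum fun e (_ : e ∈ univ) => h1 e
  have k2 := sum_le_sum fun e (_ : e ∈ univ) => sum_le_sum fun e' (_ : e' ∈ univ) => h2 e e'
  simp only [sum_add_distrib, sum_sub_distrib, ← sum_mul, ← mul_sum] at k1 k2
  rw [← sq] at k2
  have k3 := mul_le_mul_of_nonneg_left k1 (by positivity : 0 ≤ 2 * κ / m)
  have k4 := div_le_div_of_nonneg_right k2 (by positivity : 0 ≤ m ^ 2)
  linarith

lemma num {r κ u : ℝ} (hr : 0 ≤ r) (hκ : 0 ≤ κ) (hk : κ ^ 2 = 1 / 2) (h1 : r ^ 2 ≤ 1 / 2)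
    (h2 : 1 / 2 - r ^ 2 ≤ u) : r ^ 2 * (1 + u) - 2 * κ * (r * (1 - u)) + κ ^ 2 ≤ 3 * u := by
  have h3 : r ≤ κ := (abs_le_of_sq_le_sq' (h1.trans hk.ge) hκ).2
  have hu : 0 ≤ u := by linarith
  have h4 : r ^ 2 + 2 * κ * r ≤ 2 := by nlinarith
  nlinarith [mul_le_mul_of_nonneg_left h4 hu, mul_le_mul_of_nonneg_left h3 hr]

lemma small_pow {y : ℝ} (hy : 100 ≤ y) {k : ℕ} (hk : 2 ≤ k) : 32 / y ^ k ≤ 1 / y := by
  rw [div_le_div_iff₀ (by positivity) (by positivity)]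
  nlinarith [pow_le_pow_right₀ (by linarith : 1 ≤ y) hk]

variable {V : Type} [Fintype V]

/-- Twice the number of edges. -/
def ed (G : SimpleGraph V) : ℝ := ∑ e : V × V, X G e.1 e.2

/-- The squared deviation. -/
def dev (y : ℝ) (G : SimpleGraph V) : ℝ := (ed G / y ^ 3000 - 1 / √2) ^ 2

lemma ed_nonneg (G : SimpleGraph V) : 0 ≤ ed G := sum_nonneg fun _ _ => X_nonneg _ _ _

lemma dev_le {y : ℝ} (hy : 1 ≤ y) (hn : nV V = y ^ 2000) (G : SimpleGraph V) :
    dev y G ≤ y ^ 2000 := by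
  have h1 : ed G ≤ y ^ 1000 * y ^ 3000 := by
    refine (sum_le_sum fun e _ => X_le_one G e.1 e.2).trans_eq ?_
    simp only [sum_const, card_univ, Fintype.card_prod, nsmul_eq_mul, Nat.cast_mul, hn]
    ring
  have h2 : 0 ≤ ed G / y ^ 3000 := div_nonneg (ed_nonneg G) (by positivity)
  have h3 : 1 / √2 ≤ y ^ 1000 := ((div_le_one (by positivity)).mpr (Real.one_le_sqrt.mpr
    one_le_two)).trans (one_le_pow₀ hy)
  have h4 : 0 ≤ 1 / √2 := by positivity
  rw [← div_le_iff₀ (by positivity)] at h1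
  rw [dev, show y ^ 2000 = (y ^ 1000) ^ 2 by ring]
  exact sq_le_sq' (by linarith) (by linarith)

/-- The two pairs share a vertex. -/
def Meet (e e' : V × V) : Prop := e'.1 = e.1 ∨ e'.2 = e.1 ∨ e'.1 = e.2 ∨ e'.2 = e.2

lemma sum_meet {G : SimpleGraph V} {q η : ℝ} (hq : 0 < q) (hR : Reg G q η) (hη : η ≤ 1 / 2)
    (e : V × V) : ∑ e' : V × V, X G e'.1 e'.2 * ind (Meet e e') ≤ 8 * (nV V * q) := by
  have k1 : ∀ a, ∑ e' : V × V, X G e'.1 e'.2 * ind (e'.1 = a) ≤ 2 * (nV V * q) := fun a => by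
    rw [Fintype.sum_prod_type, sum_comm]
    simpa [ind] using sum_X_le hq hR hη a
  have k2 : ∀ a, ∑ e' : V × V, X G e'.1 e'.2 * ind (e'.2 = a) ≤ 2 * (nV V * q) := fun a => by
    rw [Fintype.sum_prod_type]
    simpa [ind, X_comm G _ a] using sum_X_le hq hR hη a
  have k3 : ∀ e' : V × V, ind (Meet e e') ≤
      ind (e'.1 = e.1) + ind (e'.2 = e.1) + ind (e'.1 = e.2) + ind (e'.2 = e.2) := fun e' => by
    have a1 := ind_nonneg (e'.1 = e.1)
    have a2 := ind_nonneg (e'.2 = e.1)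
    have a3 := ind_nonneg (e'.1 = e.2)
    have a4 := ind_nonneg (e'.2 = e.2)
    by_cases h : Meet e e'
    · rw [ind_pos h]
      rcases h with h | h | h | h <;> rw [ind_pos h] <;> linarith
    · rw [ind_neg h]
      linarith
  refine (sum_le_sum fun e' _ => mul_le_mul_of_nonneg_left (k3 e') (X_nonneg _ _ _)).trans ?_
  simp only [mul_add, sum_add_distrib]
  linarith [k1 e.1, k1 e.2, k2 e.1, k2 e.2]

lemma q_le {y q n : ℝ} (hy : 0 < y) (hn : n = y ^ 2000) (hD : n * q ^ 2 ≤ 2 * y ^ 16) :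
    (q * y ^ 992) ^ 2 ≤ 2 := by
  refine le_of_mul_le_mul_right (a := y ^ 16) (le_trans (le_of_eq ?_) hD) (by positivity)
  rw [hn]
  ring

theorem good_bound : ∃ Y : ℝ, ∀ {V : Type} [Fintype V] {y c : ℝ} {i : ℕ} {G : SimpleGraph V}
    {z1 : V × V → ℝ} {z2 : V × V → V × V → ℝ}, Y ≤ y → Par V y i →
    nV V * qq V i ^ 2 ≤ 2 * y ^ 16 → Good y c i G → (∀ e, 0 ≤ z1 e) → (∀ e e', 0 ≤ z2 e e') →
    (∀ N : ℕ, y ^ 40 ≤ N → ∀ e : V × V, G.Adj e.1 e.2 → badP G (root e.1 e.2 e.1 e.1) N ≤ z1 e) →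
    (∀ N : ℕ, y ^ 40 ≤ N → ∀ e e' : V × V, G.Adj e.1 e.2 → G.Adj e'.1 e'.2 → ¬Meet e e' →
      badP G (root e.1 e.2 e'.1 e'.2) N ≤ z2 e e') →
    fin (dev y) G ≤ 5 * (1 / y) + (∑ e, ∑ e', z2 e e') / (y ^ 3000) ^ 2 +
      2 / y ^ 3000 * ∑ e, z1 e := by
  obtain ⟨Y1, h1⟩ := bp_stable
  obtain ⟨Y2, h2⟩ := Good.spec
  refine ⟨max (max Y1 Y2) 100, ?_⟩
  intro V _ y c i G z1 z2 hy hp hD hG hz1 hz2 hb1 hb2
  simp only [max_le_iff] at hy
  obtain ⟨⟨y1, y2⟩, y3⟩ := hy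
  have hy1 : 1 ≤ y := by linarith
  have hy0 : 0 < y := by linarith
  have hq := hp.q_pos hy1
  have hq1 := qq_le_one (V := V) i
  have hcnt : ed G = nV V ^ 2 * qq V i - nV V := (Fintype.sum_prod_type' _).trans hG.cnt
  have hη := (hp.et_le hy1).2
  have hD1 := (hp.D_eq hy1).2
  have hS := h2 y2 hp hG
  have hR : Reg G (qq V i) (1 / y ^ 6) :=
    ⟨fun x => (hG.reg.1 x).trans hη, fun x z h => (hG.reg.2 x z h).trans hη⟩
  generalize qq V i = q at *
  have hn := hp.card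
  obtain ⟨N, hN⟩ := exists_nat_ge (y ^ 40 + 2 * y ^ 2000 * (tri G).card ^ 2 * y)
  have hN1 : y ^ 40 ≤ N := le_trans (le_add_of_nonneg_right (by positivity)) hN
  have hN2 : (0 : ℝ) < N := lt_of_lt_of_le (by positivity) hN1
  have hN0 : 0 < N := Nat.cast_pos.mp hN2
  have : Nonempty (Fin N) := ⟨⟨0, hN0⟩⟩
  obtain ⟨-, b1, b2⟩ := h1 y1 hn hq hq1 hD1 hD hN1 hR hS
  have c1 := (abs_le.mp (clock G (ψ := dev y) (M := y ^ 2000)
    (fun H => (abs_of_nonneg (sq_nonneg _)).trans_le (dev_le hy1 hn H)) hN0)).2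
  have c2 : 2 * y ^ 2000 * ((tri G).card : ℝ) ^ 2 / N ≤ 1 / y := by
    rw [div_le_div_iff₀ hN2 hy0]
    linarith [pow_pos hy0 40]
  set D := nV V * q ^ 2 with hDe
  have hD2 : 3 * y ≤ D := by nlinarith [pow_le_pow_right₀ hy1 (by norm_num : 2 ≤ 16)]
  set R := √(1 + 2 * D)
  have hR0 : 0 < R := Real.sqrt_pos.mpr (by linarith)
  have hR2 : R ^ 2 = 1 + 2 * D := Real.sq_sqrt (by linarith)
  have c3 := second_moment (Ω := Finset V → Fin N) (fun e : V × V => X G e.1 e.2)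
    (fun ω e => ind (al G (fun T => ω T) e.1 e.2 N)) (p1 := (1 - 1 / y) / R)
    (p2 := (1 + 1 / y) / R ^ 2) (pow_pos hy0 3000) (by positivity : 0 ≤ 1 / √2) (z1 := z1)
    (z2 := fun e e' => z2 e e' + X G e.1 e.2 * (X G e'.1 e'.2 * ind (Meet e e')))
    (fun e => ?_) fun e e' => ?_
  · have e1 : ∀ ω : Finset V → Fin N, dev y (out G (fun T => ω T) N) = ((∑ e : V × V,
        X G e.1 e.2 * ind (al G (fun T => ω T) e.1 e.2 N)) / y ^ 3000 - 1 / √2) ^ 2 := fun ω => by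
      simp only [dev, ed, X, ← ind_and]
      rfl
    simp only [← e1, sum_add_distrib, ← mul_sum] at c3
    change _ ≤ (ed G ^ 2 * _ + _) / _ - _ * (ed G * _ - _) + _ at c3
    have h0 := ed_nonneg G
    have hn0 : 0 < nV V := hn ▸ pow_pos hy0 _
    have hm : (y ^ 3000) ^ 2 = nV V ^ 3 := by rw [hn]; ring
    have d1 : ∑ e : V × V, X G e.1 e.2 * ∑ e' : V × V, X G e'.1 e'.2 * ind (Meet e e') ≤
        1 / y * (y ^ 3000) ^ 2 := by
      refine (sum_le_sum fun e _ => mul_le_mul_of_nonneg_left (sum_meet hq hR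
        (one_div_le_one_div_of_le two_pos (by nlinarith [le_self_pow₀ hy1 (by norm_num : 6 ≠ 0)])) e)
        (X_nonneg _ _ _)).trans ?_
      rw [← sum_mul]
      change ed G * _ ≤ _
      have a1 := (div_le_div_of_nonneg_right (by linarith [q_le hy0 hn hD] :
        8 * (q * y ^ 992) ^ 2 ≤ 32) (pow_pos hy0 1984).le).trans (small_pow y3 (by norm_num))
      rw [show 8 * (q * y ^ 992) ^ 2 / y ^ 1984 = 8 * q ^ 2 by field_simp] at a1
      rw [hm]
      nlinarith [mul_le_mul_of_nonneg_right a1 (pow_pos hn0 3).le, mul_pos hn0 (mul_pos hn0 hq)]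
    have d2 : (ed G / (y ^ 3000 * R)) ^ 2 = ed G ^ 2 / (nV V ^ 3 * (1 + 2 * D)) := by
      rw [div_pow, mul_pow, hm, hR2]
    have d3 := num (r := ed G / (y ^ 3000 * R)) (κ := 1 / √2) (u := 1 / y) (by positivity)
      (by positivity) (by rw [div_pow, one_pow, Real.sq_sqrt zero_le_two]) ?_ ?_
    · have d4 : 2 * (1 / √2) / y ^ 3000 * ∑ e, z1 e ≤ 2 / y ^ 3000 * ∑ e, z1 e := by
        refine mul_le_mul_of_nonneg_right (div_le_div_of_nonneg_right ?_ (by positivity))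
          (sum_nonneg fun e _ => hz1 e)
        linarith [(div_le_one (by positivity)).mpr (Real.one_le_sqrt.mpr one_le_two)]
      rw [← div_le_iff₀ (by positivity)] at d1
      have d5 : ed G ^ 2 * ((1 + 1 / y) / R ^ 2) / (y ^ 3000) ^ 2 =
          (ed G / (y ^ 3000 * R)) ^ 2 * (1 + 1 / y) := by field_simp
      have d6 : 2 * (1 / √2) / y ^ 3000 * (ed G * ((1 - 1 / y) / R)) =
          2 * (1 / √2) * (ed G / (y ^ 3000 * R) * (1 - 1 / y)) := by field_simp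
      rw [add_div (ed G ^ 2 * _), add_div (∑ _, _), mul_sub, d5, d6] at c3
      linarith
    · rw [d2, div_le_iff₀ (by positivity)]
      have : ed G ^ 2 ≤ (nV V ^ 2 * q) ^ 2 := pow_le_pow_left₀ h0 (by linarith) 2
      nlinarith [pow_pos hn0 3]
    · rw [d2, sub_le_comm, le_div_iff₀ (by positivity), hcnt]
      have a1 : 3 ≤ 1 / y * D := by rw [one_div_mul_eq_div, le_div_iff₀ hy0]; exact hD2
      have a2 : (1 / 2 - 1 / y) * (1 + 2 * D) ≤ D - 2 * q := by linarith [one_div_pos.mpr hy0]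
      have a3 : (nV V ^ 2 * q - nV V) ^ 2 = nV V ^ 3 * (D - 2 * q) + nV V ^ 2 := by
        rw [hDe]
        ring
      linarith [mul_le_mul_of_nonneg_left a2 (pow_pos hn0 3).le, sq_nonneg (nV V)]
  · by_cases h : G.Adj e.1 e.2
    · have a1 := (abs_le.mp (b1 _ _ h)).1
      have a2 := (abs_le.mp (tree_one G h hN0)).1
      have a3 := hb1 N hN1 e h
      have a4 : (1 - 1 / y) / R ≤ bp G N (root e.1 e.2 e.1 e.1) N := by
        rw [div_le_iff₀ hR0]
        linarith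
      rw [X, ind_pos h]
      linarith
    · rw [X, ind_neg h]
      linarith [hz1 e]
  · have a0 := hz2 e e'
    by_cases h : G.Adj e.1 e.2 ∧ G.Adj e'.1 e'.2
    · rw [X, X, ind_pos h.1, ind_pos h.2]
      simp only [← ind_and, one_mul]
      have a5 : 0 ≤ (1 + 1 / y) / R ^ 2 := by positivity
      by_cases h' : Meet e e'
      · rw [ind_pos h']
        have := expect_le (univ_nonempty (α := Finset V → Fin N)) fun ω _ =>
          ind_le_one (al G (fun T => ω T) e.1 e.2 N ∧ al G (fun T => ω T) e'.1 e'.2 N)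
        linarith
      · have a1 := (abs_le.mp (b2 _ _ _ _ h.1 h.2)).2
        have a2 := (abs_le.mp (tree_two G h.1 h.2 hN0)).2
        have a3 := hb2 N hN1 e e' h.1 h.2 h'
        have a4 : bp G N (root e.1 e.2 e'.1 e'.2) N ≤ (1 + 1 / y) / R ^ 2 := by
          rw [le_div_iff₀ (by positivity), hR2]
          linarith
        rw [ind_neg h']
        linarith
    · have a1 : X G e.1 e.2 * X G e'.1 e'.2 = 0 := (ind_and _ _).symm.trans (ind_neg h)
      rw [← mul_assoc, a1]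
      linarith

lemma exists_par {y : ℝ} (hy : 100 ≤ y) (hn : nV V = y ^ 2000) :
    ∃ i, Par V y i ∧ nV V * qq V i ^ 2 ≤ 2 * y ^ 16 := by
  have hy1 : 1 ≤ y := by linarith
  have hy0 : 0 < y := by linarith
  have hn0 : 0 < nV V ^ 2 := by rw [hn]; positivity
  have h1 : y ^ 8 / y ^ 1000 ≤ 1 :=
    (div_le_one (by positivity)).mpr (pow_le_pow_right₀ hy1 (by norm_num))
  have h2 : 0 ≤ nV V ^ 2 * (1 - y ^ 8 / y ^ 1000) / 6 := by
    have := sub_nonneg.mpr h1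
    positivity
  have h3 := Nat.floor_le h2
  have h4 := Nat.lt_floor_add_one (nV V ^ 2 * (1 - y ^ 8 / y ^ 1000) / 6)
  generalize ⌊nV V ^ 2 * (1 - y ^ 8 / y ^ 1000) / 6⌋₊ = i at h3 h4
  have hp : Par V y i := ⟨hn, by
    rw [qq, le_sub_comm, div_le_iff₀ hn0]
    linarith⟩
  refine ⟨i, hp, ?_⟩
  have h5 : qq V i ≤ y ^ 8 / y ^ 1000 + 6 / nV V ^ 2 := by
    rw [qq, sub_le_iff_le_add, add_assoc, ← add_div, ← sub_le_iff_le_add', le_div_iff₀ hn0]
    linarith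
  have h6 : qq V i * y ^ 992 ≤ 7 / 5 := by
    refine (mul_le_mul_of_nonneg_right h5 (by positivity)).trans ?_
    have e : (y ^ 8 / y ^ 1000 + 6 / nV V ^ 2) * y ^ 992 = 1 + 6 / 32 * (32 / y ^ 3008) := by
      rw [hn]
      field_simp
    have := (small_pow hy (by norm_num : 2 ≤ 3008)).trans ((div_le_one hy0).mpr hy1)
    rw [e]
    linarith
  have h7 := pow_le_pow_left₀ (mul_pos (hp.q_pos hy1) (pow_pos hy0 _)).le h6 2
  rw [hn, show y ^ 2000 * qq V i ^ 2 = (qq V i * y ^ 992) ^ 2 * y ^ 16 by ring]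
  exact mul_le_mul_of_nonneg_right (by linarith) (by positivity)

theorem main_bound : ∃ Y : ℝ, ∀ {V : Type} [Fintype V] {y : ℝ}, Y ≤ y → nV V = y ^ 2000 →
    fin (dev y) (⊤ : SimpleGraph V) ≤ 8 * (1 / y) := by
  obtain ⟨c, Y1, -, hc, h1⟩ := track_words
  obtain ⟨Y2, h2⟩ := track_disc
  obtain ⟨Y3, h3⟩ := bad_bound
  obtain ⟨Y4, h4⟩ := good_bound
  refine ⟨max (max Y1 Y2) (max Y3 (max Y4 100)), ?_⟩
  intro V _ y hy hn
  simp only [max_le_iff] at hy
  obtain ⟨⟨y1, y2⟩, y3, y4, y5⟩ := hy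
  have hy1 : 1 ≤ y := by linarith
  have hy0 : 0 < y := by linarith
  obtain ⟨i, hp, hD⟩ := exists_par y5 hn
  choose Z z0 z1 z2 using h3 hc y3 hp hD
  have a1 : ∀ H : SimpleGraph V, ind (Good y c i H) * fin (dev y) H ≤ 5 * (1 / y) +
      1 / (y ^ 3000) ^ 2 * (∑ e : V × V, ∑ e' : V × V, Z (root e.1 e.2 e'.1 e'.2) 2 H) +
      2 / y ^ 3000 * ∑ e : V × V, Z (root e.1 e.2 e.1 e.1) 1 H := fun H => by
    by_cases hH : Good y c i H
    · rw [ind_pos hH, one_mul, one_div_mul_eq_div]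
      refine h4 y4 hp hD hH (fun _ => z0 _ _ _) (fun _ _ => z0 _ _ _) (fun N hN e he => z2 _ _
        (.inl ⟨_, _, he.ne, rfl, rfl⟩) H N hN hH fun b hb => ?_) fun N hN e e' he he' hm =>
        z2 _ _ (.inr ⟨_, _, _, _, he.ne, he'.ne, ?_⟩) H N hN hH fun b _ => ?_
      · cases b
        · exact he
        · exact absurd rfl hb
      · simp only [Meet, not_or] at hm
        exact ⟨Ne.symm hm.1, Ne.symm hm.2.1, Ne.symm hm.2.2.1, Ne.symm hm.2.2.2, rfl, rfl⟩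
      · cases b
        · exact he
        · exact he'
    · rw [ind_neg hH, zero_mul]
      have b1 := sum_nonneg fun (e : V × V) (_ : e ∈ univ) => sum_nonneg fun (e' : V × V)
        (_ : e' ∈ univ) => z0 (root e.1 e.2 e'.1 e'.2) 2 H
      have b2 := sum_nonneg fun (e : V × V) (_ : e ∈ univ) => z0 (root e.1 e.2 e.1 e.1) 1 H
      positivity
  have a2 := kil_mono (Good y c) 0 i a1 ⊤
  simp only [kil_add, kil_mul _ _ _ (_ / _), kil_sum] at a2
  have a3 := kil_const_le (Good y c) 0 i (by positivity : 0 ≤ 5 * (1 / y)) (⊤ : SimpleGraph V)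
  have hq := q_le hy0 hn hD
  have hq0 := mul_pos (hp.q_pos hy1) (pow_pos hy0 992)
  have a4 : 1 / (y ^ 3000) ^ 2 * ∑ e : V × V, ∑ e' : V × V,
      kil (Good y c) 0 i (Z (root e.1 e.2 e'.1 e'.2) 2) ⊤ ≤ 1 / y := by
    refine (mul_le_mul_of_nonneg_left (sum_le_sum fun e _ => sum_le_sum fun e' _ => z1 _ _)
      (by positivity)).trans (le_trans ?_ (small_pow y5 (by norm_num : 2 ≤ 378)))
    simp only [sum_const, card_univ, Fintype.card_prod, nsmul_eq_mul, Nat.cast_mul, hn]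
    refine le_trans (le_of_eq ?_) (div_le_div_of_nonneg_right (by nlinarith :
      (qq V i * y ^ 992) ^ 3 ≤ 32) (by positivity))
    field_simp
  have a5 : 2 / y ^ 3000 * ∑ e : V × V,
      kil (Good y c) 0 i (Z (root e.1 e.2 e.1 e.1) 1) ⊤ ≤ 1 / y := by
    refine (mul_le_mul_of_nonneg_left (sum_le_sum fun e _ => z1 _ _)
      (by positivity)).trans (le_trans ?_ (small_pow y5 (by norm_num : 2 ≤ 386)))
    simp only [sum_const, card_univ, Fintype.card_prod, nsmul_eq_mul, Nat.cast_mul, hn]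
    refine le_trans (le_of_eq ?_) (div_le_div_of_nonneg_right (by nlinarith :
      2 * (qq V i * y ^ 992) ^ 2 ≤ 32) (by positivity))
    field_simp
  have a6 : ∀ t ∈ range (i + 1), kil (Good y c) 0 t (fun H => ind (¬Good y c t H))
      (⊤ : SimpleGraph V) ≤ 2 / y ^ 10000 := fun t ht => by
    have hp' := hp.mono (Nat.lt_succ_iff.mp (mem_range.mp ht))
    refine le_trans (kil_mono _ _ _ (fun H => ?_) _) ((kil_add _ _ _ _ _ _).trans_le
      ((add_le_add (h1 y1 hp') (h2 hc y2 hp')).trans_eq (by ring)))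
    by_cases hd : Disc H (qq V t) (1 / y ^ 4)
    · exact le_add_of_le_of_nonneg (ind_mono fun h h' => h ⟨h'.1, h'.2.1, h'.2.2.1, h'.2.2.2, hd⟩)
        (ind_nonneg _)
    · rw [ind_pos hd]
      exact le_add_of_nonneg_of_le (ind_nonneg _) (ind_le_one _)
  have a7 : y ^ 2000 * ∑ t ∈ range (i + 1), kil (Good y c) 0 t (fun H => ind (¬Good y c t H))
      (⊤ : SimpleGraph V) ≤ 1 / y := by
    refine (mul_le_mul_of_nonneg_left (sum_le_sum a6) (by positivity)).trans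
      (le_trans ?_ (small_pow y5 (by norm_num : 2 ≤ 4000)))
    have b1 : ((i + 1 : ℕ) : ℝ) ≤ 16 * y ^ 4000 := by
      push_cast
      linarith [hp.le_sq hy1, one_le_pow₀ (n := 4000) hy1]
    rw [sum_const, card_range, nsmul_eq_mul]
    refine (mul_le_mul_of_nonneg_left (mul_le_mul_of_nonneg_right b1 (by positivity))
      (by positivity)).trans_eq ?_
    field_simp
    norm_num
  have a8 := fin_le_kil (Good y c) (ψ := dev y) (fun _ => sq_nonneg _) (dev_le hy1 hn) i ⊤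
  linarith

end

end Vale.Agent.P046
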