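import Vale.Agent.P046.Words

/-! Spectral bounds from discrepancy bounds. -/

namespace Vale.Agent.P046

open Classical Finset

variable {V : Type} [Fintype V]

omit [Fintype V] in
lemma sp_abs (c : V → ℝ) (A : Finset V) {L : ℝ} (hL : 0 ≤ L)
    (h : ∀ U ⊆ A, |∑ u ∈ U, c u| ≤ L * √(U.card : ℝ)) :
    ∀ U ⊆ A, ∑ u ∈ U, |c u| ≤ 2 * L * √(U.card : ℝ) := by
  intro U hU
  have key : ∀ W ⊆ U, |∑ u ∈ W, c u| ≤ L * √(U.card : ℝ) := fun W hW =>
    (h _ (hW.trans hU)).trans (mul_le_mul_of_nonneg_left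
      (Real.sqrt_le_sqrt (by exact_mod_cast card_le_card hW)) hL)
  rw [← sum_filter_add_sum_filter_not U fun u => 0 ≤ c u]
  have e1 : ∑ u ∈ U.filter (fun u => 0 ≤ c u), |c u| = ∑ u ∈ U.filter (fun u => 0 ≤ c u), c u :=
    sum_congr rfl fun u hu => abs_of_nonneg (mem_filter.1 hu).2
  have e2 : ∑ u ∈ U.filter (fun u => ¬0 ≤ c u), |c u| =
      -∑ u ∈ U.filter (fun u => ¬0 ≤ c u), c u := by
    rw [← sum_neg_distrib]
    exact sum_congr rfl fun u hu => abs_of_neg (not_le.1 (mem_filter.1 hu).2)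
  rw [e1, e2]
  linarith [(abs_le.1 (key _ (filter_subset (fun u => 0 ≤ c u) U))).2,
    (abs_le.1 (key _ (filter_subset (fun u => ¬0 ≤ c u) U))).1]

omit [Fintype V] in
lemma sp_weak (c : V → ℝ) {L : ℝ} (k : ℕ) : ∀ A : Finset V, A.card = k →
    (∀ U ⊆ A, ∑ u ∈ U, |c u| ≤ L * √(U.card : ℝ)) → ∑ u ∈ A, c u ^ 2 ≤ L ^ 2 * harmonic k := by
  induction k with
  | zero => intro A hA _; rw [card_eq_zero.1 hA]; simp
  | succ k ih =>
    intro A hA h
    obtain ⟨v, hv, hmin⟩ := exists_min_image A (fun u => |c u|) (card_pos.1 (by omega))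
    have h1 := ih (A.erase v) (by rw [card_erase_of_mem hv]; omega)
      fun U hU => h U (hU.trans (erase_subset _ _))
    have h2 : (A.card : ℝ) * |c v| ≤ L * √(A.card : ℝ) := by
      refine le_trans ?_ (h A Subset.rfl)
      rw [← nsmul_eq_mul]
      exact card_nsmul_le_sum A _ _ hmin
    rw [hA] at h2
    have h3 : (0 : ℝ) < ((k + 1 : ℕ) : ℝ) := by positivity
    have h4 := pow_le_pow_left₀ (by positivity) h2 2
    rw [mul_pow, mul_pow, sq_abs, Real.sq_sqrt h3.le] at h4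
    have h5 : c v ^ 2 ≤ L ^ 2 * ((k + 1 : ℕ) : ℝ)⁻¹ := by
      rw [← div_eq_mul_inv, le_div_iff₀ h3]
      nlinarith
    rw [← add_sum_erase A _ hv, harmonic_succ]
    push_cast at h5 ⊢
    linarith

omit [Fintype V] in
lemma sp_lin (c f : V → ℝ) (A : Finset V) {L H : ℝ} (hL : 0 ≤ L)
    (hH : 1 + Real.log A.card ≤ H) (h : ∀ U ⊆ A, |∑ u ∈ U, c u| ≤ L * √(U.card : ℝ)) :
    |∑ u ∈ A, f u * c u| ≤ 2 * L * √H * √(∑ u ∈ A, f u ^ 2) := by
  have h1 := (sp_weak c _ A rfl (sp_abs c A hL h)).trans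
    (mul_le_mul_of_nonneg_left ((harmonic_le_one_add_log _).trans hH) (sq_nonneg _))
  have h2 : √(∑ u ∈ A, c u ^ 2) ≤ 2 * L * √H := by
    refine (Real.sqrt_le_sqrt h1).trans ?_
    rw [Real.sqrt_mul (sq_nonneg _), Real.sqrt_sq (by positivity)]
  have h3 := Real.abs_le_sqrt (sum_mul_sq_le_sq_mul_sq A f c)
  rw [Real.sqrt_mul (sum_nonneg fun _ _ => sq_nonneg _), mul_comm] at h3
  exact h3.trans (mul_le_mul_of_nonneg_right h2 (Real.sqrt_nonneg _))

omit [Fintype V] in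
lemma sp_bil (B : V → V → ℝ) (A : Finset V) {L H : ℝ} (hL : 0 ≤ L) (hH0 : 0 ≤ H)
    (hH : 1 + Real.log A.card ≤ H)
    (h : ∀ U ⊆ A, ∀ W ⊆ A, |∑ u ∈ U, ∑ w ∈ W, B u w| ≤ L * √(U.card : ℝ) * √(W.card : ℝ))
    (f g : V → ℝ) : |∑ u ∈ A, ∑ w ∈ A, f u * B u w * g w| ≤
      4 * L * H * √(∑ u ∈ A, f u ^ 2) * √(∑ w ∈ A, g w ^ 2) := by
  have h1 := sp_lin (fun w => ∑ u ∈ A, f u * B u w) g A
    (L := 2 * L * √H * √(∑ u ∈ A, f u ^ 2)) (by positivity) hH fun W hW => by
      have := sp_lin (fun u => ∑ w ∈ W, B u w) f A (L := L * √(W.card : ℝ)) (by positivity) hH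
        fun U hU => (h U hU W hW).trans (le_of_eq (by ring))
      rw [sum_comm]
      simp only [← mul_sum]
      exact this.trans (le_of_eq (by ring))
  have e : ∑ u ∈ A, ∑ w ∈ A, f u * B u w * g w = ∑ w ∈ A, g w * ∑ u ∈ A, f u * B u w := by
    rw [sum_comm]
    refine sum_congr rfl fun w _ => ?_
    rw [mul_sum]
    exact sum_congr rfl fun u _ => by ring
  rw [e]
  refine h1.trans (le_of_eq ?_)
  have := Real.mul_self_sqrt hH0
  linear_combination 4 * L * √(∑ u ∈ A, f u ^ 2) * √(∑ w ∈ A, g w ^ 2) * this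

lemma sp_num {a b m r S : ℝ} (ha : 0 ≤ a) (hab : a ≤ b) (hr : 0 ≤ r) (hm : 0 ≤ m)
    (h1 : S ≤ 3 * r ^ 2 * m * b) (h2 : S ≤ 3 * m * a) : S ≤ 3 * r * m * √a * √b := by
  have hb := ha.trans hab
  rw [mul_assoc, ← Real.sqrt_mul ha]
  by_cases h : r ^ 2 * b ≤ a
  · have : r * b ≤ √(a * b) := Real.le_sqrt_of_sq_le (by nlinarith)
    refine h1.trans ?_
    have := mul_le_mul_of_nonneg_left this (show 0 ≤ 3 * r * m by positivity)
    linarith
  · have h3 : a ≤ r * √(a * b) := by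
      rw [← Real.sqrt_sq hr, ← Real.sqrt_mul (sq_nonneg _)]
      exact Real.le_sqrt_of_sq_le (by nlinarith)
    have := mul_le_mul_of_nonneg_left h3 (show 0 ≤ 3 * m by positivity)
    linarith

omit [Fintype V] in
lemma sp_symm (G : SimpleGraph V) (q : ℝ) (u w : V) : Yh G q u w = Yh G q w u := by
  unfold Yh X
  rw [ind_congr (G.adj_comm u w)]

lemma sp_cut {G : SimpleGraph V} {q κ m : ℝ} (hq : 0 < q) (hκ : 0 < κ) (hD : Disc G q κ)
    (A : Finset V) (hm : nV V * q ≤ m) (hA : (A.card : ℝ) ≤ m)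
    (hrow : ∀ u ∈ A, ∑ w ∈ A, X G u w / q ≤ 2 * m) :
    ∀ U ⊆ A, ∀ W ⊆ A, |∑ u ∈ U, ∑ w ∈ W, Yh G q u w| ≤
      3 * √κ * m * √(U.card : ℝ) * √(W.card : ℝ) := by
  have hm0 : 0 ≤ m := (Nat.cast_nonneg _).trans hA
  have key : ∀ U ⊆ A, ∀ W ⊆ A, (U.card : ℝ) ≤ W.card → |∑ u ∈ U, ∑ w ∈ W, Yh G q u w| ≤
      3 * √κ * m * √(U.card : ℝ) * √(W.card : ℝ) := by
    intro U hU W hW hUW
    have ha : (0 : ℝ) ≤ U.card := Nat.cast_nonneg _
    have hb : (0 : ℝ) ≤ W.card := Nat.cast_nonneg _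
    have hUm : (U.card : ℝ) ≤ m := le_trans (by exact_mod_cast card_le_card hU) hA
    refine sp_num ha hUW (Real.sqrt_nonneg _) hm0 ?_ ?_
    · have e : ∑ u ∈ U, ∑ w ∈ W, Yh G q u w =
          (∑ u ∈ U, ∑ w ∈ W, X G u w - q * U.card * W.card) / q := by
        simp only [Yh, sum_sub_distrib, ← sum_div, sum_const, nsmul_eq_mul, mul_one]
        field_simp
      rw [e, abs_div, abs_of_pos hq, div_le_iff₀ hq, Real.sq_sqrt hκ.le]
      refine (hD U W).trans ?_
      have h1 : (U.card : ℝ) * W.card ≤ m * W.card := mul_le_mul_of_nonneg_right hUm hb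
      have h2 : nV V * q * (U.card + W.card) ≤ m * (2 * W.card) :=
        mul_le_mul hm (by linarith) (by positivity) hm0
      have h3 := mul_le_mul_of_nonneg_left (add_le_add h1 h2) (mul_pos hκ hq).le
      linarith
    · refine (abs_sum_le_sum_abs _ _).trans ?_
      rw [← nsmul_eq_mul']
      refine sum_le_card_nsmul _ _ _ fun u hu => (abs_sum_le_sum_abs _ _).trans ?_
      refine (sum_le_sum_of_subset_of_nonneg hW fun _ _ _ => abs_nonneg _).trans ?_
      have : ∑ w ∈ A, |Yh G q u w| ≤ ∑ w ∈ A, (X G u w / q + 1) := sum_le_sum fun w _ => by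
        have : 0 ≤ X G u w / q := div_nonneg (ind_nonneg _) hq.le
        unfold Yh
        rw [abs_le]
        constructor <;> linarith
      rw [sum_add_distrib, sum_const, nsmul_eq_mul, mul_one] at this
      linarith [hrow u (hU hu)]
  intro U hU W hW
  rcases le_total (U.card : ℝ) W.card with h | h
  · exact key U hU W hW h
  · rw [sum_comm]
    have := key W hW U hU h
    rw [sum_congr rfl fun w _ => sum_congr rfl fun u _ => sp_symm G q w u] at this
    exact this.trans (le_of_eq (by ring))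

lemma sp_log (A : Finset V) :
    1 + Real.log A.card ≤ ((Nat.log 2 (Fintype.card V) : ℝ) + 2) ^ 2 := by
  have h1 : A.card ≤ 2 ^ (Nat.log 2 (Fintype.card V) + 1) :=
    (card_le_univ A).trans (Nat.lt_pow_succ_log_self (by norm_num) _).le
  have h2 : Real.log A.card ≤ (Nat.log 2 (Fintype.card V) : ℝ) + 1 := by
    rcases Nat.eq_zero_or_pos A.card with h | h
    · rw [h]; simp; positivity
    · refine (Real.log_le_log (by exact_mod_cast h) (by exact_mod_cast h1 :
        (A.card : ℝ) ≤ 2 ^ (Nat.log 2 (Fintype.card V) + 1))).trans ?_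
      rw [Real.log_pow]
      push_cast
      have := Real.log_two_lt_d9
      have h0 : (0 : ℝ) ≤ Nat.log 2 (Fintype.card V) := Nat.cast_nonneg _
      nlinarith
  have h0 : (0 : ℝ) ≤ Nat.log 2 (Fintype.card V) := Nat.cast_nonneg _
  nlinarith

lemma sp_filter (G : SimpleGraph V) (x : V) (f : V → ℝ) :
    ∑ u, X G x u * f u = ∑ u ∈ univ.filter (G.Adj x), f u := by
  rw [sum_filter]
  refine sum_congr rfl fun u _ => ?_
  unfold X ind
  split_ifs <;> simp

theorem spec_of_disc {G : SimpleGraph V} {q η κ : ℝ} (hq : 0 < q) (hq1 : q ≤ 1) (hR : Reg G q η)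
    (hη : η ≤ 1 / 2) (hκ : 0 < κ) (_hκ1 : κ ≤ 1) (hD : Disc G q κ) :
    Spec G q (1000 * √κ * ((Nat.log 2 (Fintype.card V) : ℝ) + 2) ^ 2) := by
  have hdeg : ∀ x, ∑ w, X G x w / q ≤ 3 / 2 * nV V := fun x => by
    have hn : 0 < nV V := by
      have : 0 < Fintype.card V := Fintype.card_pos_iff.2 ⟨x⟩
      exact_mod_cast this
    have h := (abs_le.1 (hR.1 x)).2
    unfold beta av Xh at h
    rw [sub_le_iff_le_add, div_le_iff₀ hn] at h
    nlinarith
  have hn0 : 0 ≤ nV V := Nat.cast_nonneg _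
  have hs := Real.sqrt_nonneg κ
  set H : ℝ := ((Nat.log 2 (Fintype.card V) : ℝ) + 2) ^ 2 with hH
  have hH0 : 0 ≤ H := sq_nonneg _
  refine ⟨fun x f g => ?_, fun f g => ?_⟩
  · have hn : 0 < nV V := by
      have : 0 < Fintype.card V := Fintype.card_pos_iff.2 ⟨x⟩
      exact_mod_cast this
    have hA : ((univ.filter (G.Adj x)).card : ℝ) ≤ 2 * (nV V * q) := by
      have h1 := hdeg x
      have h2 := sp_filter G x fun _ => 1
      simp only [mul_one, sum_const, nsmul_eq_mul] at h2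
      rw [← sum_div, h2, div_le_iff₀ hq] at h1
      nlinarith [mul_pos hn hq]
    have h := sp_bil (Yh G q) (univ.filter (G.Adj x)) (by positivity) hH0 (sp_log _)
      (sp_cut hq hκ hD _ (m := 2 * (nV V * q)) (by nlinarith [mul_pos hn hq]) hA fun u hu => by
        have h1 := (abs_le.1 (hR.2 x u (mem_filter.1 hu).2.ne)).2
        unfold zeta av Xh at h1
        rw [sub_le_iff_le_add, div_le_iff₀ hn] at h1
        have e : ∑ w, X G x w * (X G u w / q) = q * ∑ w, X G x w / q * (X G u w / q) := by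
          rw [mul_sum]
          exact sum_congr rfl fun w _ => by field_simp
        rw [← sp_filter, e]
        nlinarith [mul_pos hn hq, mul_le_mul_of_nonneg_left h1 hq.le]) f g
    simp only [mul_assoc (X G x _), ← mul_sum, sp_filter]
    refine h.trans ?_
    gcongr ?_ * _ * _
    nlinarith [mul_nonneg (mul_nonneg hs hH0) (mul_pos hn hq).le]
  · have h := sp_bil (Yh G q) univ (by positivity) hH0 (sp_log _)
      (sp_cut hq hκ hD _ (m := nV V) (by nlinarith) (by simp) fun u _ => by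
        linarith [hdeg u]) f g
    refine h.trans ?_
    gcongr ?_ * _ * _
    nlinarith [mul_nonneg (mul_nonneg hs hH0) hn0]

end Vale.Agent.P046
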