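import Vale.Agent.P046.Step
import Vale.Agent.P046.Spec

/-! The good event of the first phase. Throughout, the number of vertices is `y ^ 2000`. -/

namespace Vale.Agent.P046

open Classical Finset

noncomputable section

variable {V : Type} [Fintype V]

/-- The density after `i` steps. -/
def qq (V : Type) [Fintype V] (i : ℕ) : ℝ := 1 - 6 * i / nV V ^ 2

/-- The allowed error. -/
def et (V : Type) [Fintype V] (y : ℝ) (i : ℕ) : ℝ := y ^ 2 / (y ^ 1000 * qq V i)

/-- The good event at step `i`; `c` is a small constant. -/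
structure Good (y c : ℝ) (i : ℕ) (G : SimpleGraph V) : Prop where
  cnt : ∑ a, ∑ b, X G a b = nV V ^ 2 * qq V i - nV V
  deg : ∀ x, |beta G (qq V i) x| ≤ et V y i
  wrd : ∀ Ω ∈ words 2100, ∀ a b, a ≠ b →
    |ev G (qq V i) Ω (zeta G (qq V i)) a b| ≤ wt Ω * et V y i
  avz : |mean G (qq V i) (zeta G (qq V i))| ≤ c * et V y i
  disc : Disc G (qq V i) (1 / y ^ 4)

/-- The standing hypotheses on the parameters: `i` is a step of the first phase. -/
structure Par (V : Type) [Fintype V] (y : ℝ) (i : ℕ) : Prop where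
  card : nV V = y ^ 2000
  early : y ^ 8 / y ^ 1000 ≤ qq V i

lemma Par.mono {y : ℝ} {i t : ℕ} (h : Par V y i) (ht : t ≤ i) : Par V y t := by
  refine ⟨h.card, h.early.trans ?_⟩
  unfold qq
  gcongr

lemma qq_zero : qq V 0 = 1 := by simp [qq]

lemma Par.q_pos {y : ℝ} {i : ℕ} (h : Par V y i) (hy : 1 ≤ y) : 0 < qq V i :=
  lt_of_lt_of_le (by positivity) h.early

lemma qq_le_one (i : ℕ) : qq V i ≤ 1 := by
  unfold qq
  have : 0 ≤ 6 * (i : ℝ) / nV V ^ 2 := by positivity
  linarith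

lemma Par.qq_succ {y : ℝ} {i : ℕ} (h : Par V y i) (hy : 1 ≤ y) :
    qq V (i + 1) = qq V i * (1 - du V (qq V i)) := by
  have hq := (h.q_pos hy).ne'
  have hn : nV V ≠ 0 := by rw [h.card]; positivity
  have e : qq V i * du V (qq V i) = 6 / nV V ^ 2 := by
    unfold du
    field_simp
  rw [mul_sub, e]
  unfold qq
  push_cast
  ring

lemma Par.et_le {y : ℝ} {i : ℕ} (h : Par V y i) (hy : 1 ≤ y) :
    0 < et V y i ∧ et V y i ≤ 1 / y ^ 6 := by
  have hq := h.q_pos hy
  have hy0 : 0 < y := by linarith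
  have h1 := h.early
  rw [div_le_iff₀ (by positivity)] at h1
  unfold et
  refine ⟨by positivity, ?_⟩
  rw [div_le_div_iff₀ (by positivity) (by positivity)]
  linarith

/-- The codegree scale `D = n q ^ 2` satisfies `η ^ 2 D = y ^ 4` and `D ≥ y ^ 16`. -/
lemma Par.D_eq {y : ℝ} {i : ℕ} (h : Par V y i) (hy : 1 ≤ y) :
    et V y i ^ 2 * (nV V * qq V i ^ 2) = y ^ 4 ∧ y ^ 16 ≤ nV V * qq V i ^ 2 := by
  have hq := h.q_pos hy
  have hy0 : 0 < y := by linarith
  have h1 := h.early
  rw [div_le_iff₀ (by positivity)] at h1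
  have e : y ^ 2000 = (y ^ 1000) ^ 2 := by rw [← pow_mul]
  rw [h.card, e]
  have hz : 0 < y ^ 1000 := by positivity
  unfold et
  generalize y ^ 1000 = z at *
  refine ⟨by field_simp, ?_⟩
  have := pow_le_pow_left₀ (by positivity) h1 2
  linarith

lemma Par.le_sq {y : ℝ} {i : ℕ} (h : Par V y i) (hy : 1 ≤ y) : (i : ℝ) ≤ y ^ 4000 := by
  have hq := h.q_pos hy
  have hy0 : 0 < y := by linarith
  unfold qq at hq
  rw [h.card, ← pow_mul, sub_pos, div_lt_one (by positivity),
    show 2000 * 2 = 4000 from rfl] at hq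
  have : (0 : ℝ) ≤ i := Nat.cast_nonneg _
  generalize y ^ 4000 = z at *
  linarith

lemma Good.reg {y c : ℝ} {i : ℕ} {G : SimpleGraph V} (h : Good y c i G) :
    Reg G (qq V i) (et V y i) :=
  ⟨h.deg, fun a b hab => by simpa [wt_nil, ev] using h.wrd [] (nil_mem_words (by norm_num)) a b hab⟩

/-- The exact relation between the triangle count and the mean codegree deviation. -/
lemma Good.gam_eq {y c : ℝ} {i : ℕ} {G : SimpleGraph V} (h : Good y c i G) (hp : Par V y i)
    (hy : 1 ≤ y) :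
    gam G (qq V i) = mean G (qq V i) (zeta G (qq V i)) - 1 / (nV V * qq V i) := by
  have hq := hp.q_pos hy
  have hn : 0 < nV V := by rw [hp.card]; positivity
  rw [mean_zeta hq hn, h.cnt]
  field_simp
  ring

lemma Good.stepHyp {y c : ℝ} {i : ℕ} {G : SimpleGraph V} (h : Good y c i G) (hp : Par V y i)
    (hy : 10 ≤ y) (hc : c ≤ 1 / 2) : StepHyp G (qq V i) (et V y i) := by
  have hy1 : 1 ≤ y := by linarith
  have hq := hp.q_pos hy1
  have he := hp.et_le hy1
  have hD := (hp.D_eq hy1).2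
  have h2 : (10 : ℝ) ^ 2 ≤ y ^ 2 := pow_le_pow_left₀ (by norm_num) hy 2
  have h6 : (10 : ℝ) ^ 6 ≤ y ^ 6 := pow_le_pow_left₀ (by norm_num) hy 6
  have h16 : (10 : ℝ) ^ 16 ≤ y ^ 16 := pow_le_pow_left₀ (by norm_num) hy 16
  refine ⟨hq, qq_le_one i, h.reg, ?_, he.2.trans ?_, by linarith⟩
  · have h3 : 1 / (nV V * qq V i) ≤ et V y i / 2 := by
      have e : y ^ 2000 = y ^ 1000 * y ^ 1000 := by rw [← pow_add]
      have hz : 1 ≤ y ^ 1000 := one_le_pow₀ hy1
      unfold et
      rw [hp.card, e]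
      generalize y ^ 1000 = z at *
      rw [div_div, div_le_div_iff₀ (by positivity) (by positivity)]
      have h4 : 0 < z * qq V i := by positivity
      have h5 : 2 ≤ y ^ 2 * z := by nlinarith
      nlinarith [mul_le_mul_of_nonneg_left h5 h4.le]
    have h4 : 0 ≤ 1 / (nV V * qq V i) := by positivity
    have h5 := abs_le.1 (h.avz.trans (mul_le_mul_of_nonneg_right hc he.1.le))
    rw [h.gam_eq hp hy1, abs_le]
    constructor <;> linarith [h5.1, h5.2]
  · exact one_div_le_one_div_of_le (by norm_num) (by linarith)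

lemma Spec.mono {G : SimpleGraph V} {q a b : ℝ} (h : Spec G q a) (hq : 0 ≤ q) (hab : a ≤ b) :
    Spec G q b :=
  ⟨fun x f g => (h.1 x f g).trans (by gcongr), fun f g => (h.2 f g).trans (by gcongr)⟩

theorem Good.spec : ∃ Y : ℝ, ∀ {V : Type} [Fintype V] {y c : ℝ} {i : ℕ} {G : SimpleGraph V},
    Y ≤ y → Par V y i → Good y c i G → Spec G (qq V i) (1 / y) := by
  have h1 := Real.tendsto_pow_log_div_mul_add_atTop 1 0 2 one_ne_zero
  obtain ⟨Y, hY⟩ := Filter.eventually_atTop.1
    ((h1.eventually (gt_mem_nhds (show (0 : ℝ) < 1 / (1000 * 5000 ^ 2) by norm_num))).and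
      (Real.tendsto_log_atTop.eventually_ge_atTop 1))
  refine ⟨max Y 10, fun {V} _ {y c i G} hy hp h => ?_⟩
  have hy10 : 10 ≤ y := (le_max_right _ _).trans hy
  have hy1 : 1 ≤ y := by linarith
  have hy0 : 0 < y := by linarith
  obtain ⟨h2, h3⟩ := hY y ((le_max_left _ _).trans hy)
  have hq := hp.q_pos hy1
  have h6 : (10 : ℝ) ^ 6 ≤ y ^ 6 := pow_le_pow_left₀ (by norm_num) hy10 6
  have he : et V y i ≤ 1 / 2 :=
    (hp.et_le hy1).2.trans (one_div_le_one_div_of_le (by norm_num) (by linarith))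
  refine (spec_of_disc hq (qq_le_one i) h.reg he (by positivity)
    (by rw [div_le_one (by positivity)]; exact one_le_pow₀ hy1) h.disc).mono hq.le ?_
  have e : √(1 / y ^ 4) = 1 / y ^ 2 := by
    rw [show 1 / y ^ 4 = (1 / y ^ 2) ^ 2 by ring, Real.sqrt_sq (by positivity)]
  have h4 : (Nat.log 2 (Fintype.card V) : ℝ) ≤ 4000 * Real.log y := by
    have hn : Fintype.card V ≠ 0 := by
      have : nV V ≠ 0 := by rw [hp.card]; positivity
      exact_mod_cast this
    have h5 : (2 : ℝ) ^ Nat.log 2 (Fintype.card V) ≤ y ^ 2000 := by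
      rw [← hp.card]
      exact_mod_cast Nat.pow_log_le_self 2 hn
    have h7 := Real.log_le_log (by positivity) h5
    rw [Real.log_pow, Real.log_pow] at h7
    push_cast at h7
    have := Real.log_two_gt_d9
    have h0 : (0 : ℝ) ≤ Nat.log 2 (Fintype.card V) := Nat.cast_nonneg _
    nlinarith
  have h8 : ((Nat.log 2 (Fintype.card V) : ℝ) + 2) ^ 2 ≤ (5000 * Real.log y) ^ 2 :=
    pow_le_pow_left₀ (by positivity) (by linarith) 2
  rw [one_mul, add_zero, div_lt_div_iff₀ hy0 (by norm_num)] at h2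
  rw [e, le_div_iff₀ hy0]
  have e2 : 1000 * (1 / y ^ 2) * ((Nat.log 2 (Fintype.card V) : ℝ) + 2) ^ 2 * y =
      1000 * ((Nat.log 2 (Fintype.card V) : ℝ) + 2) ^ 2 / y := by field_simp
  rw [e2, div_le_one hy0]
  linarith

end

end Vale.Agent.P046
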