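import Vale.Agent.P046.Final

/-! Convergence in mean square, in probability and in expectation. -/

namespace Vale.Agent.P046

open Classical Finset Filter Topology

lemma ed_eq {V : Type} [Fintype V] (G : SimpleGraph V) : ed G = 2 * (G.edgeSet.ncard : ℝ) := by
  have h := G.sum_degrees_eq_twice_card_edges
  rw [← SimpleGraph.coe_edgeFinset, Set.ncard_coe_finset, ed, Fintype.sum_prod_type']
  have e : ∀ a, ∑ b, X G a b = (G.degree a : ℝ) := fun a => by
    rw [← SimpleGraph.card_neighborFinset_eq_degree, SimpleGraph.neighborFinset_eq_filter,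
      card_filter]
    push_cast
    rfl
  simp only [e]
  exact_mod_cast h

lemma dev_eq {n : ℕ} (G : SimpleGraph (Fin n)) :
    (ratio G - 1 / (2 * √2)) ^ 2 = 1 / 4 * dev ((n : ℝ) ^ (1 / 2000 : ℝ)) G := by
  rw [dev, ed_eq, ← Real.rpow_natCast _ 3000, ← Real.rpow_mul (Nat.cast_nonneg n), ratio,
    show (1 / 2000 : ℝ) * (3000 : ℕ) = 3 / 2 by norm_num]
  ring

theorem tendsto_sq : Tendsto (fun n => ∑' G, (final n G).toReal * (ratio G - 1 / (2 * √2)) ^ 2)
    atTop (𝓝 0) := by
  obtain ⟨Y, h⟩ := main_bound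
  have hy : Tendsto (fun n : ℕ => (n : ℝ) ^ (1 / 2000 : ℝ)) atTop atTop :=
    (tendsto_rpow_atTop (by norm_num)).comp tendsto_natCast_atTop_atTop
  have h0 := (hy.const_div_atTop 1).const_mul 2
  rw [mul_zero] at h0
  refine squeeze_zero' (.of_forall fun n => tsum_nonneg fun G => by positivity) ?_ h0
  filter_upwards [hy.eventually_ge_atTop Y] with n hn
  have h1 := h (V := Fin n) hn (by
    rw [← Real.rpow_natCast _ 2000, ← Real.rpow_mul (Nat.cast_nonneg n)]
    norm_num [nV])
  rw [← tsum_final] at h1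
  simp only [dev_eq, mul_left_comm _ (1 / 4 : ℝ), tsum_mul_left]
  linarith

lemma summ (n : ℕ) (f : SimpleGraph (Fin n) → ℝ) : Summable f := .of_finite

theorem tendsto_prob {ε : ℝ} (hε : 0 < ε) : Tendsto
    (fun n => (final n).toOuterMeasure {G | ε < |ratio G - 1 / (2 * √2)|}) atTop (𝓝 0) := by
  have h0 := ENNReal.tendsto_ofReal (tendsto_sq.const_mul (1 / ε ^ 2))
  rw [mul_zero, ENNReal.ofReal_zero] at h0
  refine tendsto_of_tendsto_of_tendsto_of_le_of_le tendsto_const_nhds h0 (fun _ => zero_le)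
    fun n => ?_
  simp only [← tsum_mul_left]
  rw [PMF.toOuterMeasure_apply, ENNReal.ofReal_tsum_of_nonneg (fun G => by positivity) (summ n _)]
  refine ENNReal.tsum_le_tsum fun G => ?_
  by_cases hG : G ∈ {G : SimpleGraph (Fin n) | ε < |ratio G - 1 / (2 * √2)|}
  · rw [Set.indicator_of_mem hG, ENNReal.le_ofReal_iff_toReal_le ((final n).apply_ne_top G)
      (by positivity), mul_left_comm]
    refine le_mul_of_one_le_right ENNReal.toReal_nonneg ?_
    rw [one_div_mul_eq_div, one_le_div (by positivity), ← sq_abs (_ - _)]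
    exact pow_le_pow_left₀ hε.le (le_of_lt hG) 2
  · rw [Set.indicator_of_notMem hG]
    exact zero_le

theorem tendsto_mean :
    Tendsto (fun n => ∑' G, (final n G).toReal * ratio G) atTop (𝓝 (1 / (2 * √2))) := by
  have h0 := tendsto_sq.sqrt
  rw [Real.sqrt_zero] at h0
  refine tendsto_iff_norm_sub_tendsto_zero.mpr (squeeze_zero (fun _ => norm_nonneg _)
    (fun n => Real.abs_le_sqrt ?_) h0)
  have h1 : ∀ c : ℝ, ∑' G, (final n G).toReal * c = c := fun c =>
    (tsum_final n fun _ => c).trans (fin_const c _)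
  generalize (1 / (2 * √2) : ℝ) = c
  set μ := ∑' G, (final n G).toReal * ratio G with hμ
  have h2 : ∀ G, (final n G).toReal * ((μ - c) ^ 2 - 2 * (μ - c) * μ) +
      2 * (μ - c) * ((final n G).toReal * ratio G) ≤ (final n G).toReal * (ratio G - c) ^ 2 :=
    fun G => by
      nlinarith [mul_nonneg (ENNReal.toReal_nonneg (a := final n G)) (sq_nonneg (ratio G - μ))]
  have h3 := (summ n _).tsum_le_tsum h2 (summ n _)
  rw [(summ n _).tsum_add (summ n _), h1, tsum_mul_left, ← hμ] at h3
  linarith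

end Vale.Agent.P046
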