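import Vale.Agent.P046.StepA

/-! One step estimates. -/

namespace Vale.Agent.P046

open Classical Finset

noncomputable section

variable {V : Type} [Fintype V]

/-- The relative decrease of the density in one step. -/
def du (V : Type) [Fintype V] (q : ℝ) : ℝ := 6 / (nV V ^ 2 * q)

/-- Hypotheses of the one step estimates. -/
structure StepHyp (G : SimpleGraph V) (q η : ℝ) : Prop where
  q0 : 0 < q
  q1 : q ≤ 1
  reg : Reg G q η
  gam : |gam G q| ≤ η
  eta : η ≤ 1 / 100
  big : 1000 ≤ nV V * q ^ 2

lemma St.n_ge {G : SimpleGraph V} {q η : ℝ} (h : StepHyp G q η) : 1000 ≤ nV V := by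
  have h1 : q ^ 2 ≤ 1 := pow_le_one₀ h.q0.le h.q1
  have h2 : (0 : ℝ) ≤ nV V := Nat.cast_nonneg _
  nlinarith [h.big]

lemma St.n_pos {G : SimpleGraph V} {q η : ℝ} (h : StepHyp G q η) : 0 < nV V :=
  lt_of_lt_of_le (by norm_num) (St.n_ge h)

lemma St.eta_nonneg {G : SimpleGraph V} {q η : ℝ} (h : StepHyp G q η) : 0 ≤ η :=
  (abs_nonneg _).trans h.gam

lemma St.card_tri {G : SimpleGraph V} {q η : ℝ} (h : StepHyp G q η) :
    ((tri G).card : ℝ) = (1 + gam G q) * (nV V ^ 3 * q ^ 3) / 6 := by
  have := (St.n_pos h).ne'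
  have := h.q0.ne'
  unfold gam
  field_simp
  ring

lemma St.gam_ge {G : SimpleGraph V} {q η : ℝ} (h : StepHyp G q η) : 99 / 100 ≤ 1 + gam G q := by
  have := (abs_le.1 h.gam).1
  linarith [h.eta]

lemma StepHyp.nonempty {G : SimpleGraph V} {q η : ℝ} (h : StepHyp G q η) : (tri G).Nonempty := by
  have h1 := St.card_tri h
  have h2 := St.gam_ge h
  have h3 := St.n_pos h
  have h4 := h.q0
  have : (0 : ℝ) < (tri G).card := by rw [h1]; positivity
  exact card_pos.1 (by exact_mod_cast this)

lemma StepHyp.du_le {G : SimpleGraph V} {q η : ℝ} (h : StepHyp G q η) :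
    0 < du V q ∧ du V q ≤ 1 / (100 * (nV V * q ^ 2)) := by
  have h3 := St.n_pos h
  have h4 := h.q0
  have h5 := St.n_ge h
  have h6 := h.q1
  unfold du
  refine ⟨by positivity, ?_⟩
  rw [div_le_div_iff₀ (by positivity) (by positivity)]
  have : 0 < nV V * q := by positivity
  nlinarith [mul_le_mul_of_nonneg_left (show 600 * q ≤ nV V by linarith) this.le]

lemma St.codeg {G : SimpleGraph V} {q : ℝ} (hq : 0 < q) (hn : 0 < nV V) (a b : V) :
    ∑ w, X G a w * X G b w = (1 + zeta G q a b) * (nV V * q ^ 2) := by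
  have h1 : ∑ w, Xh G q a w * Xh G q b w = (∑ w, X G a w * X G b w) / q ^ 2 := by
    rw [sum_div]
    refine sum_congr rfl fun w _ => ?_
    unfold Xh
    field_simp
  unfold zeta av
  rw [h1]
  field_simp
  ring

/-- The probability that a given edge is deleted. -/
lemma tav_hit {G : SimpleGraph V} {q η : ℝ} (h : StepHyp G q η) {a b : V} (hab : G.Adj a b) :
    tav G (fun T => ind (a ∈ T ∧ b ∈ T)) = du V q * (1 + zeta G q a b) / (1 + gam G q) := by
  have h2 := St.gam_ge h
  have h3 := St.n_pos h
  have h4 := h.q0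
  have h5 : 1 + gam G q ≠ 0 := by linarith
  unfold tav
  rw [St.sum_tri_pair hab, St.codeg h4 h3, St.card_tri h]
  unfold du
  field_simp

/-- The probability that a given triangle is deleted. -/
lemma tav_tri {G : SimpleGraph V} {q η : ℝ} (h : StepHyp G q η) {a b c : V} (hab : a ≠ b)
    (hac : a ≠ c) (hbc : b ≠ c) :
    tav G (fun T => ind (a ∈ T ∧ b ∈ T ∧ c ∈ T)) ≤ 2 * du V q / (nV V * q ^ 2) := by
  have h2 := St.gam_ge h
  have h3 := St.n_pos h
  have h4 := h.q0
  have h6 := St.sum_tri_triple G hab hac hbc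
  unfold tav
  refine (div_le_div_of_nonneg_right h6 (Nat.cast_nonneg _)).trans ?_
  rw [St.card_tri h]
  have e : 2 * du V q / (nV V * q ^ 2) = 1 / ((1 / 2) * (nV V ^ 3 * q ^ 3) / 6) := by
    unfold du
    field_simp
  rw [e]
  refine one_div_le_one_div_of_le (by positivity) ?_
  have : 0 < nV V ^ 3 * q ^ 3 := by positivity
  nlinarith

lemma mean_zeta {G : SimpleGraph V} {q : ℝ} (hq : 0 < q) (hn : 0 < nV V) :
    mean G q (zeta G q) = gam G q + 1 - (∑ a, ∑ b, X G a b) / (nV V ^ 2 * q) := by
  have h1 : ∀ a b, Xh G q a b * zeta G q a b =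
      (X G a b * ∑ w, X G a w * X G b w) / (nV V * q ^ 3) - X G a b / q := by
    intro a b
    rw [St.codeg hq hn]
    unfold Xh
    field_simp
    ring
  unfold mean av
  simp only [h1, sum_sub_distrib, ← sum_div]
  rw [St.sum_XXX]
  unfold gam
  field_simp
  ring

lemma sum_X_rem {G : SimpleGraph V} {T : Finset V} (hT : T ∈ tri G) :
    ∑ a, ∑ b, X (rem G T) a b = ∑ a, ∑ b, X G a b - 6 := by
  simp only [St.X_rem, sum_sub_distrib, St.sum_hit hT]

/-- Jump, variation and drift bounds for a random increment `Δ`. -/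
structure Incr (G : SimpleGraph V) (q η C : ℝ) (Δ : Finset V → ℝ) (drift : ℝ) : Prop where
  jump : ∀ T ∈ tri G, |Δ T| ≤ C / (nV V * q ^ 2)
  var : tav G (fun T => |Δ T|) ≤ C * du V q
  drift : |tav G Δ + du V q * drift| ≤ C * du V q * (η ^ 2 + 1 / (nV V * q ^ 2))

namespace St

lemma du_small {G : SimpleGraph V} {q η : ℝ} (h : StepHyp G q η) : du V q ≤ 1 / 100000 := by
  refine h.du_le.2.trans (one_div_le_one_div_of_le (by norm_num) ?_)
  linarith [h.big]

lemma D_pos {G : SimpleGraph V} {q η : ℝ} (h : StepHyp G q η) : 0 < nV V * q ^ 2 :=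
  lt_of_lt_of_le (by norm_num) h.big

lemma du_le' {G : SimpleGraph V} {q η : ℝ} (h : StepHyp G q η) :
    100 * du V q ≤ 1 / (nV V * q ^ 2) := by
  have h1 := h.du_le.2
  have h2 := D_pos h
  have e : 1 / (100 * (nV V * q ^ 2)) = 1 / (nV V * q ^ 2) / 100 := by field_simp
  linarith

lemma Dinv_le {G : SimpleGraph V} {q η : ℝ} (h : StepHyp G q η) :
    1 / (nV V * q ^ 2) ≤ 1 / 1000 := one_div_le_one_div_of_le (by norm_num) h.big

lemma Incr.mono {G : SimpleGraph V} {q η C C' : ℝ} (h : StepHyp G q η) {Δ : Finset V → ℝ}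
    {dr : ℝ} (hI : Incr G q η C Δ dr) (hC : C ≤ C') : Incr G q η C' Δ dr := by
  have h1 := h.du_le.1
  have h2 := D_pos h
  refine ⟨fun T hT => (hI.jump T hT).trans (div_le_div_of_nonneg_right hC h2.le),
    hI.var.trans (mul_le_mul_of_nonneg_right hC h1.le), hI.drift.trans ?_⟩
  exact mul_le_mul_of_nonneg_right (mul_le_mul_of_nonneg_right hC h1.le) (by positivity)

lemma tav_hit_eq {G : SimpleGraph V} {q η : ℝ} (h : StepHyp G q η) {a b : V} (hab : G.Adj a b) :
    tav G (hit G a b) = du V q * (1 + zeta G q a b) / (1 + gam G q) := by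
  rw [← tav_hit h hab]
  refine tav_congr fun T _ => ?_
  rw [hit_eq, X_pos hab, one_mul]

lemma tav_hit_le {G : SimpleGraph V} {q η : ℝ} (h : StepHyp G q η) (a b : V) :
    tav G (hit G a b) ≤ 2 * du V q := by
  have h1 := h.du_le.1
  by_cases hab : G.Adj a b
  · rw [tav_hit_eq h hab]
    have h2 := gam_ge h
    have h3 := (abs_le.1 (h.reg.2 a b hab.ne)).2
    have h4 := h.eta
    rw [div_le_iff₀ (by linarith)]
    nlinarith
  · have : tav G (hit G a b) = tav G fun _ => 0 :=
      tav_congr fun T _ => by rw [hit_eq, X_neg hab, zero_mul]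
    rw [this, tav_const h.nonempty]
    positivity

lemma tav_hit_hit {G : SimpleGraph V} {q η : ℝ} (h : StepHyp G q η) {u v : V} (huv : u ≠ v)
    (w : V) : tav G (fun T => hit G u w T * hit G v w T) ≤ 2 * du V q / (nV V * q ^ 2) := by
  have h1 := h.du_le.1
  have h2 := D_pos h
  by_cases hw : G.Adj u w ∧ G.Adj v w
  · refine le_trans (tav_mono fun T _ => ?_) (tav_tri h huv hw.1.ne hw.2.ne)
    unfold hit
    rw [← ind_and]
    exact ind_mono fun h => ⟨h.1.2.1, h.2.2.1, h.1.2.2⟩
  · have : tav G (fun T => hit G u w T * hit G v w T) = tav G fun _ => 0 := by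
      refine tav_congr fun T _ => ?_
      unfold hit
      rw [← ind_and]
      exact ind_neg fun h => hw ⟨h.1.1, h.2.1⟩
    rw [this, tav_const h.nonempty]
    positivity

/-- The increment of the normalised adjacency indicator. -/
def dX (G : SimpleGraph V) (q : ℝ) (a b : V) (T : Finset V) : ℝ :=
  Xh (rem G T) (q * (1 - du V q)) a b - Xh G q a b

lemma dX_eq {G : SimpleGraph V} {q η : ℝ} (h : StepHyp G q η) (a b : V) (T : Finset V) :
    dX G q a b T = Xh G q a b * ((du V q - hit G a b T) / (1 - du V q)) := by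
  have h1 := du_small h
  have h2 : 1 - du V q ≠ 0 := by linarith
  have h3 := h.q0.ne'
  unfold dX Xh
  rw [X_rem']
  field_simp
  ring

lemma Xh_rem {G : SimpleGraph V} (q : ℝ) (a b : V) (T : Finset V) :
    Xh (rem G T) (q * (1 - du V q)) a b = Xh G q a b + dX G q a b T := by
  unfold dX; ring

lemma Yh_rem {G : SimpleGraph V} (q : ℝ) (a b : V) (T : Finset V) :
    Yh (rem G T) (q * (1 - du V q)) a b = Yh G q a b + dX G q a b T := by
  unfold dX Yh Xh; ring

lemma abs_dX_le {G : SimpleGraph V} {q η : ℝ} (h : StepHyp G q η) (a b : V) (T : Finset V) :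
    |dX G q a b T| ≤ Xh G q a b * (hit G a b T + 2 * du V q) := by
  have h1 := du_small h
  have h0 := h.du_le.1
  have h2 : 0 < 1 - du V q := by linarith
  have h3 := Xh_nonneg G h.q0 a b
  rw [dX_eq h, abs_mul, abs_of_nonneg h3]
  refine mul_le_mul_of_nonneg_left ?_ h3
  rw [abs_div, abs_of_pos h2, div_le_iff₀ h2]
  unfold hit ind
  split_ifs
  · rw [abs_le]; constructor <;> nlinarith
  · rw [abs_le]; constructor <;> nlinarith

lemma tav_abs_dX {G : SimpleGraph V} {q η : ℝ} (h : StepHyp G q η) (a b : V) :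
    tav G (fun T => |dX G q a b T|) ≤ Xh G q a b * (4 * du V q) := by
  refine (tav_mono fun T _ => abs_dX_le h a b T).trans ?_
  rw [tav_mul, tav_add, tav_const h.nonempty]
  have := tav_hit_le h a b
  exact mul_le_mul_of_nonneg_left (by linarith) (Xh_nonneg G h.q0 a b)

lemma drift_dX {G : SimpleGraph V} {q η : ℝ} (h : StepHyp G q η) (a b : V) :
    |tav G (dX G q a b) + du V q * (Xh G q a b * (zeta G q a b - gam G q))| ≤
      Xh G q a b * (3 * du V q * (η ^ 2 + 1 / (nV V * q ^ 2))) := by
  have h1 := du_small h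
  have h0 := h.du_le.1
  have h2 : 0 < 1 - du V q := by linarith
  have h3 := Xh_nonneg G h.q0 a b
  have e : tav G (dX G q a b) =
      Xh G q a b * ((du V q - tav G (hit G a b)) / (1 - du V q)) := by
    have : dX G q a b = fun T =>
        Xh G q a b * ((1 - du V q)⁻¹ * (du V q - hit G a b T)) := by
      funext T
      rw [dX_eq h, div_eq_inv_mul]
    rw [this, tav_mul, tav_mul, tav_sub, tav_const h.nonempty, div_eq_inv_mul]
  by_cases hab : G.Adj a b
  · have hg := gam_ge h
    have hz := abs_le.1 (h.reg.2 a b hab.ne)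
    have hg' := abs_le.1 h.gam
    have he := h.eta
    have he0 := eta_nonneg h
    have hd := du_le' h
    have hg0 : 1 + gam G q ≠ 0 := by linarith
    have e2 : tav G (dX G q a b) + du V q * (Xh G q a b * (zeta G q a b - gam G q)) =
        Xh G q a b * (du V q * ((zeta G q a b - gam G q) * (gam G q - du V q * (1 + gam G q)) /
          ((1 + gam G q) * (1 - du V q)))) := by
      rw [e, tav_hit_eq h hab]
      field_simp
      ring
    rw [e2, abs_mul, abs_of_nonneg h3]
    refine mul_le_mul_of_nonneg_left ?_ h3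
    rw [abs_mul, abs_of_pos h0, mul_comm 3, mul_assoc]
    refine mul_le_mul_of_nonneg_left ?_ h0.le
    have hp : 98 / 100 ≤ (1 + gam G q) * (1 - du V q) := by nlinarith
    rw [abs_div, abs_of_pos (by linarith : 0 < (1 + gam G q) * (1 - du V q)),
      div_le_iff₀ (by linarith), abs_mul]
    have b1 : |zeta G q a b - gam G q| ≤ 2 * η := by rw [abs_le]; constructor <;> linarith
    have b2 : |gam G q - du V q * (1 + gam G q)| ≤ η + 2 * du V q := by
      rw [abs_le]; constructor <;> nlinarith
    have b3 := mul_le_mul b1 b2 (abs_nonneg _) (by linarith)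
    have b4 : 0 ≤ η ^ 2 + 1 / (nV V * q ^ 2) := by nlinarith
    have b5 : 2 * η * (η + 2 * du V q) ≤ 2 * (η ^ 2 + 1 / (nV V * q ^ 2)) := by nlinarith
    nlinarith
  · rw [e, Xh_neg q hab]
    simp

lemma abs_tav_dX {G : SimpleGraph V} {q η : ℝ} (h : StepHyp G q η) (a b : V) :
    |tav G (dX G q a b)| ≤ Xh G q a b * (3 * du V q * (η + 1 / (nV V * q ^ 2))) := by
  have h0 := h.du_le.1
  have h3 := Xh_nonneg G h.q0 a b
  have h4 := drift_dX h a b
  by_cases hab : G.Adj a b
  · have hz := abs_le.1 (h.reg.2 a b hab.ne)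
    have hg' := abs_le.1 h.gam
    have he := h.eta
    have he0 := eta_nonneg h
    have b1 : |zeta G q a b - gam G q| ≤ 2 * η := by rw [abs_le]; constructor <;> linarith
    have b2 : |du V q * (Xh G q a b * (zeta G q a b - gam G q))| ≤
        du V q * (Xh G q a b * (2 * η)) := by
      rw [abs_mul, abs_mul, abs_of_pos h0, abs_of_nonneg h3]
      exact mul_le_mul_of_nonneg_left (mul_le_mul_of_nonneg_left b1 h3) h0.le
    have b3 := abs_sub (tav G (dX G q a b) + du V q * (Xh G q a b * (zeta G q a b - gam G q)))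
      (du V q * (Xh G q a b * (zeta G q a b - gam G q)))
    rw [add_sub_cancel_right] at b3
    have b4 : 3 * η ^ 2 ≤ η := by nlinarith
    have b5 := mul_le_mul_of_nonneg_left b4 (mul_nonneg h3 h0.le)
    nlinarith
  · rw [Xh_neg q hab] at h4 ⊢
    simpa using h4

lemma tav_dX_dX {G : SimpleGraph V} {q η : ℝ} (h : StepHyp G q η) {u v : V} (huv : u ≠ v)
    (w : V) : tav G (fun T => |dX G q u w T * dX G q v w T|) ≤
      Xh G q u w * Xh G q v w * (3 * du V q * (1 / (nV V * q ^ 2))) := by
  have h0 := h.du_le.1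
  have h1 := Xh_nonneg G h.q0 u w
  have h2 := Xh_nonneg G h.q0 v w
  have b : ∀ T, |dX G q u w T * dX G q v w T| ≤ Xh G q u w * Xh G q v w *
      (hit G u w T * hit G v w T + (2 * du V q * hit G u w T + (2 * du V q * hit G v w T +
        4 * du V q ^ 2))) := by
    intro T
    rw [abs_mul]
    have := hit_nonneg G u w T
    refine (mul_le_mul (abs_dX_le h u w T) (abs_dX_le h v w T) (abs_nonneg _)
      (by positivity)).trans (le_of_eq (by ring))
  refine (tav_mono fun T _ => b T).trans ?_
  rw [tav_mul, tav_add, tav_add, tav_add, tav_mul, tav_mul, tav_const h.nonempty]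
  refine mul_le_mul_of_nonneg_left ?_ (mul_nonneg h1 h2)
  have c1 := tav_hit_hit h huv w
  have c2 := mul_le_mul_of_nonneg_left (tav_hit_le h u w) (by positivity : 0 ≤ 2 * du V q)
  have c3 := mul_le_mul_of_nonneg_left (tav_hit_le h v w) (by positivity : 0 ≤ 2 * du V q)
  have c4 := mul_le_mul_of_nonneg_left (du_le' h) h0.le
  have e : 2 * du V q / (nV V * q ^ 2) = 2 * du V q * (1 / (nV V * q ^ 2)) := by ring
  have c5 : 0 ≤ du V q ^ 2 := by positivity
  nlinarith

/-- Bounds for the increment `df` of a weight dominated by `fp`. -/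
structure Fac (G : SimpleGraph V) (q : ℝ) (fp : V → ℝ) (df : V → Finset V → ℝ) : Prop where
  av_le : av fp ≤ 3
  nonneg : ∀ w, 0 ≤ fp w
  zero : ∀ w, fp w = 0 → ∀ T, df w T = 0
  jump : ∀ T ∈ tri G, av (fun w => |df w T|) ≤ 25 / (nV V * q ^ 2)
  var : ∀ w, tav G (fun T => |df w T|) ≤ fp w * (16 * du V q)

lemma Fac.of {G : SimpleGraph V} {q η : ℝ} (h : StepHyp G q η) (u v : V) {fp : V → ℝ}
    {df : V → Finset V → ℝ} (h0 : ∀ w, 0 ≤ fp w) (h2 : ∀ w, fp w ≤ 2 / q ^ 2) (hav : av fp ≤ 3)
    (hdf : ∀ w T, |df w T| ≤ fp w * (3 * hit G u w T + hit G v w T + 8 * du V q)) :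
    Fac G q fp df := by
  have hd := h.du_le.1
  have hq := h.q0
  have hn := n_pos h
  refine ⟨hav, h0, fun w hw T => ?_, fun T hT => ?_, fun w => ?_⟩
  · have := hdf w T
    rw [hw, zero_mul] at this
    exact abs_nonpos_iff.1 this
  · have b : ∀ w, |df w T| ≤ 8 / q ^ 2 * ind (w ∈ T) + 8 * du V q * fp w := by
      intro w
      refine (hdf w T).trans ?_
      have c1 := hit_le_mem G u w T
      have c2 := hit_le_mem G v w T
      have c3 := hit_nonneg G u w T
      have c4 := hit_nonneg G v w T
      have c5 : fp w * (3 * hit G u w T + hit G v w T) ≤ 2 / q ^ 2 * (4 * ind (w ∈ T)) :=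
        mul_le_mul (h2 w) (by linarith) (by linarith) (by positivity)
      have e : 2 / q ^ 2 * (4 * ind (w ∈ T)) = 8 / q ^ 2 * ind (w ∈ T) := by ring
      nlinarith
    refine (av_mono b).trans ?_
    rw [av_add, av_mul, av_mul]
    have e : 8 / q ^ 2 * av (fun w => ind (w ∈ T)) = 24 * (1 / (nV V * q ^ 2)) := by
      unfold av
      rw [sum_mem hT]
      field_simp
      norm_num
    have e2 : 25 / (nV V * q ^ 2) = 25 * (1 / (nV V * q ^ 2)) := by ring
    have c1 := du_le' h
    have c2 := mul_le_mul_of_nonneg_left hav (by positivity : 0 ≤ 8 * du V q)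
    rw [e, e2]
    linarith
  · refine (tav_mono fun T _ => hdf w T).trans ?_
    rw [tav_mul, tav_add, tav_add, tav_mul, tav_const h.nonempty]
    have c1 := tav_hit_le h u w
    have c2 := tav_hit_le h v w
    exact mul_le_mul_of_nonneg_left (by linarith) (h0 w)

lemma incr_av {G : SimpleGraph V} {q η : ℝ} (h : StepHyp G q η) {f fp : V → ℝ}
    {df : V → Finset V → ℝ} (hF : Fac G q fp df) (hf : ∀ w, |f w| ≤ fp w)
    (hdr : ∀ w, |tav G (df w)| ≤ fp w * (9 * du V q * (η + 1 / (nV V * q ^ 2))))
    {E dr : V → ℝ} {dE : V → Finset V → ℝ} {M C : ℝ} (hM : 0 ≤ M) (hC : 0 ≤ C)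
    (hE : ∀ w, fp w ≠ 0 → |E w| ≤ M * η) (hI : ∀ w, fp w ≠ 0 → Incr G q η C (dE w) (dr w)) :
    Incr G q η (51 * C + 48 * M)
      (fun T => av (fun w => (f w + df w T) * (E w + dE w T)) - av fun w => f w * E w)
      (av fun w => f w * dr w) := by
  have hd := h.du_le.1
  have hD := D_pos h
  have hD1 := Dinv_le h
  have he := h.eta
  have he0 := eta_nonneg h
  have hDi : 0 < 1 / (nV V * q ^ 2) := by positivity
  have e : (fun T => av (fun w => (f w + df w T) * (E w + dE w T)) - av fun w => f w * E w) =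
      fun T => av fun w => f w * dE w T + (E w * df w T + df w T * dE w T) := by
    funext T
    rw [← av_sub]
    exact congrArg av (funext fun w => by ring)
  have hz : ∀ w, fp w = 0 → f w = 0 := fun w hw => abs_nonpos_iff.1 (hw ▸ hf w)
  have hCD : C / (nV V * q ^ 2) = C * (1 / (nV V * q ^ 2)) := by ring
  have hMe : M * η ≤ M := by nlinarith
  have hCe : C * (1 / (nV V * q ^ 2)) ≤ C := by nlinarith
  -- pointwise bound
  have key : ∀ w, ∀ T ∈ tri G, |f w * dE w T + (E w * df w T + df w T * dE w T)| ≤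
      fp w * |dE w T| + (M + C) * |df w T| := by
    intro w T hT
    by_cases hw : fp w = 0
    · simp [hz w hw, hF.zero w hw T, hw]
    · have c1 : |f w * dE w T| ≤ fp w * |dE w T| := by
        rw [abs_mul]; exact mul_le_mul_of_nonneg_right (hf w) (abs_nonneg _)
      have c2 : |E w * df w T| ≤ M * |df w T| := by
        rw [abs_mul]; exact mul_le_mul_of_nonneg_right ((hE w hw).trans hMe) (abs_nonneg _)
      have c3 : |df w T * dE w T| ≤ C * |df w T| := by
        rw [abs_mul, mul_comm]
        exact mul_le_mul_of_nonneg_right (((hI w hw).jump T hT).trans (hCD ▸ hCe)) (abs_nonneg _)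
      have c4 := abs_add_le (f w * dE w T) (E w * df w T + df w T * dE w T)
      have c5 := abs_add_le (E w * df w T) (df w T * dE w T)
      linarith
  rw [e]
  refine ⟨fun T hT => ?_, ?_, ?_⟩
  · have b : ∀ w, |f w * dE w T + (E w * df w T + df w T * dE w T)| ≤
        C * (1 / (nV V * q ^ 2)) * fp w + (M + C) * |df w T| := by
      intro w
      refine (key w T hT).trans (add_le_add_left ?_ _)
      by_cases hw : fp w = 0
      · simp [hw]
      · rw [mul_comm, ← hCD]
        exact mul_le_mul_of_nonneg_right ((hI w hw).jump T hT) (hF.nonneg w)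
    refine (abs_av_le _).trans ((av_mono b).trans ?_)
    rw [av_add, av_mul, av_mul]
    have c1 := mul_le_mul_of_nonneg_left hF.av_le (by positivity : 0 ≤ C * (1 / (nV V * q ^ 2)))
    have c2 := mul_le_mul_of_nonneg_left (hF.jump T hT) (by positivity : 0 ≤ M + C)
    have e1 : 25 / (nV V * q ^ 2) = 25 * (1 / (nV V * q ^ 2)) := by ring
    have e2 : (51 * C + 48 * M) / (nV V * q ^ 2) = (51 * C + 48 * M) * (1 / (nV V * q ^ 2)) := by
      ring
    rw [e1] at c2
    rw [e2]
    have c3 : 0 ≤ C * (1 / (nV V * q ^ 2)) := by positivity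
    have c4 : 0 ≤ M * (1 / (nV V * q ^ 2)) := by positivity
    nlinarith
  · have b : ∀ w, tav G (fun T => |f w * dE w T + (E w * df w T + df w T * dE w T)|) ≤
        (17 * C + 16 * M) * du V q * fp w := by
      intro w
      refine (tav_mono fun T hT => key w T hT).trans ?_
      rw [tav_add, tav_mul, tav_mul]
      have c2 := mul_le_mul_of_nonneg_left (hF.var w) (by positivity : 0 ≤ M + C)
      by_cases hw : fp w = 0
      · rw [hw] at c2 ⊢
        simpa using c2
      · have c1 := mul_le_mul_of_nonneg_left (hI w hw).var (hF.nonneg w)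
        nlinarith
    refine (tav_mono fun T _ => abs_av_le _).trans ?_
    rw [tav_av]
    refine (av_mono b).trans ?_
    rw [av_mul]
    have c1 := mul_le_mul_of_nonneg_left hF.av_le
      (by positivity : 0 ≤ (17 * C + 16 * M) * du V q)
    linarith
  · have b : ∀ w, |tav G (fun T => f w * dE w T + (E w * df w T + df w T * dE w T)) +
        du V q * (f w * dr w)| ≤
        (17 * C + 9 * M) * du V q * (η ^ 2 + 1 / (nV V * q ^ 2)) * fp w := by
      intro w
      rw [tav_add, tav_add, tav_mul, tav_mul]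
      by_cases hw : fp w = 0
      · have : df w = fun _ => 0 := funext (hF.zero w hw)
        simp [hz w hw, hw, this, tav]
      · have hp := hF.nonneg w
        have c1 : |f w * (tav G (dE w) + du V q * dr w)| ≤
            fp w * (C * du V q * (η ^ 2 + 1 / (nV V * q ^ 2))) := by
          rw [abs_mul]
          exact mul_le_mul (hf w) (hI w hw).drift (abs_nonneg _) hp
        have c2 : |E w * tav G (df w)| ≤
            M * η * (fp w * (9 * du V q * (η + 1 / (nV V * q ^ 2)))) := by
          rw [abs_mul]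
          exact mul_le_mul (hE w hw) (hdr w) (abs_nonneg _) (by positivity)
        have c3 : |tav G fun T => df w T * dE w T| ≤
            C * (1 / (nV V * q ^ 2)) * (fp w * (16 * du V q)) := by
          refine (abs_tav_le _ _).trans ?_
          have : ∀ T ∈ tri G, |df w T * dE w T| ≤ C * (1 / (nV V * q ^ 2)) * |df w T| := by
            intro T hT
            rw [abs_mul, mul_comm, ← hCD]
            exact mul_le_mul_of_nonneg_right ((hI w hw).jump T hT) (abs_nonneg _)
          refine (tav_mono this).trans ?_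
          rw [tav_mul]
          exact mul_le_mul_of_nonneg_left (hF.var w) (by positivity)
        have e3 : f w * tav G (dE w) + (E w * tav G (df w) + tav G fun T => df w T * dE w T) +
            du V q * (f w * dr w) = f w * (tav G (dE w) + du V q * dr w) +
              (E w * tav G (df w) + tav G fun T => df w T * dE w T) := by ring
        rw [e3]
        have c4 := abs_add_le (f w * (tav G (dE w) + du V q * dr w))
          (E w * tav G (df w) + tav G fun T => df w T * dE w T)
        have c5 := abs_add_le (E w * tav G (df w)) (tav G fun T => df w T * dE w T)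
        have c6 : η * (η + 1 / (nV V * q ^ 2)) ≤ η ^ 2 + 1 / (nV V * q ^ 2) := by nlinarith
        have c7 := mul_le_mul_of_nonneg_left c6 (by positivity : 0 ≤ 9 * M * du V q * fp w)
        have c8 : 0 ≤ 16 * C * du V q * fp w * η ^ 2 := by positivity
        nlinarith
    rw [tav_av, ← av_mul, ← av_add]
    refine (abs_av_le _).trans ((av_mono b).trans ?_)
    rw [av_mul]
    have c1 := mul_le_mul_of_nonneg_left hF.av_le
      (by positivity : 0 ≤ (17 * C + 9 * M) * du V q * (η ^ 2 + 1 / (nV V * q ^ 2)))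
    have c2 : 0 ≤ M * du V q * (η ^ 2 + 1 / (nV V * q ^ 2)) := by positivity
    nlinarith

lemma av_Xh {G : SimpleGraph V} {q η : ℝ} (h : StepHyp G q η) (u : V) :
    av (fun w => Xh G q u w) ≤ 101 / 100 := by
  have := (abs_le.1 (h.reg.1 u)).2
  unfold beta at this
  linarith [h.eta]

lemma av_XhXh {G : SimpleGraph V} {q η : ℝ} (h : StepHyp G q η) {u v : V} (huv : u ≠ v) :
    av (fun w => Xh G q u w * Xh G q v w) ≤ 101 / 100 := by
  have := (abs_le.1 (h.reg.2 u v huv)).2
  unfold zeta at this
  linarith [h.eta]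

lemma inv_q {G : SimpleGraph V} {q η : ℝ} (h : StepHyp G q η) :
    1 ≤ 1 / q ∧ 1 / q ≤ 1 / q ^ 2 ∧ 1 / q * (1 / q) = 1 / q ^ 2 ∧ 2 / q ^ 2 = 2 * (1 / q ^ 2) := by
  have h0 := h.q0
  have h1 := h.q1
  refine ⟨one_le_one_div h0 h1, one_div_le_one_div_of_le (by positivity) (by nlinarith), ?_, ?_⟩
  · field_simp
  · ring

omit [Fintype V] in
lemma abs_Yh_le (G : SimpleGraph V) {q : ℝ} (hq : 0 < q) (a b : V) :
    |Yh G q a b| ≤ 1 + Xh G q a b := by
  have := Xh_nonneg G hq a b
  have e : Yh G q a b = Xh G q a b - 1 := rfl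
  rw [e, abs_le]
  constructor <;> linarith

lemma fac_single {G : SimpleGraph V} {q η : ℝ} (h : StepHyp G q η) (u : V) {c : ℝ} (hc0 : 0 ≤ c)
    (hc1 : c ≤ 1) : Fac G q (fun w => c + Xh G q u w) (fun w => dX G q u w) := by
  have hq := h.q0
  have hd := h.du_le.1
  obtain ⟨i1, i2, -, i4⟩ := inv_q h
  refine Fac.of h u u (fun w => add_nonneg hc0 (Xh_nonneg G hq u w)) (fun w => ?_) ?_
    fun w T => ?_
  · have := Xh_le G hq u w
    linarith
  · rw [av_add, av_const (n_pos h)]
    linarith [av_Xh h u]
  · have c1 := Xh_nonneg G hq u w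
    have c2 := hit_nonneg G u w T
    refine (abs_dX_le h u w T).trans (mul_le_mul (by linarith) (by linarith) (by positivity) ?_)
    linarith

lemma fac_pair {G : SimpleGraph V} {q η : ℝ} (h : StepHyp G q η) {u v : V} (huv : u ≠ v) {c : ℝ}
    (hc0 : 0 ≤ c) (hc1 : c ≤ 1) {g : V → ℝ} (hg : ∀ w, |g w| ≤ c + Xh G q v w) :
    Fac G q (fun w => Xh G q u w * (c + Xh G q v w))
      (fun w T => g w * dX G q u w T + (Xh G q u w * dX G q v w T +
        dX G q u w T * dX G q v w T)) := by
  have hq := h.q0
  have hd := h.du_le.1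
  have hd1 := du_small h
  obtain ⟨i1, i2, i3, i4⟩ := inv_q h
  refine Fac.of h u v (fun w => mul_nonneg (Xh_nonneg G hq u w)
    (add_nonneg hc0 (Xh_nonneg G hq v w))) (fun w => ?_) ?_ fun w T => ?_
  · have c1 := Xh_le G hq u w
    have c2 := Xh_le G hq v w
    have c3 := Xh_nonneg G hq v w
    have c4 : Xh G q u w * (c + Xh G q v w) ≤ 1 / q * (1 + 1 / q) :=
      mul_le_mul c1 (by linarith) (by linarith) (by positivity)
    nlinarith
  · simp only [mul_add]
    rw [av_add, av_mul']
    have c1 := av_Xh h u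
    have c2 := av_XhXh h huv
    have c3 : av (fun w => Xh G q u w) * c ≤ 101 / 100 * 1 :=
      mul_le_mul c1 hc1 hc0 (by norm_num)
    linarith
  · have a1 := Xh_nonneg G hq u w
    have a2 := Xh_nonneg G hq v w
    have a3 := hit_nonneg G u w T
    have a4 := hit_nonneg G v w T
    have a5 := hit_le_one G v w T
    have b1 := abs_dX_le h u w T
    have b2 := abs_dX_le h v w T
    have c1 : |g w * dX G q u w T| ≤
        (c + Xh G q v w) * (Xh G q u w * (hit G u w T + 2 * du V q)) := by
      rw [abs_mul]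
      exact mul_le_mul (hg w) b1 (abs_nonneg _) (by linarith)
    have c2 : |Xh G q u w * dX G q v w T| ≤
        Xh G q u w * ((c + Xh G q v w) * (hit G v w T + 2 * du V q)) := by
      rw [abs_mul, abs_of_nonneg a1]
      refine mul_le_mul_of_nonneg_left (b2.trans ?_) a1
      exact mul_le_mul_of_nonneg_right (by linarith) (by positivity)
    have c3 : |dX G q u w T * dX G q v w T| ≤
        (Xh G q u w * (hit G u w T + 2 * du V q)) * ((c + Xh G q v w) * 2) := by
      rw [abs_mul]
      refine mul_le_mul b1 (b2.trans ?_) (abs_nonneg _) (by positivity)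
      exact mul_le_mul (by linarith) (by linarith) (by positivity) (by linarith)
    have c4 := abs_add_le (g w * dX G q u w T) (Xh G q u w * dX G q v w T +
      dX G q u w T * dX G q v w T)
    have c5 := abs_add_le (Xh G q u w * dX G q v w T) (dX G q u w T * dX G q v w T)
    nlinarith

lemma step_base {G : SimpleGraph V} {q η : ℝ} (h : StepHyp G q η) {x y : V} (hxy : x ≠ y) :
    Incr G q η 48 (fun T => zeta (rem G T) (q * (1 - du V q)) x y - zeta G q x y)
      (Kop G q (fun a b => zeta G q a b - gam G q) x y) := by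
  have hq := h.q0
  have hd := h.du_le.1
  have hD := D_pos h
  have hF := fac_pair h hxy le_rfl zero_le_one (g := fun w => Xh G q y w)
    fun w => by rw [abs_of_nonneg (Xh_nonneg G hq y w), zero_add]
  have e : (fun T => zeta (rem G T) (q * (1 - du V q)) x y - zeta G q x y) =
      fun T => av fun w => Xh G q y w * dX G q x w T + (Xh G q x w * dX G q y w T +
        dX G q x w T * dX G q y w T) := by
    funext T
    unfold zeta
    rw [sub_sub_sub_cancel_right, ← av_sub]
    refine congrArg av (funext fun w => ?_)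
    rw [Xh_rem, Xh_rem]
    ring
  rw [e]
  refine ⟨fun T hT => ?_, ?_, ?_⟩
  · refine (abs_av_le _).trans ((hF.jump T hT).trans ?_)
    exact div_le_div_of_nonneg_right (by norm_num) hD.le
  · refine (tav_mono fun T _ => abs_av_le _).trans ?_
    rw [tav_av]
    refine (av_mono hF.var).trans ?_
    rw [av_mul']
    have := mul_le_mul_of_nonneg_right hF.av_le (by positivity : 0 ≤ 16 * du V q)
    linarith
  · have b : ∀ w, |tav G (fun T => Xh G q y w * dX G q x w T + (Xh G q x w * dX G q y w T +
        dX G q x w T * dX G q y w T)) + du V q * (Xh G q x w * Xh G q y w *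
          (zeta G q x w - gam G q + (zeta G q y w - gam G q)))| ≤
        Xh G q x w * Xh G q y w * (9 * du V q * (η ^ 2 + 1 / (nV V * q ^ 2))) := by
      intro w
      have a1 := Xh_nonneg G hq x w
      have a2 := Xh_nonneg G hq y w
      rw [tav_add, tav_add, tav_mul, tav_mul]
      have c1 := mul_le_mul_of_nonneg_left (drift_dX h x w) a2
      have c2 := mul_le_mul_of_nonneg_left (drift_dX h y w) a1
      rw [← abs_of_nonneg a2, ← abs_mul, abs_of_nonneg a2] at c1
      rw [← abs_of_nonneg a1, ← abs_mul, abs_of_nonneg a1] at c2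
      have c3 := (abs_tav_le _ _).trans (tav_dX_dX h hxy w)
      have e3 : Xh G q y w * tav G (dX G q x w) + (Xh G q x w * tav G (dX G q y w) +
          tav G fun T => dX G q x w T * dX G q y w T) + du V q * (Xh G q x w * Xh G q y w *
          (zeta G q x w - gam G q + (zeta G q y w - gam G q))) =
          Xh G q y w * (tav G (dX G q x w) + du V q * (Xh G q x w * (zeta G q x w - gam G q))) +
          (Xh G q x w * (tav G (dX G q y w) + du V q * (Xh G q y w * (zeta G q y w - gam G q))) +
            tav G fun T => dX G q x w T * dX G q y w T) := by ring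
      rw [e3]
      refine (abs_add_le _ _).trans ((add_le_add_right (abs_add_le _ _) _).trans ?_)
      have c4 : 0 ≤ Xh G q x w * Xh G q y w * (3 * du V q * η ^ 2) := by positivity
      nlinarith
    unfold Kop
    rw [tav_av, ← av_mul, ← av_add]
    refine (abs_av_le _).trans ((av_mono b).trans ?_)
    rw [av_mul']
    have := mul_le_mul_of_nonneg_right (av_XhXh h hxy)
      (by positivity : 0 ≤ 9 * du V q * (η ^ 2 + 1 / (nV V * q ^ 2)))
    have c2 : 0 ≤ du V q * (η ^ 2 + 1 / (nV V * q ^ 2)) := by positivity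
    nlinarith

lemma step_op {G : SimpleGraph V} {q η : ℝ} (h : StepHyp G q η) {Dm : V → V → Prop}
    (hDm : ∀ a b, a ≠ b → Dm a b) (k : Kind) (hk : k = .c ∨ k = .m → ∀ w, Dm w w) {u v : V}
    (huv : u ≠ v ∨ k ≠ .a) {E dr : V → V → ℝ} {E' : Finset V → V → V → ℝ} {M C : ℝ}
    (hM : 0 ≤ M) (hC : 0 ≤ C) (hE : ∀ a b, Dm a b → |E a b| ≤ M * η)
    (hI : ∀ a b, Dm a b → Incr G q η C (fun T => E' T a b - E a b) (dr a b)) :
    Incr G q η (51 * C + 48 * M)
      (fun T => op (rem G T) (q * (1 - du V q)) k (E' T) u v - op G q k E u v)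
      (op G q k dr u v) := by
  have hq := h.q0
  have hd := h.du_le.1
  have hD := D_pos h
  have he0 := eta_nonneg h
  have hs : ∀ w, ∀ c : ℝ, 0 ≤ c → |tav G (dX G q u w)| ≤
      (c + Xh G q u w) * (9 * du V q * (η + 1 / (nV V * q ^ 2))) := by
    intro w c hc
    have := Xh_nonneg G hq u w
    refine (abs_tav_dX h u w).trans (mul_le_mul (by linarith) ?_ (by positivity) (by linarith))
    have : 0 ≤ du V q * (η + 1 / (nV V * q ^ 2)) := by positivity
    linarith
  cases k with
  | a =>
    have huv' : u ≠ v := huv.resolve_right (by simp)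
    have hF := fac_pair h huv' zero_le_one le_rfl (g := fun w => Yh G q v w) (abs_Yh_le G hq v)
    have hadj : ∀ w, Xh G q u w * (1 + Xh G q v w) ≠ 0 → Dm u w := by
      intro w hw
      by_cases ha : G.Adj u w
      · exact hDm u w ha.ne
      · exact absurd (by rw [Xh_neg q ha, zero_mul]) hw
    have := incr_av h hF (f := fun w => Xh G q u w * Yh G q v w) (E := fun w => E u w)
      (dE := fun w T => E' T u w - E u w) (dr := fun w => dr u w) ?_ ?_ hM hC
      (fun w hw => hE u w (hadj w hw)) fun w hw => hI u w (hadj w hw)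
    · have e : (fun T => op (rem G T) (q * (1 - du V q)) Kind.a (E' T) u v - op G q Kind.a E u v) =
          fun T => av (fun w => (Xh G q u w * Yh G q v w + (Yh G q v w * dX G q u w T +
            (Xh G q u w * dX G q v w T + dX G q u w T * dX G q v w T))) *
            (E u w + (E' T u w - E u w))) - av fun w => Xh G q u w * Yh G q v w * E u w := by
        funext T
        simp only [op]
        refine congrArg₂ _ (congrArg av (funext fun w => ?_)) rfl
        rw [Xh_rem, Yh_rem]
        ring
      rw [e]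
      exact this
    · intro w
      have a1 := Xh_nonneg G hq u w
      rw [abs_mul, abs_of_nonneg a1]
      exact mul_le_mul_of_nonneg_left (abs_Yh_le G hq v w) a1
    · intro w
      have a1 := Xh_nonneg G hq u w
      have a2 := Xh_nonneg G hq v w
      rw [tav_add, tav_add, tav_mul, tav_mul]
      have c1 : |Yh G q v w * tav G (dX G q u w)| ≤ (1 + Xh G q v w) *
          (Xh G q u w * (3 * du V q * (η + 1 / (nV V * q ^ 2)))) := by
        rw [abs_mul]
        exact mul_le_mul (abs_Yh_le G hq v w) (abs_tav_dX h u w) (abs_nonneg _) (by linarith)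
      have c2 := mul_le_mul_of_nonneg_left (abs_tav_dX h v w) a1
      rw [← abs_of_nonneg a1, ← abs_mul, abs_of_nonneg a1] at c2
      have c3 := (abs_tav_le _ _).trans (tav_dX_dX h huv' w)
      refine (abs_add_le _ _).trans ((add_le_add_right (abs_add_le _ _) _).trans ?_)
      have c4 : 0 ≤ Xh G q u w * Xh G q v w * (3 * du V q * η) := by positivity
      have c5 : 0 ≤ Xh G q u w * (du V q * (η + 1 / (nV V * q ^ 2))) := by positivity
      nlinarith
  | p =>
    have hF := fac_single h u le_rfl zero_le_one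
    have hadj : ∀ w, 0 + Xh G q u w ≠ 0 → Dm u w := by
      intro w hw
      by_cases ha : G.Adj u w
      · exact hDm u w ha.ne
      · exact absurd (by rw [Xh_neg q ha, zero_add]) hw
    have := incr_av h hF (f := fun w => Xh G q u w) (E := fun w => E u w)
      (dE := fun w T => E' T u w - E u w) (dr := fun w => dr u w)
      (fun w => by rw [abs_of_nonneg (Xh_nonneg G hq u w), zero_add]) (fun w => hs w 0 le_rfl)
      hM hC (fun w hw => hE u w (hadj w hw)) fun w hw => hI u w (hadj w hw)
    have e : (fun T => op (rem G T) (q * (1 - du V q)) Kind.p (E' T) u v - op G q Kind.p E u v) =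
        fun T => av (fun w => (Xh G q u w + dX G q u w T) *
          (E u w + (E' T u w - E u w))) - av fun w => Xh G q u w * E u w := by
      funext T
      simp only [op]
      refine congrArg₂ _ (congrArg av (funext fun w => ?_)) rfl
      rw [Xh_rem]
      ring
    rw [e]
    exact this
  | c =>
    have hF := fac_single h u zero_le_one le_rfl
    have hw := hk (Or.inl rfl)
    have := incr_av h hF (f := fun w => Yh G q u w) (E := fun w => E w w)
      (dE := fun w T => E' T w w - E w w) (dr := fun w => dr w w)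
      (abs_Yh_le G hq u) (fun w => hs w 1 zero_le_one)
      hM hC (fun w _ => hE w w (hw w)) fun w _ => hI w w (hw w)
    have e : (fun T => op (rem G T) (q * (1 - du V q)) Kind.c (E' T) u v - op G q Kind.c E u v) =
        fun T => av (fun w => (Yh G q u w + dX G q u w T) *
          (E w w + (E' T w w - E w w))) - av fun w => Yh G q u w * E w w := by
      funext T
      simp only [op]
      refine congrArg₂ _ (congrArg av (funext fun w => ?_)) rfl
      rw [Yh_rem]
      ring
    rw [e]
    exact this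
  | m =>
    have hF : Fac G q (fun _ => 1) fun _ _ => 0 := by
      obtain ⟨i1, i2, -, i4⟩ := inv_q h
      refine Fac.of h u u (fun _ => zero_le_one) (fun _ => by linarith) ?_ fun w T => ?_
      · rw [av_const (n_pos h)]; norm_num
      · have := hit_nonneg G u w T
        rw [abs_zero]
        positivity
    have hw := hk (Or.inr rfl)
    have := incr_av h hF (f := fun _ => 1) (E := fun w => E w w)
      (dE := fun w T => E' T w w - E w w) (dr := fun w => dr w w)
      (fun _ => by norm_num) (fun w => by rw [tav_const h.nonempty, abs_zero]; positivity)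
      hM hC (fun w _ => hE w w (hw w)) fun w _ => hI w w (hw w)
    simpa [op] using this

lemma Val.tail {l : Bool × Kind} {Ω : Word} (h : Val (l :: Ω)) : Val Ω := by
  cases Ω with
  | nil => trivial
  | cons l' Ω' => exact h.1

omit [Fintype V] in
lemma Val.dom {l : Bool × Kind} {Ω : Word} (h : Val (l :: Ω)) (hk : l.2 = .c ∨ l.2 = .m) (w : V) :
    Dom Ω w w := by
  cases Ω with
  | nil =>
    have h' : l.2 = .a ∨ l.2 = .p := h
    rcases hk with hk | hk <;> simp [hk] at h'
  | cons l' Ω' =>
    refine Or.inr ⟨l', Ω', rfl, ?_⟩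
    rcases h.2 hk with h' | h' <;> simp [h']

lemma ev_zeta_le {G : SimpleGraph V} {q η : ℝ} (h : StepHyp G q η) {Ω : Word} (hΩ : Val Ω)
    {x y : V} (hd : Dom Ω x y) : |ev G q Ω (zeta G q) x y| ≤ 6 ^ Ω.length * η := by
  refine ev_crude h.q0 h.reg (by linarith [h.eta]) (eta_nonneg h)
    (fun a b hab => h.reg.2 a b hab.ne) hΩ hd fun h0 => h.reg.2 x y ?_
  rcases hd with hd | ⟨l, Ω', hd, -⟩
  · exact hd
  · simp [h0] at hd

end St

theorem step_word (L : ℕ) : ∃ C : ℝ, 1 ≤ C ∧ ∀ {V : Type} [Fintype V] {G : SimpleGraph V}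
    {q η : ℝ}, StepHyp G q η → ∀ {Ω : Word}, Val Ω → Ω.length ≤ L → ∀ {x y : V}, Dom Ω x y →
    Incr G q η C (fun T => ev (rem G T) (q * (1 - du V q)) Ω (zeta (rem G T) (q * (1 - du V q))) x y
        - ev G q Ω (zeta G q) x y)
      (ev G q Ω (Kop G q fun a b => zeta G q a b - gam G q) x y) := by
  have base : ∀ {V : Type} [Fintype V] {G : SimpleGraph V} {q η : ℝ}, StepHyp G q η →
      ∀ {x y : V}, Dom [] x y →
      Incr G q η 48 (fun T => zeta (rem G T) (q * (1 - du V q)) x y - zeta G q x y)
        (Kop G q (fun a b => zeta G q a b - gam G q) x y) := by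
    intro V _ G q η h x y hd
    refine St.step_base h ?_
    rcases hd with hd | ⟨l, Ω', hd, -⟩
    · exact hd
    · simp at hd
  induction L with
  | zero =>
    refine ⟨48, by norm_num, ?_⟩
    intro V _ G q η h Ω _ hL x y hd
    obtain rfl : Ω = [] := List.length_eq_zero_iff.1 (Nat.le_zero.1 hL)
    exact base h hd
  | succ L ih =>
    obtain ⟨C, hC, ih⟩ := ih
    have hM : (0 : ℝ) ≤ 6 ^ L := by positivity
    have hM1 : (1 : ℝ) ≤ 6 ^ L := one_le_pow₀ (by norm_num)
    refine ⟨51 * C + 48 * 6 ^ L, by linarith, ?_⟩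
    intro V _ G q η h Ω hΩ hL x y hd
    cases Ω with
    | nil => exact St.Incr.mono h (base h hd) (by linarith)
    | cons l Ω =>
      have hL' : Ω.length ≤ L := by simpa using hL
      have hΩ' := St.Val.tail hΩ
      have hE : ∀ a b, Dom Ω a b → |ev G q Ω (zeta G q) a b| ≤ 6 ^ L * η := fun a b hab =>
        (St.ev_zeta_le h hΩ' hab).trans (mul_le_mul_of_nonneg_right
          (pow_le_pow_right₀ (by norm_num) hL') (St.eta_nonneg h))
      have key : ∀ u v : V, u ≠ v ∨ l.2 ≠ .a → _ := fun u v huv =>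
        St.step_op h (Dm := Dom Ω) (fun a b hab => Or.inl hab) l.2 (St.Val.dom hΩ) huv
          (E' := fun T => ev (rem G T) (q * (1 - du V q)) Ω (zeta (rem G T) (q * (1 - du V q))))
          hM (by linarith) hE fun a b hab => ih h hΩ' hL' hab
      have hd' : x ≠ y ∨ l.2 ≠ .a := by
        rcases hd with hd | ⟨l', Ω', hd, hl⟩
        · exact Or.inl hd
        · obtain ⟨rfl, -⟩ := List.cons.inj hd
          exact Or.inr hl
      obtain ⟨b, k⟩ := l
      cases b with
      | false => exact key x y hd'
      | true => exact key y x (hd'.imp_left Ne.symm)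

theorem step_beta {G : SimpleGraph V} {q η : ℝ} (h : StepHyp G q η) (x : V) :
    Incr G q η 100 (fun T => beta (rem G T) (q * (1 - du V q)) x - beta G q x)
      (ev G q [(false, .p)] (fun a b => zeta G q a b - gam G q) x x) := by
  have hq := h.q0
  have hd := h.du_le.1
  have hD := St.D_pos h
  have hF := St.fac_single h x le_rfl zero_le_one
  have e : (fun T => beta (rem G T) (q * (1 - du V q)) x - beta G q x) =
      fun T => av fun w => St.dX G q x w T := by
    funext T
    unfold beta
    rw [sub_sub_sub_cancel_right, ← St.av_sub]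
    rfl
  have e2 : ev G q [(false, .p)] (fun a b => zeta G q a b - gam G q) x x =
      av fun w => Xh G q x w * (zeta G q x w - gam G q) := rfl
  rw [e, e2]
  refine ⟨fun T hT => ?_, ?_, ?_⟩
  · refine (St.abs_av_le _).trans ((hF.jump T hT).trans ?_)
    exact div_le_div_of_nonneg_right (by norm_num) hD.le
  · refine (tav_mono fun T _ => St.abs_av_le _).trans ?_
    rw [St.tav_av]
    refine (St.av_mono hF.var).trans ?_
    rw [St.av_mul']
    have := mul_le_mul_of_nonneg_right hF.av_le (by positivity : 0 ≤ 16 * du V q)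
    linarith
  · rw [St.tav_av, ← St.av_mul, ← St.av_add]
    refine (St.abs_av_le _).trans ((St.av_mono (St.drift_dX h x)).trans ?_)
    rw [St.av_mul']
    have := mul_le_mul_of_nonneg_right (St.av_Xh h x)
      (by positivity : 0 ≤ 3 * du V q * (η ^ 2 + 1 / (nV V * q ^ 2)))
    have c2 : 0 ≤ du V q * (η ^ 2 + 1 / (nV V * q ^ 2)) := by positivity
    nlinarith

end

end Vale.Agent.P046
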