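import Vale.Agent.P046.Words

/-! Averages and triangle counts used by the one step estimates. -/

namespace Vale.Agent.P046.St

open Classical Finset

noncomputable section

variable {V : Type} [Fintype V]

lemma av_mono {f g : V → ℝ} (h : ∀ w, f w ≤ g w) : av f ≤ av g :=
  div_le_div_of_nonneg_right (sum_le_sum fun w _ => h w) (Nat.cast_nonneg _)

lemma av_add (f g : V → ℝ) : av (fun w => f w + g w) = av f + av g := by
  simp [av, sum_add_distrib, add_div]

lemma av_sub (f g : V → ℝ) : av (fun w => f w - g w) = av f - av g := by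
  simp [av, sum_sub_distrib, sub_div]

lemma av_mul (c : ℝ) (f : V → ℝ) : av (fun w => c * f w) = c * av f := by
  simp [av, ← mul_sum, mul_div_assoc]

lemma av_mul' (c : ℝ) (f : V → ℝ) : av (fun w => f w * c) = av f * c := by
  simp only [mul_comm _ c]
  exact av_mul c f

lemma abs_av_le (f : V → ℝ) : |av f| ≤ av fun w => |f w| := by
  unfold av
  rw [abs_div, Nat.abs_cast]
  exact div_le_div_of_nonneg_right (abs_sum_le_sum_abs _ _) (Nat.cast_nonneg _)

lemma av_nonneg {f : V → ℝ} (h : ∀ w, 0 ≤ f w) : 0 ≤ av f :=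
  div_nonneg (sum_nonneg fun w _ => h w) (Nat.cast_nonneg _)

lemma av_const (hn : 0 < nV V) (c : ℝ) : av (fun _ : V => c) = c := by
  have := hn.ne'
  simp only [av, sum_const, card_univ, nsmul_eq_mul]
  field_simp

lemma tav_av (G : SimpleGraph V) (f : V → Finset V → ℝ) :
    tav G (fun T => av fun w => f w T) = av fun w => tav G (f w) := by
  simp only [tav, av, ← sum_div]
  rw [sum_comm, div_div, div_div, mul_comm]

lemma tav_nonneg {G : SimpleGraph V} {f : Finset V → ℝ} (h : ∀ T ∈ tri G, 0 ≤ f T) :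
    0 ≤ tav G f :=
  div_nonneg (sum_nonneg h) (Nat.cast_nonneg _)

lemma tav_congr {G : SimpleGraph V} {f g : Finset V → ℝ} (h : ∀ T ∈ tri G, f T = g T) :
    tav G f = tav G g := by
  unfold tav
  rw [sum_congr rfl h]

lemma tav_mul' (G : SimpleGraph V) (c : ℝ) (f : Finset V → ℝ) :
    tav G (fun T => f T * c) = tav G f * c := by
  simp only [mul_comm _ c]
  exact tav_mul G c f

omit [Fintype V] in
lemma X_nonneg (G : SimpleGraph V) (a b : V) : 0 ≤ X G a b := ind_nonneg _

omit [Fintype V] in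
lemma X_le_one (G : SimpleGraph V) (a b : V) : X G a b ≤ 1 := ind_le_one _

omit [Fintype V] in
lemma X_pos {G : SimpleGraph V} {a b : V} (h : G.Adj a b) : X G a b = 1 := ind_pos h

omit [Fintype V] in
lemma X_neg {G : SimpleGraph V} {a b : V} (h : ¬G.Adj a b) : X G a b = 0 := ind_neg h

omit [Fintype V] in
lemma Xh_nonneg (G : SimpleGraph V) {q : ℝ} (hq : 0 < q) (a b : V) : 0 ≤ Xh G q a b :=
  div_nonneg (X_nonneg G a b) hq.le

omit [Fintype V] in
lemma Xh_le (G : SimpleGraph V) {q : ℝ} (hq : 0 < q) (a b : V) : Xh G q a b ≤ 1 / q :=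
  div_le_div_of_nonneg_right (X_le_one G a b) hq.le

omit [Fintype V] in
lemma Xh_neg {G : SimpleGraph V} (q : ℝ) {a b : V} (h : ¬G.Adj a b) : Xh G q a b = 0 := by
  simp [Xh, X_neg h]

/-- The indicator that the edge `a b` is deleted. -/
def hit (G : SimpleGraph V) (a b : V) (T : Finset V) : ℝ := ind (G.Adj a b ∧ a ∈ T ∧ b ∈ T)

omit [Fintype V] in
lemma hit_nonneg (G : SimpleGraph V) (a b : V) (T : Finset V) : 0 ≤ hit G a b T := ind_nonneg _

omit [Fintype V] in
lemma hit_le_one (G : SimpleGraph V) (a b : V) (T : Finset V) : hit G a b T ≤ 1 := ind_le_one _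

omit [Fintype V] in
lemma hit_le_mem (G : SimpleGraph V) (a b : V) (T : Finset V) : hit G a b T ≤ ind (b ∈ T) :=
  ind_mono fun h => h.2.2

omit [Fintype V] in
lemma hit_eq (G : SimpleGraph V) (a b : V) (T : Finset V) :
    hit G a b T = X G a b * ind (a ∈ T ∧ b ∈ T) := ind_and _ _

omit [Fintype V] in
lemma X_rem (G : SimpleGraph V) (T : Finset V) (a b : V) :
    X (rem G T) a b = X G a b - hit G a b T := by
  unfold X hit
  have : (rem G T).Adj a b ↔ G.Adj a b ∧ ¬(a ∈ T ∧ b ∈ T) := Iff.rfl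
  rw [ind_congr this]
  by_cases h1 : G.Adj a b <;> by_cases h2 : a ∈ T ∧ b ∈ T <;> simp [ind, h1, h2]

omit [Fintype V] in
lemma X_rem' (G : SimpleGraph V) (T : Finset V) (a b : V) :
    X (rem G T) a b = X G a b * (1 - hit G a b T) := by
  rw [X_rem]
  by_cases h1 : G.Adj a b
  · rw [X_pos h1]; ring
  · rw [X_neg h1, hit_eq, X_neg h1]; ring

lemma sum_ind {α : Type} (s : Finset α) (p : α → Prop) [DecidablePred p] :
    ∑ a ∈ s, ind (p a) = (s.filter p).card := by
  rw [← sum_boole]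
  refine sum_congr rfl fun a _ => ?_
  by_cases h : p a
  · rw [ind_pos h, if_pos h]
  · rw [ind_neg h, if_neg h]

lemma sum_ind_mem (T : Finset V) : ∑ w, ind (w ∈ T) = T.card := by
  rw [sum_ind]
  simp

lemma sum_mem {G : SimpleGraph V} {T : Finset V} (hT : T ∈ tri G) :
    ∑ w, ind (w ∈ T) = 3 := by
  rw [sum_ind_mem, (mem_tri.1 hT).card_eq]
  norm_num

lemma sum_hit {G : SimpleGraph V} {T : Finset V} (hT : T ∈ tri G) :
    ∑ a, ∑ b, hit G a b T = 6 := by
  have hc := (mem_tri.1 hT).card_eq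
  have hq := (mem_tri.1 hT).isClique
  have h1 : ∀ a, ∑ b, hit G a b T = 2 * ind (a ∈ T) := by
    intro a
    by_cases ha : a ∈ T
    · have : ∀ b, hit G a b T = ind (b ∈ T.erase a) := by
        intro b
        refine ind_congr ⟨fun h => mem_erase.2 ⟨h.1.ne', h.2.2⟩, fun h => ?_⟩
        have h' := mem_erase.1 h
        exact ⟨hq ha h'.2 (Ne.symm h'.1), ha, h'.2⟩
      simp only [this, ind_pos ha]
      have h2 : (T.erase a).card = 2 := by rw [card_erase_of_mem ha, hc]
      rw [sum_ind_mem, h2]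
      norm_num
    · have : ∀ b, hit G a b T = 0 := fun b => ind_neg fun h => ha h.2.1
      simp [this, ind_neg ha]
  simp only [h1, ← mul_sum, sum_mem hT]
  norm_num

lemma sum_tri_pair {G : SimpleGraph V} {a b : V} (hab : G.Adj a b) :
    ∑ T ∈ tri G, ind (a ∈ T ∧ b ∈ T) = ∑ w, X G a w * X G b w := by
  have h1 : ∀ w, X G a w * X G b w = ind (G.Adj a w ∧ G.Adj b w) := fun w => (ind_and _ _).symm
  simp only [h1]
  rw [sum_ind, sum_ind, Nat.cast_inj]
  symm
  refine card_bij (fun w _ => ({a, b, w} : Finset V)) ?_ ?_ ?_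
  · intro w hw
    simp only [mem_filter, mem_univ, true_and] at hw
    refine mem_filter.2 ⟨mem_tri.2 (SimpleGraph.is3Clique_triple_iff.2 ⟨hab, hw.1, hw.2⟩), ?_⟩
    simp
  · intro w hw w' _ he
    simp only [mem_filter, mem_univ, true_and] at hw
    have : w ∈ ({a, b, w'} : Finset V) := by
      have h : w ∈ ({a, b, w} : Finset V) := by simp
      exact he ▸ h
    simp only [mem_insert, mem_singleton] at this
    rcases this with h | h | h
    · exact absurd h.symm hw.1.ne
    · exact absurd h.symm hw.2.ne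
    · exact h
  · intro T hT
    obtain ⟨hT, ha, hb⟩ := mem_filter.1 hT
    have hc := (mem_tri.1 hT).card_eq
    have hq := (mem_tri.1 hT).isClique
    have h2 : ((T.erase a).erase b).card = 1 := by
      rw [card_erase_of_mem (mem_erase.2 ⟨hab.ne', hb⟩), card_erase_of_mem ha, hc]
    obtain ⟨w, hw⟩ := card_eq_one.1 h2
    have hw' : w ∈ (T.erase a).erase b := by rw [hw]; exact mem_singleton_self w
    simp only [mem_erase] at hw'
    refine ⟨w, ?_, ?_⟩
    · simp only [mem_filter, mem_univ, true_and]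
      exact ⟨hq ha hw'.2.2 (Ne.symm hw'.2.1), hq hb hw'.2.2 (Ne.symm hw'.1)⟩
    · rw [← hw, insert_erase (mem_erase.2 ⟨hab.ne', hb⟩), insert_erase ha]

lemma sum_tri_hit (G : SimpleGraph V) (a b : V) :
    ∑ T ∈ tri G, hit G a b T = X G a b * ∑ w, X G a w * X G b w := by
  by_cases hab : G.Adj a b
  · simp only [hit_eq, X_pos hab, one_mul]
    exact sum_tri_pair hab
  · simp [hit_eq, X_neg hab]

lemma sum_XXX (G : SimpleGraph V) :
    ∑ a, ∑ b, X G a b * ∑ w, X G a w * X G b w = 6 * ((tri G).card : ℝ) := by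
  simp only [← sum_tri_hit]
  have : ∑ a, ∑ b, ∑ T ∈ tri G, hit G a b T = ∑ T ∈ tri G, ∑ a, ∑ b, hit G a b T := by
    rw [sum_comm (s := tri G)]
    refine sum_congr rfl fun a _ => ?_
    rw [sum_comm]
  rw [this, sum_congr rfl fun T hT => sum_hit hT]
  simp [mul_comm]

lemma sum_tri_triple (G : SimpleGraph V) {a b c : V} (hab : a ≠ b) (hac : a ≠ c) (hbc : b ≠ c) :
    ∑ T ∈ tri G, ind (a ∈ T ∧ b ∈ T ∧ c ∈ T) ≤ 1 := by
  rw [sum_ind]
  have : ((tri G).filter fun T => a ∈ T ∧ b ∈ T ∧ c ∈ T).card ≤ 1 := by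
    refine card_le_one.2 ?_
    have key : ∀ T ∈ (tri G).filter fun T => a ∈ T ∧ b ∈ T ∧ c ∈ T, T = {a, b, c} := by
      intro T hT
      obtain ⟨hT, ha, hb, hc⟩ := mem_filter.1 hT
      have h3 := (mem_tri.1 hT).card_eq
      symm
      refine eq_of_subset_of_card_le ?_ ?_
      · intro z hz
        simp only [mem_insert, mem_singleton] at hz
        rcases hz with rfl | rfl | rfl <;> assumption
      · rw [h3, card_eq_three.2 ⟨a, b, c, hab, hac, hbc, rfl⟩]
    intro T hT T' hT'
    rw [key T hT, key T' hT']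
  exact_mod_cast this

end

end Vale.Agent.P046.St
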