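import Vale.Agent.P046.Good

/-! The exponential potential for one tracked statistic. -/

namespace Vale.Agent.P046.Tw

open Classical Finset Real

variable {V : Type} [Fintype V]

lemma incr_neg {G : SimpleGraph V} {q η C : ℝ} {Δ : Finset V → ℝ} {dr : ℝ}
    (hI : Incr G q η C Δ dr) : Incr G q η C (fun T => -Δ T) (-dr) := by
  refine ⟨fun T hT => by rw [abs_neg]; exact hI.jump T hT, ?_, ?_⟩
  · simp only [abs_neg]
    exact hI.var
  · have e : tav G (fun T => -Δ T) = -tav G Δ := by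
      have := tav_mul G (-1) Δ
      simpa using this
    have e2 : -tav G Δ + du V q * -dr = -(tav G Δ + du V q * dr) := by ring
    rw [e, e2, abs_neg]
    exact hI.drift

lemma exp_step {G : SimpleGraph V} (hne : (tri G).Nonempty) {Z : Finset V → ℝ}
    {W lam u j d : ℝ} (hlam : 0 ≤ lam) (hu : 0 ≤ u) (hu1 : u ≤ 1) (hW : |W| ≤ 1)
    (hj : ∀ T ∈ tri G, |Z T| ≤ j) (hj1 : lam * j ≤ 1)
    (hv : lam * j * tav G (fun T => |Z T|) ≤ u / 4) (hd0 : 0 ≤ d) (hd1 : d ≤ 1)
    (hdr : tav G Z ≤ -(u * W) - u * d * W + u / 2) :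
    tav G (fun T => exp (lam * (W + Z T))) ≤ exp (lam * W) + 3 * lam * exp (3 * lam / 4) := by
  have hE := exp_pos (lam * W)
  have b : ∀ T ∈ tri G, exp (lam * (W + Z T)) ≤
      exp (lam * W) * (1 + (lam * Z T + lam * (lam * j) * |Z T|)) := by
    intro T hT
    rw [mul_add, exp_add]
    refine mul_le_mul_of_nonneg_left ?_ hE.le
    have h1 : |lam * Z T| ≤ lam * j := by
      rw [abs_mul, abs_of_nonneg hlam]
      exact mul_le_mul_of_nonneg_left (hj T hT) hlam
    have h2 := (abs_le.1 (abs_exp_sub_one_sub_id_le (h1.trans hj1))).2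
    have h3 : (lam * Z T) ^ 2 ≤ lam * (lam * j) * |Z T| := by
      rw [← sq_abs, sq]
      refine (mul_le_mul_of_nonneg_right h1 (abs_nonneg _)).trans (le_of_eq ?_)
      rw [abs_mul, abs_of_nonneg hlam]
      ring
    linarith
  refine (tav_mono b).trans ?_
  rw [tav_mul, tav_add, tav_add, tav_mul, tav_mul, tav_const hne]
  have c1 := mul_le_mul_of_nonneg_left hdr hlam
  have c2 := mul_le_mul_of_nonneg_left hv hlam
  have hW' := abs_le.1 hW
  have c3 : lam * tav G Z + lam * (lam * j) * tav G (fun T => |Z T|) ≤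
      lam * u * (3 / 4 - W - d * W) := by nlinarith
  have hlu : 0 ≤ lam * u := mul_nonneg hlam hu
  have hF := exp_pos (3 * lam / 4)
  by_cases hw : 3 / 4 ≤ W
  · have c4 : 3 / 4 - W - d * W ≤ 0 := by nlinarith
    have c5 : lam * u * (3 / 4 - W - d * W) ≤ 0 := mul_nonpos_of_nonneg_of_nonpos hlu c4
    have c6 : 0 ≤ 3 * lam * exp (3 * lam / 4) := by positivity
    nlinarith
  · have c4 : 3 / 4 - W - d * W ≤ 3 := by nlinarith
    have c5 : lam * u * (3 / 4 - W - d * W) ≤ 3 * lam := by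
      have := mul_le_mul_of_nonneg_left c4 hlu
      nlinarith
    have c6 : exp (lam * W) ≤ exp (3 * lam / 4) := exp_le_exp.2 (by nlinarith)
    have c7 := mul_le_mul_of_nonneg_left c6 (by positivity : 0 ≤ 3 * lam)
    have c8 := mul_le_mul_of_nonneg_left (c3.trans c5) hE.le
    nlinarith

lemma num_K {C a y η : ℝ} (hC : 1 ≤ C) (ha : 0 < a) (ha1 : a ≤ 1) (hη0 : 0 < η)
    (hη : η ≤ 1 / y ^ 6) (hy1 : 1 ≤ y) (hy : 8 * C ≤ a * y) :
    ∃ K, C = K * a ∧ 1 ≤ K ∧ 8 * K * η ≤ 1 ∧ 4 * K ^ 2 / y ^ 2 ≤ 1 / 4 := by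
  obtain ⟨K, hK⟩ : ∃ K, K = C / a := ⟨_, rfl⟩
  have hCK : C = K * a := by rw [hK]; field_simp
  have hK1 : 1 ≤ K := by rw [hK, le_div_iff₀ ha]; linarith
  have hKy : 8 * K ≤ y := by
    rw [hCK] at hy
    nlinarith
  have hy6 : y ≤ y ^ 6 := le_self_pow₀ hy1 (by norm_num)
  refine ⟨K, hCK, hK1, ?_, ?_⟩
  · have h1 : η * y ^ 6 ≤ 1 := by rwa [le_div_iff₀ (by positivity)] at hη
    nlinarith
  · rw [div_le_iff₀ (by positivity)]
    nlinarith

lemma num_drift {K a η y u d W dr m : ℝ} (hK1 : 1 ≤ K) (ha : 0 < a) (hη0 : 0 < η) (hy1 : 1 ≤ y)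
    (hKη : 8 * K * η ≤ 1) (hu : 0 < u) (hu1 : u ≤ 1)
    (h1 : m + u * dr ≤ K * a * u * (η ^ 2 + η ^ 2 / y ^ 4))
    (h2 : -(a * η / 4) ≤ dr - d * (W * (a * η))) :
    (1 - u) / (a * η) * m - u * W ≤ -(u * W) - u * ((1 - u) * d) * W + u / 2 := by
  have haη : 0 < a * η := by positivity
  have h3 : K * a * (η ^ 2 + η ^ 2 / y ^ 4) ≤ a * η / 4 := by
    have h4 : η ^ 2 / y ^ 4 ≤ η ^ 2 := div_le_self (by positivity) (one_le_pow₀ hy1)
    have h5 := mul_le_mul_of_nonneg_left h4 (by positivity : 0 ≤ K * a)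
    have h6 := mul_le_mul_of_nonneg_left hKη haη.le
    nlinarith
  have h4 : m ≤ u * (a * η) * (1 / 2 - d * W) := by
    have h5 := mul_le_mul_of_nonneg_left h3 hu.le
    have h6 := mul_le_mul_of_nonneg_left h2 hu.le
    nlinarith
  have hk0 : 0 ≤ (1 - u) / (a * η) := div_nonneg (by linarith) haη.le
  have h5 := mul_le_mul_of_nonneg_left h4 hk0
  have e1 : (1 - u) / (a * η) * (u * (a * η) * (1 / 2 - d * W)) =
      (1 - u) * u * (1 / 2 - d * W) := by field_simp
  have h6 : 0 ≤ u * u := by positivity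
  nlinarith

lemma one_step {G : SimpleGraph V} {q η C a y H dr d : ℝ} {Δ : Finset V → ℝ}
    (h : StepHyp G q η) (hI : Incr G q η C Δ dr) (hC : 1 ≤ C) (ha : 0 < a) (ha1 : a ≤ 1)
    (hη0 : 0 < η) (hη : η ≤ 1 / y ^ 6) (hD : η ^ 2 * (nV V * q ^ 2) = y ^ 4) (hy1 : 1 ≤ y)
    (hy : 8 * C ≤ a * y) (hH : |H| ≤ a * η) (hd : d = 0 ∨ d = 1) (hr : |dr - d * H| ≤ a * η / 4) :
    tav G (fun T => exp (y ^ 2 * ((H + Δ T) / (a * (η / (1 - du V q)))))) ≤
      exp (y ^ 2 * (H / (a * η))) + 3 * y ^ 2 * exp (3 * y ^ 2 / 4) := by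
  have hu := h.du_le.1
  have hu1 := St.du_small h
  have hu2 := St.du_le' h
  have hD0 := St.D_pos h
  have he := h.eta
  have hne := h.nonempty
  obtain ⟨i1, i2, i3⟩ := hI
  have hDi : 1 / (nV V * q ^ 2) = η ^ 2 / y ^ 4 := by
    rw [← hD]
    field_simp
  simp only [div_eq_mul_one_div C, hDi] at i1 i3 hu2
  clear hD hD0 hDi h
  generalize du V q = u at *
  obtain ⟨K, rfl, hK1, hKη, hK2⟩ := num_K hC ha ha1 hη0 hη hy1 hy
  have hu3 : 0 < 1 - u := by linarith
  have haη : 0 < a * η := by positivity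
  have hy0 : 0 < y := by linarith
  obtain ⟨W, rfl⟩ : ∃ W, H = W * (a * η) := ⟨H / (a * η), by field_simp⟩
  have hW1 : |W| ≤ 1 := by
    rw [abs_mul, abs_of_pos haη] at hH
    exact le_of_mul_le_mul_right (by linarith) haη
  have e : (fun T => exp (y ^ 2 * ((W * (a * η) + Δ T) / (a * (η / (1 - u)))))) =
      fun T => exp (y ^ 2 * (W + ((1 - u) / (a * η) * Δ T - u * W))) := by
    funext T
    congr 2
    field_simp
    ring
  rw [e, mul_div_cancel_right₀ W haη.ne']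
  have hk0 : 0 ≤ (1 - u) / (a * η) := by positivity
  have hk1 : (1 - u) / (a * η) ≤ 1 / (a * η) :=
    div_le_div_of_nonneg_right (by linarith) haη.le
  have hZ : ∀ T, |(1 - u) / (a * η) * Δ T - u * W| ≤ 1 / (a * η) * |Δ T| + u := by
    intro T
    refine (abs_sub _ _).trans (add_le_add ?_ ?_)
    · rw [abs_mul, abs_of_nonneg hk0]
      exact mul_le_mul_of_nonneg_right hk1 (abs_nonneg _)
    · rw [abs_mul, abs_of_pos hu]
      exact mul_le_of_le_one_right hu.le hW1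
  have hy4 : 0 < y ^ 4 := by positivity
  have hηK : η ≤ K := by linarith
  have hηy : η ^ 2 / y ^ 4 ≤ K * (η / y ^ 4) := by
    rw [← mul_div_assoc, sq]
    exact div_le_div_of_nonneg_right (mul_le_mul_of_nonneg_right hηK hη0.le) hy4.le
  refine exp_step hne (j := 2 * K * (η / y ^ 4)) (u := u) (d := (1 - u) * d)
    (by positivity) hu.le (by linarith) hW1 (fun T hT => (hZ T).trans ?_) ?_ ?_ ?_ ?_ ?_
  · have h1 := mul_le_mul_of_nonneg_left (i1 T hT) (by positivity : 0 ≤ 1 / (a * η))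
    have e1 : 1 / (a * η) * (K * a * (η ^ 2 / y ^ 4)) = K * (η / y ^ 4) := by field_simp
    linarith
  · have e1 : y ^ 2 * (2 * K * (η / y ^ 4)) = 2 * K * η / y ^ 2 := by field_simp
    have : 1 ≤ y ^ 2 := one_le_pow₀ hy1
    rw [e1, div_le_one (by positivity)]
    linarith
  · have h1 : tav G (fun T => |(1 - u) / (a * η) * Δ T - u * W|) ≤ 2 * (K * u / η) := by
      refine (tav_mono fun T _ => hZ T).trans ?_
      rw [tav_add, tav_mul, tav_const hne]
      have h2 := mul_le_mul_of_nonneg_left i2 (by positivity : 0 ≤ 1 / (a * η))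
      have e1 : 1 / (a * η) * (K * a * u) = K * u / η := by field_simp
      have h3 : u ≤ K * u / η := by
        rw [le_div_iff₀ hη0, mul_comm K]
        exact mul_le_mul_of_nonneg_left hηK hu.le
      linarith
    refine (mul_le_mul_of_nonneg_left h1 (by positivity)).trans ?_
    have e1 : y ^ 2 * (2 * K * (η / y ^ 4)) * (2 * (K * u / η)) = 4 * K ^ 2 / y ^ 2 * u := by
      field_simp
      ring
    have := mul_le_mul_of_nonneg_right hK2 hu.le
    linarith
  · rcases hd with rfl | rfl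
    · simp
    · linarith
  · rcases hd with rfl | rfl
    · simp
    · linarith
  · rw [tav_sub, tav_mul, tav_const hne]
    exact num_drift hK1 ha hη0 hy1 hKη hu (by linarith) (abs_le.1 i3).2 (abs_le.1 hr).1

lemma et_succ {y : ℝ} {t : ℕ} (hp : Par V y t) (hy : 1 ≤ y) :
    et V y (t + 1) = et V y t / (1 - du V (qq V t)) := by
  unfold et
  rw [hp.qq_succ hy, div_div, mul_assoc]

/-- The hypothesis of the tracking lemmas on a statistic `H` with scale `a`. -/
def Trk (y c a C : ℝ) (i : ℕ) (H : ℕ → SimpleGraph V → ℝ) : Prop :=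
  (∀ t < i, ∀ G, Good y c t G → |H t G| ≤ a * et V y t ∧ ∃ dr d : ℝ, (d = 0 ∨ d = 1) ∧
    |dr - d * H t G| ≤ a * et V y t / 4 ∧
    Incr G (qq V t) (et V y t) C (fun T => H (t + 1) (rem G T) - H t G) dr) ∧
  |H 0 ⊤| ≤ 3 / 4 * (a * et V y 0)

lemma Trk.neg {y c a C : ℝ} {i : ℕ} {H : ℕ → SimpleGraph V → ℝ} (h : Trk y c a C i H) :
    Trk y c a C i fun t G => -H t G := by
  refine ⟨fun t ht G hG => ?_, by rw [abs_neg]; exact h.2⟩
  obtain ⟨h1, dr, d, hd, h2, h3⟩ := h.1 t ht G hG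
  refine ⟨by rw [abs_neg]; exact h1, -dr, d, hd, ?_, ?_⟩
  · have e : -dr - d * -H t G = -(dr - d * H t G) := by ring
    rw [e, abs_neg]
    exact h2
  · have e : (fun T => -H (t + 1) (rem G T) - -H t G) =
        fun T => -(H (t + 1) (rem G T) - H t G) := funext fun T => by ring
    rw [e]
    exact incr_neg h3

lemma track_one {y c a C : ℝ} {i : ℕ} (hp : Par V y i) (hy : 10 ≤ y) (hc : c ≤ 1 / 2)
    (hC : 1 ≤ C) (ha : 0 < a) (ha1 : a ≤ 1) (hK : 8 * C ≤ a * y)
    {H : ℕ → SimpleGraph V → ℝ} (h : Trk y c a C i H) :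
    kil (Good y c) 0 i (fun G => exp (y ^ 2 * (H i G / (a * et V y i)))) ⊤ ≤
      4 * y ^ 4002 * exp (3 * y ^ 2 / 4) := by
  have hy1 : 1 ≤ y := by linarith
  have key := kil_le (Good y c) (fun t G => exp (y ^ 2 * (H t G / (a * et V y t))))
    (fun _ => 3 * y ^ 2 * exp (3 * y ^ 2 / 4)) i (fun t G => (exp_pos _).le)
    (fun _ => by positivity) ?_ ⊤
  · refine key.trans ?_
    rw [sum_const, card_range, nsmul_eq_mul]
    have h0 := ((hp.mono (Nat.zero_le i)).et_le hy1).1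
    have h1 : H 0 ⊤ / (a * et V y 0) ≤ 3 / 4 := by
      rw [div_le_iff₀ (by positivity)]
      exact (abs_le.1 h.2).2
    have h2 : exp (y ^ 2 * (H 0 ⊤ / (a * et V y 0))) ≤ exp (3 * y ^ 2 / 4) := by
      refine exp_le_exp.2 ?_
      have := mul_le_mul_of_nonneg_left h1 (by positivity : 0 ≤ y ^ 2)
      linarith
    have h3 := mul_le_mul_of_nonneg_right (hp.le_sq hy1)
      (by positivity : 0 ≤ 3 * y ^ 2 * exp (3 * y ^ 2 / 4))
    have h4 : 1 * exp (3 * y ^ 2 / 4) ≤ y ^ 4002 * exp (3 * y ^ 2 / 4) :=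
      mul_le_mul_of_nonneg_right (one_le_pow₀ hy1) (exp_pos _).le
    have e : y ^ 4000 * (3 * y ^ 2 * exp (3 * y ^ 2 / 4)) =
        3 * (y ^ 4002 * exp (3 * y ^ 2 / 4)) := by ring
    linarith
  · intro t ht G hG
    have hpt := hp.mono ht.le
    have hS := hG.stepHyp hpt hy hc
    obtain ⟨h1, dr, d, hd, h2, h3⟩ := h.1 t ht G hG
    have := one_step hS h3 hC ha ha1 (hpt.et_le hy1).1 (hpt.et_le hy1).2 (hpt.D_eq hy1).1 hy1 hK
      h1 hd h2
    unfold avg
    rw [if_pos hS.nonempty, et_succ hpt hy1]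
    simpa only [add_sub_cancel] using this

lemma track_abs {y c a C : ℝ} {i : ℕ} (hp : Par V y i) (hy : 10 ≤ y) (hc : c ≤ 1 / 2)
    (hC : 1 ≤ C) (ha : 0 < a) (ha1 : a ≤ 1) (hK : 8 * C ≤ a * y)
    {H : ℕ → SimpleGraph V → ℝ} (h : Trk y c a C i H) :
    kil (Good y c) 0 i (fun G => ind (¬|H i G| ≤ a * et V y i)) ⊤ ≤
      8 * y ^ 4002 * exp (-(y ^ 2 / 4)) := by
  have hy1 : 1 ≤ y := by linarith
  have h0 := (hp.et_le hy1).1
  have haη : 0 < a * et V y i := by positivity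
  have b : ∀ G, ind (¬|H i G| ≤ a * et V y i) ≤ exp (-y ^ 2) *
      (exp (y ^ 2 * (H i G / (a * et V y i))) + exp (y ^ 2 * (-H i G / (a * et V y i)))) := by
    intro G
    have one : ∀ z : ℝ, a * et V y i < z → 1 ≤ exp (-y ^ 2) * exp (y ^ 2 * (z / (a * et V y i))) := by
      intro z hz
      rw [← exp_add]
      refine one_le_exp ?_
      have h1 : 1 ≤ z / (a * et V y i) := by rw [le_div_iff₀ haη]; linarith
      have := mul_le_mul_of_nonneg_left h1 (by positivity : 0 ≤ y ^ 2)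
      linarith
    by_cases hG : |H i G| ≤ a * et V y i
    · rw [ind_neg (not_not.2 hG)]
      positivity
    · rw [ind_pos hG, mul_add]
      rcases lt_abs.1 (not_le.1 hG) with h1 | h1
      · have := one _ h1
        have : 0 ≤ exp (-y ^ 2) * exp (y ^ 2 * (-H i G / (a * et V y i))) := by positivity
        linarith
      · have := one _ h1
        have : 0 ≤ exp (-y ^ 2) * exp (y ^ 2 * (H i G / (a * et V y i))) := by positivity
        linarith
  refine (kil_mono _ _ _ b _).trans ?_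
  rw [kil_mul, kil_add]
  have h1 := track_one hp hy hc hC ha ha1 hK h
  have h2 := track_one hp hy hc hC ha ha1 hK h.neg
  refine (mul_le_mul_of_nonneg_left (add_le_add h1 h2) (exp_pos _).le).trans (le_of_eq ?_)
  have e : exp (-(y ^ 2 / 4)) = exp (-y ^ 2) * exp (3 * y ^ 2 / 4) := by
    rw [← exp_add]
    congr 1
    ring
  rw [e]
  ring

lemma exp_large (k : ℕ) (N : ℝ) : ∃ Y : ℝ, ∀ y : ℝ, Y ≤ y → N * y ^ (2 * k) ≤ exp (y ^ 2 / 4) := by
  refine ⟨max 1 (|N| * (4 ^ (k + 1) * (k + 1).factorial)), fun y hy => ?_⟩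
  have h1 : 1 ≤ y := (le_max_left _ _).trans hy
  have h2 := (le_max_right _ _).trans hy
  refine le_trans ?_ (pow_div_factorial_le_exp (x := y ^ 2 / 4) (by positivity) (k + 1))
  have hf : (0 : ℝ) < (k + 1).factorial := by exact_mod_cast Nat.factorial_pos _
  have e : (y ^ 2 / 4) ^ (k + 1) / ((k + 1).factorial : ℝ) =
      y ^ 2 / (4 ^ (k + 1) * (k + 1).factorial) * y ^ (2 * k) := by
    rw [div_pow, ← pow_mul, mul_add, pow_add]
    field_simp
  rw [e]
  refine mul_le_mul_of_nonneg_right ((le_abs_self N).trans ?_) (by positivity)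
  rw [le_div_iff₀ (by positivity)]
  nlinarith

end Vale.Agent.P046.Tw
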