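import Vale.Agent.P046.Tree

/-! The coupling of the graph with the tree. -/

namespace Vale.Agent.P046

open Classical Finset
open scoped BigOperators

variable {V : Type} [Fintype V]

section Det

omit [Fintype V]

variable {G : SimpleGraph V} {r : St V} {N : ℕ} {τ τ' : List (Lab V) → ℕ}

/-- `pa` depends only on the clocks of proper descendants of bounded depth. -/
lemma pa_congr (s : ℕ) : ∀ l : List (Lab V),
    (∀ m, m.length ≤ l.length + s → (∃ c, c :: l <:+ m) → τ m = τ' m) →
      (pa G r τ l s ↔ pa G r τ' l s) := by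
  induction s using Nat.strong_induction_on with
  | _ s ih =>
    intro l h
    rw [pa_iff, pa_iff]
    refine forall_congr' fun c => forall_congr' fun _ => ?_
    rcases Nat.eq_zero_or_pos s with rfl | hs
    · simp
    rw [← h (c :: l) (by simp only [List.length_cons]; omega) ⟨c, List.suffix_refl _⟩]
    refine forall_congr' fun ht => not_congr (ih _ ht _ fun m hm ⟨c', hc'⟩ => h m ?_
      ⟨c, (List.suffix_cons _ _).trans hc'⟩)
    simp only [List.length_cons] at hm
    omega

lemma pa_mono {l : List (Lab V)} {s t : ℕ} (h : pa G r τ l s) (ht : t ≤ s) : pa G r τ l t := by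
  rw [pa_iff] at h ⊢
  exact fun c hc hlt => h c hc (hlt.trans_le ht)

lemma act_len : ∀ {l : List (Lab V)}, Act G r N τ l → l.length + clk N τ l ≤ N
  | [], _ => by simp [clk]
  | c :: l, h => by
    have h1 := act_len h.1
    have h2 := h.2.2.1
    simp only [List.length_cons, clk]
    omega

lemma read_len : ∀ {l : List (Lab V)}, Read G r N τ l → l.length ≤ N + 1
  | [], h => h.elim
  | c :: l, h => by
    have h1 := act_len h.1
    simp only [List.length_cons]
    omega

lemma stop_pa (h : ∀ m, Read G r N τ m → τ' m = τ m) (s : ℕ) :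
    ∀ l, Act G r N τ l → s ≤ clk N τ l → (pa G r τ l s ↔ pa G r τ' l s) := by
  induction s using Nat.strong_induction_on with
  | _ s ih =>
    intro l hl hs
    refine ⟨fun H => ?_, fun H => ?_⟩
    · rw [pa_iff]
      intro c hc ht
      rw [h (c :: l) ⟨hl, hc⟩] at ht ⊢
      rw [← ih _ ht (c :: l) ⟨hl, hc, ht.trans_le hs, pa_mono H ht.le⟩ le_rfl]
      exact (pa_iff ..).1 H c hc ht
    · rw [pa_iff]
      intro c hc ht
      have a1 := (ih _ ht l hl (ht.le.trans hs)).2 (pa_mono H ht.le)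
      rw [ih _ ht (c :: l) ⟨hl, hc, ht.trans_le hs, a1⟩ le_rfl]
      have a2 := (pa_iff ..).1 H c hc
      rw [h (c :: l) ⟨hl, hc⟩] at a2
      exact a2 ht

lemma stop_clk (h : ∀ m, Read G r N τ m → τ' m = τ m) :
    ∀ {l}, Act G r N τ l → clk N τ' l = clk N τ l
  | [], _ => rfl
  | c :: l, hl => h (c :: l) ⟨hl.1, hl.2.1⟩

lemma stop_act (h : ∀ m, Read G r N τ m → τ' m = τ m) : ∀ l, Act G r N τ l ↔ Act G r N τ' l
  | [] => Iff.rfl
  | c :: l => by
    have ih := stop_act h l
    refine ⟨fun H => ?_, fun H => ?_⟩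
    · have e := h (c :: l) ⟨H.1, H.2.1⟩
      refine ⟨ih.1 H.1, H.2.1, ?_, ?_⟩
      · rw [e, stop_clk h H.1]; exact H.2.2.1
      · rw [e, ← stop_pa h _ l H.1 H.2.2.1.le]; exact H.2.2.2
    · have a1 := ih.2 H.1
      have e := h (c :: l) ⟨a1, H.2.1⟩
      have a2 := H.2.2.1
      have a3 := H.2.2.2
      rw [e] at a2 a3
      rw [stop_clk h a1] at a2
      exact ⟨a1, H.2.1, a2, (stop_pa h _ l a1 a2.le).2 a3⟩

lemma stop_read (h : ∀ m, Read G r N τ m → τ' m = τ m) : ∀ l, Read G r N τ l ↔ Read G r N τ' l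
  | [] => Iff.rfl
  | _ :: l => and_congr_left fun _ => stop_act h l

lemma stop_bad (h : ∀ m, Read G r N τ m → τ' m = τ m) : Bad G r N τ ↔ Bad G r N τ' := by
  simp only [Bad, stop_read h]

lemma act_suffix : ∀ {l m : List (Lab V)}, Act G r N τ m → l <:+ m → Act G r N τ l
  | l, [], _, h => by rw [List.suffix_nil.1 h]; trivial
  | l, c :: m, H, h => by
    rcases List.suffix_cons_iff.1 h with rfl | h
    · exact H
    · exact act_suffix H.1 h

lemma read_suffix {c c' : Lab V} {l m : List (Lab V)} (H : Read G r N τ (c' :: m))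
    (h : c :: l <:+ c' :: m) : Read G r N τ (c :: l) := by
  rcases List.suffix_cons_iff.1 h with e | h
  · rw [e]; exact H
  · have := act_suffix H.1 h
    exact ⟨this.1, this.2.1⟩

lemma st_vert (r : St V) : ∀ (l : List (Lab V)) (b : Bool) (z : V),
    z = (st r l b).1 ∨ z = (st r l b).2.1 → z ∈ rootV r ∨ ∃ c m, c :: m <:+ l ∧ c.2 = z
  | [], b, _, h => Or.inl ⟨b, h⟩
  | c :: l, b, z, h => by
    have ih : z = (st r l c.1).1 ∨ z = (st r l c.1).2.1 →
        z ∈ rootV r ∨ ∃ c' m, c' :: m <:+ c :: l ∧ c'.2 = z := fun h' =>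
      (st_vert r l c.1 z h').imp_right fun ⟨c', m, h1, h2⟩ =>
        ⟨c', m, h1.trans (List.suffix_cons _ _), h2⟩
    cases b
    · rcases h with h | h
      · exact ih (Or.inl h)
      · exact Or.inr ⟨c, l, List.suffix_refl _, h.symm⟩
    · rcases h with h | h
      · exact ih (Or.inr h)
      · exact Or.inr ⟨c, l, List.suffix_refl _, h.symm⟩

lemma tri_inj (hb : ¬Bad G r N τ) {c c' : Lab V} {l l' : List (Lab V)}
    (h : Read G r N τ (c :: l)) (h' : Read G r N τ (c' :: l'))
    (e : triOf (st r l) c = triOf (st r l') c') : c :: l = c' :: l' := by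
  have key : ∀ {c c' : Lab V} {l l' : List (Lab V)}, Read G r N τ (c :: l) →
      Read G r N τ (c' :: l') → triOf (st r l) c = triOf (st r l') c' → c :: l <:+ c' :: l' := by
    intro c c' l l' h h' e
    have a1 : c.2 ∈ triOf (st r l') c' := by rw [← e]; simp [triOf]
    have a2 : c.2 ∈ rootV r ∨ ∃ d m, d :: m <:+ c' :: l' ∧ d.2 = c.2 := by
      simp only [triOf, mem_insert, mem_singleton, ← or_assoc] at a1
      rcases a1 with a1 | a1
      · exact (st_vert r l' c'.1 _ a1).imp_right fun ⟨d, m, h1, h2⟩ =>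
          ⟨d, m, h1.trans (List.suffix_cons _ _), h2⟩
      · exact Or.inr ⟨c', l', List.suffix_refl _, a1.symm⟩
    rcases a2 with a2 | ⟨d, m, h1, h2⟩
    · exact absurd ⟨c, l, h, Or.inl a2⟩ hb
    · by_cases a3 : d :: m = c :: l
      · rwa [a3] at h1
      · exact absurd ⟨c, l, h, Or.inr ⟨d, m, read_suffix h' h1, a3, h2⟩⟩ hb
  exact (key h h' e).eq_of_length_le (key h' h e.symm).length_le

/-- The triangle of a node. -/
noncomputable def triN (r : St V) : List (Lab V) → Finset V
  | [] => ∅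
  | c :: l => triOf (st r l) c

lemma pa_pull (G : SimpleGraph V) (r : St V) (ω : Finset V → ℕ) (s : ℕ) : ∀ l : List (Lab V),
    (∀ b, G.Adj (st r l b).1 (st r l b).2.2 →
      s ≤ ω {(st r l b).1, (st r l b).2.1, (st r l b).2.2}) →
    (pa G r (fun m => ω (triN r m)) l s ↔
      ∀ b, G.Adj (st r l b).1 (st r l b).2.1 → al G ω (st r l b).1 (st r l b).2.1 s) := by
  induction s using Nat.strong_induction_on with
  | _ s ih =>
    intro l h
    have key : ∀ c, val G (st r l) c → ω (triN r (c :: l)) < s →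
        (pa G r (fun m => ω (triN r m)) (c :: l) (ω (triN r (c :: l))) ↔
          al G ω (st r l c.1).1 c.2 (ω (triN r (c :: l))) ∧
            al G ω (st r l c.1).2.1 c.2 (ω (triN r (c :: l)))) := by
      intro c hc ht
      rw [ih _ ht (c :: l) fun b _ => le_of_eq (congrArg ω ?_)]
      · exact ⟨fun H => ⟨H false hc.2.1, H true hc.2.2.1⟩, fun H b _ => by
          cases b
          · exact H.1
          · exact H.2⟩
      · cases b
        · change {_, _, _} = ({(st r l c.1).1, c.2, (st r l c.1).2.1} : Finset V)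
          rw [pair_comm c.2]
        · change {_, _, _} = ({(st r l c.1).2.1, c.2, (st r l c.1).1} : Finset V)
          rw [pair_comm c.2, insert_comm]
    rw [pa_iff]
    refine ⟨fun H b hb => ?_, fun H c hc ht => ?_⟩
    · rw [al_iff]
      intro z h1 h2 ht
      have hv : val G (st r l) (b, z) := ⟨hb, h1, h2, fun e => by
        have e' : z = (st r l b).2.2 := e
        have := h b (e' ▸ h1)
        rw [← e'] at this
        omega⟩
      exact fun a => H (b, z) hv ht ((key (b, z) hv ht).2 a)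
    · rw [key c hc ht]
      exact (al_iff ..).1 (H c.1 hc.1) c.2 hc.2.1 hc.2.2.1 ht

end Det

omit [Fintype V] in
lemma xt_eq {N : ℕ} (ω : Node V N → Fin N) {l : List (Lab V)} (h : l.length ≤ N + 1) :
    xt ω l = ω ⟨l, h⟩ := dif_pos h

omit [Fintype V] in
lemma xt_congr {N : ℕ} {ω ω' : Node V N → Fin N} {l : List (Lab V)}
    (h : ∀ hl : l.length ≤ N + 1, ω ⟨l, hl⟩ = ω' ⟨l, hl⟩) : xt ω l = xt ω' l := by
  unfold xt
  split_ifs with hl
  · rw [h hl]
  · rfl

/-- Survival probabilities on the tree, with any set of children. -/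
theorem expect_pa (G : SimpleGraph V) (r : St V) {N : ℕ} (hN : 0 < N) (l : List (Lab V)) (s : ℕ)
    (hs : s ≤ N) (hl : l.length + s ≤ N + 1) (C : Finset (Lab V)) :
    𝔼 ω : Node V N → Fin N, ind (∀ c ∈ C, xt ω (c :: l) < s →
      ¬pa G r (xt ω) (c :: l) (xt ω (c :: l))) = ∏ c ∈ C, (1 - bi G N (child (st r l) c) s) := by
  have : Nonempty (Fin N) := ⟨⟨0, hN⟩⟩
  induction s using Nat.strong_induction_on generalizing l C with
  | _ s ih =>
    simp only [ind_forall]
    rw [expect_prod_indep C (S := fun c => {n : Node V N | c :: l <:+ n.1}) (fun c _ x y hxy => ?_)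
      fun c _ c' _ hne => Set.disjoint_left.2 fun n h1 h2 => hne ?_]
    · refine prod_congr rfl fun c _ => ?_
      have e : ∀ ω : Node V N → Fin N,
          ind (xt ω (c :: l) < s → ¬pa G r (xt ω) (c :: l) (xt ω (c :: l))) =
            1 - ∑ t ∈ range s, ind (xt ω (c :: l) = t) * ind (pa G r (xt ω) (c :: l) t) := by
        intro ω
        by_cases h1 : xt ω (c :: l) < s
        · rw [sum_eq_single_of_mem _ (mem_range.2 h1) fun t _ ht => by
            rw [ind_neg ht.symm, zero_mul], ind_pos rfl, one_mul]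
          by_cases h2 : pa G r (xt ω) (c :: l) (xt ω (c :: l))
          · rw [ind_pos h2, ind_neg fun H => H h1 h2, sub_self]
          · rw [ind_neg h2, ind_pos fun _ => h2, sub_zero]
        · rw [ind_pos fun h => absurd h h1, sum_eq_zero fun t ht => by
            rw [ind_neg fun e => h1 (by rw [e]; exact mem_range.1 ht), zero_mul], sub_zero]
      simp only [e, expect_sub_distrib, Fintype.expect_const, expect_sum_comm]
      rw [bi, sum_div]
      refine congrArg _ (sum_congr rfl fun t ht => ?_)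
      have ht' := mem_range.1 ht
      have hc : (c :: l).length ≤ N + 1 := by simp only [List.length_cons]; omega
      rw [expect_mul_indep (φ := fun ω : Node V N → Fin N => ind (xt ω (c :: l) = t))
        (ψ := fun ω => ind (pa G r (xt ω) (c :: l) t)) (S := {⟨c :: l, hc⟩})
        (S' := {n : Node V N | ∃ c', c' :: c :: l <:+ n.1})
        (fun x y hxy => by beta_reduce; rw [xt_eq x hc, xt_eq y hc, hxy _ rfl])
        (fun x y hxy => ind_congr (pa_congr _ _ fun m _ hm => xt_congr fun _ => hxy _ hm))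
        (Set.disjoint_singleton_left.2 fun ⟨c', h⟩ => by
          have := h.length_le
          simp at this)]
      have a1 : 𝔼 ω : Node V N → Fin N, ind (xt ω (c :: l) = t) = 1 / N := by
        have := expect_coord (Λ := Fin N) (⟨c :: l, hc⟩ : Node V N) ⟨t, by omega⟩
        rw [Fintype.card_fin] at this
        rw [← this]
        exact expect_congr rfl fun ω _ => ind_congr (by rw [xt_eq ω hc, Fin.ext_iff])
      have a2 := ih t ht' (c :: l) (by omega) (by simp only [List.length_cons]; omega)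
        (kids G (st r (c :: l)))
      rw [← bp_eq] at a2
      rw [a1, one_div, div_eq_inv_mul]
      refine congrArg _ (Eq.trans (expect_congr rfl fun ω _ => ind_congr ?_) a2)
      rw [pa_iff]
      simp [kids]
    · have a1 : xt x (c :: l) = xt y (c :: l) := xt_congr fun _ => hxy _ (List.suffix_refl _)
      rw [a1, pa_congr (τ' := xt y) _ _ fun m _ ⟨c', hm⟩ =>
        xt_congr fun _ => hxy _ ((List.suffix_cons _ _).trans hm)]
    · have := (List.suffix_of_suffix_length_le h1 h2 (by simp)).eq_of_length (by simp)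
      exact (List.cons.inj this).1

theorem expect_pull (G : SimpleGraph V) (r : St V) {N : ℕ} (hN : 0 < N)
    (Ψ : (List (Lab V) → ℕ) → ℝ)
    (h1 : ∀ τ τ', (∀ m, Read G r N τ m → τ' m = τ m) → Ψ τ' = Ψ τ)
    (h2 : ∀ τ, Bad G r N τ → Ψ τ = 0) :
    𝔼 ω : Finset V → Fin N, Ψ (fun m => ω (triN r m)) = 𝔼 w : Node V N → Fin N, Ψ (xt w) := by
  have : Nonempty (Fin N) := ⟨⟨0, hN⟩⟩
  let R : (List (Lab V) → ℕ) → Finset (Node V N) := fun τ => univ.filter fun n => Read G r N τ n.1
  have hR : ∀ τ n, n ∈ R τ ↔ Read G r N τ n.1 := fun τ n => by simp [R]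
  let pb : (Finset V → Fin N) → List (Lab V) → ℕ := fun ω m => ω (triN r m)
  set p : ℝ := 1 / (Fintype.card (Fin N) : ℝ) with hp
  have hp0 : p ≠ 0 := one_div_ne_zero (Nat.cast_ne_zero.2 Fintype.card_ne_zero)
  have a1 : ∀ ω, Ψ (pb ω) = 𝔼 w : Node V N → Fin N,
      ind (∀ n ∈ R (xt w), ω (triN r n.1) = w n) * (Ψ (xt w) / p ^ (R (xt w)).card) := by
    intro ω
    have b1 := expect_agree (Λ := Fin N) (R (pb ω)) (fun n => n) (fun _ _ _ _ e => e)
      fun n => ω (triN r n.1)
    rw [← hp] at b1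
    rw [← mul_div_cancel₀ (Ψ (pb ω)) (pow_ne_zero (R (pb ω)).card hp0), ← b1, expect_mul, b1]
    refine expect_congr rfl fun w _ => ?_
    have b2 : (∀ n ∈ R (pb ω), w n = ω (triN r n.1)) → ∀ m, Read G r N (pb ω) m → xt w m = pb ω m :=
      fun H m hm => by rw [xt_eq w (read_len hm), H _ ((hR _ _).2 hm)]
    have b3 : (∀ n ∈ R (xt w), ω (triN r n.1) = w n) →
        ∀ m, Read G r N (xt w) m → pb ω m = xt w m :=
      fun H m hm => by rw [xt_eq w (read_len hm), ← H _ ((hR _ _).2 hm)]
    by_cases c : ∀ n ∈ R (pb ω), w n = ω (triN r n.1)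
    · have b4 : R (xt w) = R (pb ω) := by
        ext n
        rw [hR, hR, stop_read (b2 c)]
      rw [b4, ind_pos c, ind_pos fun n hn => (c n hn).symm, h1 _ _ (b2 c)]
    · rw [ind_neg c, zero_mul, ind_neg fun H => c fun n hn => ?_, zero_mul]
      exact (H n ((hR _ _).2 ((stop_read (b3 H) _).2 ((hR _ _).1 hn)))).symm
  change 𝔼 ω : Finset V → Fin N, Ψ (pb ω) = _
  simp only [a1]
  rw [expect_comm]
  refine expect_congr rfl fun w _ => ?_
  by_cases hb : Bad G r N (xt w)
  · simp [h2 _ hb]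
  rw [← expect_mul, expect_agree (R (xt w)) (fun n => triN r n.1) ?_ w, ← hp,
    mul_div_cancel₀ _ (pow_ne_zero _ hp0)]
  rintro ⟨_ | ⟨c, l⟩, h⟩ hn ⟨_ | ⟨c', l'⟩, h'⟩ hn' e
  · rfl
  · exact ((hR _ _).1 hn).elim
  · exact ((hR _ _).1 hn').elim
  · exact Subtype.ext (tri_inj hb ((hR _ _).1 hn) ((hR _ _).1 hn') e)

theorem tree_gen (G : SimpleGraph V) (r : St V) (hr : ∀ b, (r b).2.2 = (r b).1) {N : ℕ}
    (hN : 0 < N) :
    |(𝔼 ω : Finset V → Fin N, ind (∀ b, G.Adj (r b).1 (r b).2.1 →
      al G (fun T => ω T) (r b).1 (r b).2.1 N)) - bp G N r N| ≤ badP G r N := by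
  have : Nonempty (Fin N) := ⟨⟨0, hN⟩⟩
  have a1 : ∀ ω : Finset V → Fin N, ind (∀ b, G.Adj (r b).1 (r b).2.1 →
      al G (fun T => ω T) (r b).1 (r b).2.1 N) = ind (pa G r (fun m => ω (triN r m)) [] N) :=
    fun ω => ind_congr (pa_pull G r (fun T => ω T) N [] fun b hb =>
      absurd (hr b).symm hb.ne).symm
  have a2 : bp G N r N = 𝔼 w : Node V N → Fin N, ind (pa G r (xt w) [] N) := by
    rw [bp_eq]
    refine (expect_pa G r hN [] N le_rfl (by simp) (kids G r)).symm.trans
      (expect_congr rfl fun ω _ => ind_congr ?_)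
    rw [pa_iff G r _ []]
    simp [kids, st]
  have a3 := expect_pull G r hN (fun τ => ind (pa G r τ [] N) * (1 - ind (Bad G r N τ)))
    (fun τ τ' h => by rw [stop_bad h, stop_pa h N [] trivial le_rfl])
    fun τ h => by rw [ind_pos h, sub_self, mul_zero]
  have a4 := expect_pull G r hN (fun τ => 1 - ind (Bad G r N τ))
    (fun τ τ' h => by rw [stop_bad h]) fun τ h => by rw [ind_pos h, sub_self]
  simp only [mul_sub, mul_one, expect_sub_distrib, Fintype.expect_const] at a3 a4
  have b : ∀ {Ω : Type} [Fintype Ω] (P Q : Ω → Prop),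
      0 ≤ 𝔼 ω, ind (P ω) * ind (Q ω) ∧ 𝔼 ω, ind (P ω) * ind (Q ω) ≤ 𝔼 ω, ind (Q ω) :=
    fun P Q => ⟨expect_nonneg fun _ _ => mul_nonneg (ind_nonneg _) (ind_nonneg _),
      expect_le_expect fun _ _ => mul_le_of_le_one_left (ind_nonneg _) (ind_le_one _)⟩
  have b1 := b (fun ω : Finset V → Fin N => pa G r (fun m => ω (triN r m)) [] N)
    fun ω => Bad G r N fun m => ω (triN r m)
  have b2 := b (fun w : Node V N → Fin N => pa G r (xt w) [] N) fun w => Bad G r N (xt w)
  simp only [a1]
  rw [a2, badP, abs_le]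
  constructor <;> linarith [b1.1, b1.2, b2.1, b2.2]

theorem tree_two (G : SimpleGraph V) {x y u v : V} (hxy : G.Adj x y) (huv : G.Adj u v) {N : ℕ}
    (hN : 0 < N) :
    |(𝔼 ω : Finset V → Fin N, ind (al G (fun T => ω T) x y N ∧ al G (fun T => ω T) u v N)) -
      bp G N (root x y u v) N| ≤ badP G (root x y u v) N := by
  have := tree_gen G (root x y u v) (fun b => by cases b <;> rfl) hN
  simpa [root, hxy, huv] using this

theorem tree_one (G : SimpleGraph V) {x y : V} (hxy : G.Adj x y) {N : ℕ} (hN : 0 < N) :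
    |(𝔼 ω : Finset V → Fin N, ind (al G (fun T => ω T) x y N)) - bp G N (root x y x x) N| ≤
      badP G (root x y x x) N := by
  have := tree_gen G (root x y x x) (fun b => by cases b <;> rfl) hN
  simpa [root, hxy] using this

end Vale.Agent.P046
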