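import Vale.Agent.P046.TreeA

/-! Downward paths of activated nodes. -/

namespace Vale.Agent.P046

open Classical Finset
open scoped BigOperators

noncomputable section

section Indep

variable {A Λ : Type} [Fintype A] [Fintype Λ]

lemma expect_mul_indep' {i : Fintype (A → Λ)} {φ ψ : (A → Λ) → ℝ} {S S' : Set A}
    (hφ : DependsOn φ S) (hψ : DependsOn ψ S') (h : Disjoint S S') :
    𝔼 ω, φ ω * ψ ω = (𝔼 ω, φ ω) * 𝔼 ω, ψ ω := by
  obtain rfl : i = Pi.instFintype := Subsingleton.elim _ _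
  exact expect_mul_indep hφ hψ h

lemma expect_coord' {i : Fintype (A → Λ)} (a : A) (v : Λ) :
    𝔼 ω : A → Λ, ind (ω a = v) = 1 / (Fintype.card Λ : ℝ) := by
  obtain rfl : i = Pi.instFintype := Subsingleton.elim _ _
  exact expect_coord a v

end Indep

variable {V : Type} [Fintype V]

/-- The clocks agree on the strict descendants of `l`. -/
def Agr (τ τ' : List (Lab V) → ℕ) (l : List (Lab V)) : Prop :=
  ∀ x, l <:+ x → l.length < x.length → τ x = τ' x

omit [Fintype V] in
lemma Agr.self {τ τ' : List (Lab V) → ℕ} {l : List (Lab V)} (h : Agr τ τ' l) (c : Lab V) :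
    τ (c :: l) = τ' (c :: l) :=
  h _ (List.suffix_cons c l) (by simp)

omit [Fintype V] in
lemma Agr.cons {τ τ' : List (Lab V) → ℕ} {l : List (Lab V)} (h : Agr τ τ' l) (c : Lab V) :
    Agr τ τ' (c :: l) := fun x hx hl =>
  h x ((List.suffix_cons c l).trans hx) (by simp at hl; omega)

omit [Fintype V] in
lemma pa_congrB (G : SimpleGraph V) (r : St V) {τ τ' : List (Lab V) → ℕ} (s : ℕ) :
    ∀ l, Agr τ τ' l → (pa G r τ l s ↔ pa G r τ' l s) := by
  induction s using Nat.strong_induction_on with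
  | _ s ih =>
    intro l h
    rw [pa_iff, pa_iff]
    refine forall_congr' fun c => imp_congr_right fun _ => ?_
    rw [← h.self c]
    exact imp_congr_right fun hlt => not_congr (ih _ hlt _ (h.cons c))

/-- A downward path of activated nodes below `m`, with time window `s`. -/
def Pth (G : SimpleGraph V) (r : St V) (τ : List (Lab V) → ℕ) :
    List (Lab V) → List (Lab V) → ℕ → Prop
  | [], _, _ => True
  | d :: q, m, s => val G (st r m) d ∧ τ (d :: m) < s ∧ pa G r τ m (τ (d :: m)) ∧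
      Pth G r τ q (d :: m) (τ (d :: m))

omit [Fintype V] in
lemma Pth.mono {G : SimpleGraph V} {r : St V} {τ : List (Lab V) → ℕ} {q m : List (Lab V)}
    {s s' : ℕ} (h : Pth G r τ q m s) (hs : s ≤ s') : Pth G r τ q m s' := by
  cases q with
  | nil => trivial
  | cons d q => exact ⟨h.1, lt_of_lt_of_le h.2.1 hs, h.2.2⟩

omit [Fintype V] in
lemma pth_congr (G : SimpleGraph V) (r : St V) {τ τ' : List (Lab V) → ℕ} (q : List (Lab V)) :
    ∀ m s, Agr τ τ' m → (Pth G r τ q m s ↔ Pth G r τ' q m s) := by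
  induction q with
  | nil => intro m s _; rfl
  | cons d q ih =>
    intro m s h
    simp only [Pth]
    rw [← h.self d, pa_congrB G r _ m h, ih _ _ (h.cons d)]

omit [Fintype V] in
lemma Act.len {G : SimpleGraph V} {r : St V} {N : ℕ} {τ : List (Lab V) → ℕ} :
    ∀ {l}, Act G r N τ l → l.length + clk N τ l ≤ N
  | [], _ => by simp [clk]
  | c :: l, h => by
    have h1 := Act.len h.1
    have h2 := h.2.2.1
    simp only [clk, List.length_cons]
    omega

omit [Fintype V] in
lemma act_append {G : SimpleGraph V} {r : St V} {N : ℕ} {τ : List (Lab V) → ℕ}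
    (q : List (Lab V)) : ∀ m, Act G r N τ (q.reverse ++ m) →
      Act G r N τ m ∧ Pth G r τ q m (clk N τ m) := by
  induction q with
  | nil => intro m h; exact ⟨by simpa using h, trivial⟩
  | cons d q ih =>
    intro m h
    rw [List.reverse_cons, List.append_assoc, List.singleton_append] at h
    obtain ⟨h1, h2⟩ := ih _ h
    exact ⟨h1.1, h1.2.1, h1.2.2.1, h1.2.2.2, h2⟩

/-- The strict descendants of a node. -/
def Dn (N : ℕ) (l : List (Lab V)) : Set (Node V N) := {x | l <:+ x.1 ∧ l.length < x.1.length}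

omit [Fintype V] in
lemma xt_congrB {N : ℕ} {ω ω' : Node V N → Fin N} {P : List (Lab V) → Prop}
    (h : ∀ x : Node V N, P x.1 → ω x = ω' x) {l : List (Lab V)} (hl : P l) : xt ω l = xt ω' l := by
  unfold xt
  split_ifs with h1
  · rw [h ⟨l, h1⟩ hl]
  · rfl

omit [Fintype V] in
lemma agr_of_Dn {N : ℕ} {ω ω' : Node V N → Fin N} {l : List (Lab V)}
    (h : ∀ x ∈ Dn N l, ω x = ω' x) : Agr (xt ω) (xt ω') l := fun _ h1 h2 =>
  xt_congrB (P := fun x => l <:+ x ∧ l.length < x.length) h ⟨h1, h2⟩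

omit [Fintype V] in
lemma Dn_mono (N : ℕ) (p l : List (Lab V)) : Dn N (p ++ l) ⊆ Dn N l := fun _ hx =>
  ⟨(List.suffix_append p l).trans hx.1, lt_of_le_of_lt (by simp) hx.2⟩

omit [Fintype V] in
lemma eq_of_suffix {c d : Lab V} {m x : List (Lab V)} (h1 : c :: m <:+ x) (h2 : d :: m <:+ x) :
    c = d := by
  have := (List.suffix_of_suffix_length_le h1 h2 (by simp)).eq_of_length (by simp)
  simpa using this

/-- The growth factor. -/
def gr (N : ℕ) (a : ℕ → ℝ) (θ : ℝ) (s : ℕ) : ℝ := ∏ t ∈ range s, (1 + θ * a t / N)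

lemma one_le_gr (N : ℕ) {a : ℕ → ℝ} {θ : ℝ} (hθ : 0 ≤ θ) (ha0 : ∀ t, 0 ≤ a t) (s : ℕ) :
    1 ≤ gr N a θ s :=
  one_le_prod fun t _ => by
    have := ha0 t
    have : 0 ≤ θ * a t / N := by positivity
    linarith

lemma gr_mono (N : ℕ) {a : ℕ → ℝ} {θ : ℝ} (hθ : 0 ≤ θ) (ha0 : ∀ t, 0 ≤ a t) :
    Monotone (gr N a θ) := by
  refine monotone_nat_of_le_succ fun s => ?_
  have h1 := one_le_gr N hθ ha0 s
  have := ha0 s
  have h2 : 0 ≤ θ * a s / N := by positivity
  have h3 : gr N a θ (s + 1) = gr N a θ s * (1 + θ * a s / N) := prod_range_succ _ _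
  rw [h3]
  nlinarith

lemma sum_gr (N : ℕ) (a : ℕ → ℝ) (θ : ℝ) (s : ℕ) :
    θ * ∑ t ∈ range s, a t / N * gr N a θ t = gr N a θ s - 1 := by
  induction s with
  | zero => simp [gr]
  | succ s ih =>
    have h3 : gr N a θ (s + 1) = gr N a θ s * (1 + θ * a s / N) := prod_range_succ _ _
    rw [sum_range_succ, mul_add, ih, h3]
    ring

end

end Vale.Agent.P046
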