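import Vale.Agent.P046.Chain

/-! Normalised graph statistics and the calculus of words. -/

namespace Vale.Agent.P046

open Classical Finset

noncomputable section

variable {V : Type} [Fintype V]

/-- The number of vertices. -/
abbrev nV (V : Type) [Fintype V] : ℝ := Fintype.card V

/-- Average over the vertices. -/
def av (f : V → ℝ) : ℝ := (∑ w, f w) / nV V

/-- Adjacency indicator. -/
def X (G : SimpleGraph V) (a b : V) : ℝ := ind (G.Adj a b)

/-- Normalised adjacency indicator. -/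
def Xh (G : SimpleGraph V) (q : ℝ) (a b : V) : ℝ := X G a b / q

/-- Centred adjacency indicator. -/
def Yh (G : SimpleGraph V) (q : ℝ) (a b : V) : ℝ := X G a b / q - 1

/-- Relative deviation of the degree. -/
def beta (G : SimpleGraph V) (q : ℝ) (x : V) : ℝ := av (fun w => Xh G q x w) - 1

/-- Relative deviation of the codegree. -/
def zeta (G : SimpleGraph V) (q : ℝ) (x y : V) : ℝ := av (fun w => Xh G q x w * Xh G q y w) - 1

/-- Relative deviation of the number of triangles. -/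
def gam (G : SimpleGraph V) (q : ℝ) : ℝ := 6 * (tri G).card / (nV V ^ 3 * q ^ 3) - 1

/-- Degrees and codegrees are close to their expected values. -/
def Reg (G : SimpleGraph V) (q η : ℝ) : Prop :=
  (∀ x, |beta G q x| ≤ η) ∧ ∀ x y, x ≠ y → |zeta G q x y| ≤ η

/-- Discrepancy bound for all pairs of vertex sets. -/
def Disc (G : SimpleGraph V) (q κ : ℝ) : Prop :=
  ∀ U W : Finset V, |∑ u ∈ U, ∑ w ∈ W, X G u w - q * U.card * W.card| ≤
    κ * (q * U.card * W.card + nV V * q ^ 2 * (U.card + W.card))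

/-- Spectral bounds for all links and for the graph. -/
def Spec (G : SimpleGraph V) (q lam : ℝ) : Prop :=
  (∀ (x : V) (f g : V → ℝ), |∑ u, ∑ w, X G x u * X G x w * (f u * Yh G q u w * g w)| ≤
    lam * (nV V * q) * √(∑ u, X G x u * f u ^ 2) * √(∑ w, X G x w * g w ^ 2)) ∧
  ∀ f g : V → ℝ, |∑ u, ∑ w, f u * Yh G q u w * g w| ≤
    lam * nV V * √(∑ u, f u ^ 2) * √(∑ w, g w ^ 2)

/-- Kinds of letters. -/
inductive Kind
  | a | p | c | m
  deriving DecidableEq

instance : Fintype Kind := ⟨{.a, .p, .c, .m}, fun x => by cases x <;> simp⟩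

/-- Words: each letter is a swap flag and a kind; the head is applied last. -/
abbrev Word := List (Bool × Kind)

/-- The operator of a kind. -/
def op (G : SimpleGraph V) (q : ℝ) : Kind → (V → V → ℝ) → V → V → ℝ
  | .a, h, x, y => av fun w => Xh G q x w * Yh G q y w * h x w
  | .p, h, x, _ => av fun w => Xh G q x w * h x w
  | .c, h, x, _ => av fun w => Yh G q x w * h w w
  | .m, h, _, _ => av fun w => h w w

/-- Optional swap of the arguments. -/
def sw (b : Bool) (h : V → V → ℝ) (x y : V) : ℝ := bif b then h y x else h x y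

/-- The operator of a word. -/
def ev (G : SimpleGraph V) (q : ℝ) : Word → (V → V → ℝ) → V → V → ℝ
  | [], h => h
  | l :: Ω, h => sw l.1 (op G q l.2 (ev G q Ω h))

/-- The linearised evolution operator. -/
def Kop (G : SimpleGraph V) (q : ℝ) (h : V → V → ℝ) (x y : V) : ℝ :=
  av fun w => Xh G q x w * Xh G q y w * (h x w + h y w)

/-- Average over the edges. -/
def mean (G : SimpleGraph V) (q : ℝ) (h : V → V → ℝ) : ℝ :=
  av fun w => av fun z => Xh G q w z * h w z

lemma ev_mp (G : SimpleGraph V) (q : ℝ) (h : V → V → ℝ) (x y : V) :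
    ev G q [(false, .m), (false, .p)] h x y = mean G q h := rfl

/-- Valid words: the last letter is `a` or `p`, and `c`, `m` are followed by `p` or `c`. -/
def Val : Word → Prop
  | [] => True
  | [l] => l.2 = .a ∨ l.2 = .p
  | l :: l' :: Ω => Val (l' :: Ω) ∧ ((l.2 = .c ∨ l.2 = .m) → l'.2 = .p ∨ l'.2 = .c)

/-- Points at which the estimates for a word hold. -/
def Dom (Ω : Word) (x y : V) : Prop := x ≠ y ∨ ∃ l Ω', Ω = l :: Ω' ∧ l.2 ≠ .a

/-- The number of contracting letters. -/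
def small (Ω : Word) : ℕ := Ω.countP fun l => l.2 = .a ∨ l.2 = .c

/-- One if the last letter is `p`. -/
def diag (Ω : Word) : ℕ := if ∃ b, Ω.getLast? = some (b, .p) then 1 else 0

/-- The rank of a word. -/
def rank (Ω : Word) : ℕ := 2 * small Ω + diag Ω

/-- The weight of a word. -/
def wt (Ω : Word) : ℝ := (1 / 320) ^ rank Ω

/-- The tracked words. -/
def words (J : ℕ) : Finset Word :=
  (List.finite_length_le (Bool × Kind) (2 * J)).toFinset.filter fun Ω =>
    Val Ω ∧ (∀ l ∈ Ω, l.2 ≠ .m) ∧ Ω.length ≤ rank Ω ∧ small Ω < J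

lemma nil_mem_words {J : ℕ} (hJ : 0 < J) : [] ∈ words J := by
  simp [words, Val, small, hJ]

lemma p_mem_words {J : ℕ} (hJ : 0 < J) : [(false, Kind.p)] ∈ words J := by
  simp [words, Val, small, rank, diag, hJ]; omega

lemma wt_nil : wt [] = 1 := by simp [wt, rank, small, diag]

lemma wt_p : wt [(false, Kind.p)] = 1 / 320 := by simp [wt, rank, small, diag]

lemma wt_pos (Ω : Word) : 0 < wt Ω := by unfold wt; positivity

lemma wt_le_one (Ω : Word) : wt Ω ≤ 1 := pow_le_one₀ (by norm_num) (by norm_num)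

lemma diag_le_one (Ω : Word) : diag Ω ≤ 1 := by unfold diag; split_ifs <;> omega

lemma words_spec {J : ℕ} {Ω : Word} (h : Ω ∈ words J) :
    Val Ω ∧ Ω.length ≤ 2 * J ∧ (1 / 320 : ℝ) ^ (2 * J) ≤ wt Ω := by
  simp only [words, mem_filter, Set.Finite.mem_toFinset, Set.mem_ofPred_eq] at h
  refine ⟨h.2.1, h.1, pow_le_pow_of_le_one (by norm_num) (by norm_num) ?_⟩
  have := diag_le_one Ω
  have := h.2.2.2.2
  unfold rank
  omega

namespace W

omit [Fintype V] in
lemma X_nonneg (G : SimpleGraph V) (a b : V) : 0 ≤ X G a b := ind_nonneg _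

omit [Fintype V] in
lemma X_le_one (G : SimpleGraph V) (a b : V) : X G a b ≤ 1 := ind_le_one _

omit [Fintype V] in
lemma X_comm (G : SimpleGraph V) (a b : V) : X G a b = X G b a := ind_congr (G.adj_comm a b)

omit [Fintype V] in
lemma Xh_comm (G : SimpleGraph V) (q : ℝ) (a b : V) : Xh G q a b = Xh G q b a := by
  rw [Xh, Xh, X_comm]

omit [Fintype V] in
lemma Yh_eq (G : SimpleGraph V) (q : ℝ) (a b : V) : Yh G q a b = Xh G q a b - 1 := rfl

omit [Fintype V] in
lemma Xh_nonneg (G : SimpleGraph V) {q : ℝ} (hq : 0 < q) (a b : V) : 0 ≤ Xh G q a b :=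
  div_nonneg (X_nonneg G a b) hq.le

lemma nV_pos (x : V) : 0 < nV V := Nat.cast_pos.mpr (Fintype.card_pos_iff.mpr ⟨x⟩)

lemma av_add (f g : V → ℝ) : av (fun w => f w + g w) = av f + av g := by
  simp only [av, sum_add_distrib, add_div]

lemma av_sub (f g : V → ℝ) : av (fun w => f w - g w) = av f - av g := by
  simp only [av, sum_sub_distrib, sub_div]

lemma av_mul (c : ℝ) (f : V → ℝ) : av (fun w => c * f w) = c * av f := by
  simp only [av, ← mul_sum, mul_div_assoc]

lemma av_const (x : V) (c : ℝ) : av (fun _ : V => c) = c := by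
  have := nV_pos x
  simp only [av, sum_const, card_univ, nsmul_eq_mul]
  field_simp

lemma av_comm (f : V → V → ℝ) :
    av (fun a => av fun b => f a b) = av fun b => av fun a => f a b := by
  simp only [av, ← sum_div]
  rw [sum_comm]

lemma av_congr {f g : V → ℝ} (h : ∀ w, f w = g w) : av f = av g := by rw [funext h]

lemma av_mono {f g : V → ℝ} (h : ∀ w, f w ≤ g w) : av f ≤ av g :=
  div_le_div_of_nonneg_right (sum_le_sum fun w _ => h w) (Nat.cast_nonneg _)

lemma abs_av_le (f : V → ℝ) : |av f| ≤ av fun w => |f w| := by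
  unfold av
  rw [abs_div, Nat.abs_cast]
  exact div_le_div_of_nonneg_right (abs_sum_le_sum_abs _ _) (Nat.cast_nonneg _)

lemma abs_av_le_const {f : V → ℝ} {B : ℝ} (hB : 0 ≤ B) (h : ∀ w, |f w| ≤ B) : |av f| ≤ B := by
  rcases isEmpty_or_nonempty V with hV | ⟨⟨x⟩⟩
  · simpa [av] using hB
  · exact (abs_av_le f).trans ((av_mono h).trans (av_const x B).le)

/-- The operator of a letter as a linear map. -/
def lt (G : SimpleGraph V) (q : ℝ) (l : Bool × Kind) : (V → V → ℝ) →ₗ[ℝ] V → V → ℝ where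
  toFun h := sw l.1 (op G q l.2 h)
  map_add' h k := by
    obtain ⟨b, k'⟩ := l
    funext x y
    cases b <;> cases k' <;> simp only [sw, op, cond, Pi.add_apply, mul_add, av_add]
  map_smul' r h := by
    obtain ⟨b, k'⟩ := l
    funext x y
    cases b <;> cases k' <;>
      simp only [sw, op, cond, Pi.smul_apply, smul_eq_mul, RingHom.id_apply, ← av_mul] <;>
      exact av_congr fun w => by ring

lemma ev_cons (G : SimpleGraph V) (q : ℝ) (l : Bool × Kind) (Ω : Word) (h : V → V → ℝ) :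
    ev G q (l :: Ω) h = lt G q l (ev G q Ω h) := rfl

lemma ev_nil (G : SimpleGraph V) (q : ℝ) (h : V → V → ℝ) : ev G q [] h = h := rfl

lemma ev_add' (G : SimpleGraph V) (q : ℝ) (Ω : Word) (h k : V → V → ℝ) :
    ev G q Ω (h + k) = ev G q Ω h + ev G q Ω k := by
  induction Ω with
  | nil => rfl
  | cons l Ω ih => rw [ev_cons, ih, map_add, ev_cons, ev_cons]

lemma ev_smul (G : SimpleGraph V) (q : ℝ) (Ω : Word) (c : ℝ) (h : V → V → ℝ) :
    ev G q Ω (c • h) = c • ev G q Ω h := by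
  induction Ω with
  | nil => rfl
  | cons l Ω ih => rw [ev_cons, ih, map_smul, ev_cons]

end W

open W

lemma ev_add (G : SimpleGraph V) (q : ℝ) (Ω : Word) (h k : V → V → ℝ) (x y : V) :
    ev G q Ω (fun a b => h a b + k a b) x y = ev G q Ω h x y + ev G q Ω k x y :=
  congrFun (congrFun (ev_add' G q Ω h k) x) y

lemma ev_mul (G : SimpleGraph V) (q : ℝ) (Ω : Word) (c : ℝ) (h : V → V → ℝ) (x y : V) :
    ev G q Ω (fun a b => c * h a b) x y = c * ev G q Ω h x y :=
  congrFun (congrFun (ev_smul G q Ω c h) x) y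

namespace W

section Bounds

variable {G : SimpleGraph V} {q η : ℝ}

lemma av_Xh (G : SimpleGraph V) (q : ℝ) (x : V) : av (fun w => Xh G q x w) = 1 + beta G q x := by
  simp [beta]

lemma av_Xh_Xh (G : SimpleGraph V) (q : ℝ) (x y : V) :
    av (fun w => Xh G q x w * Xh G q y w) = 1 + zeta G q x y := by
  simp [zeta]

omit [Fintype V] in
lemma abs_X_mul {g : V → ℝ} {B : ℝ} (hq : 0 < q) {x : V} (hg : ∀ w, G.Adj x w → |g w| ≤ B)
    (w : V) : |Xh G q x w * g w| ≤ B * Xh G q x w := by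
  by_cases h : G.Adj x w
  · rw [abs_mul, abs_of_nonneg (Xh_nonneg G hq x w), mul_comm]
    exact mul_le_mul_of_nonneg_right (hg w h) (Xh_nonneg G hq x w)
  · simp [Xh, X, ind_neg h]

omit [Fintype V] in
lemma abs_Yh_le (hq : 0 < q) (x w : V) : |Yh G q x w| ≤ Xh G q x w + 1 := by
  have := Xh_nonneg G hq x w
  rw [Yh_eq, abs_le]
  constructor <;> linarith

lemma op_bound (hq : 0 < q) (hR : Reg G q η) (hη : η ≤ 1 / 2) {g : V → V → ℝ} {B : ℝ}
    (hB : 0 ≤ B) {k : Kind} {x y : V} (hxy : k = .a → x ≠ y)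
    (h1 : k = .a ∨ k = .p → ∀ w, G.Adj x w → |g x w| ≤ B)
    (h2 : k = .c ∨ k = .m → ∀ w, |g w w| ≤ B) : |op G q k g x y| ≤ 3 * B := by
  have hb := (abs_le.mp (hR.1 x)).2
  cases k with
  | a =>
    have hz := (abs_le.mp (hR.2 x y (hxy rfl))).2
    refine (abs_av_le _).trans ((av_mono (g := fun w =>
      B * (Xh G q x w * Xh G q y w + Xh G q x w)) fun w => ?_).trans ?_)
    · rw [mul_right_comm, abs_mul]
      refine (mul_le_mul (abs_X_mul hq (h1 (.inl rfl)) w) (abs_Yh_le hq y w) (abs_nonneg _)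
        (mul_nonneg hB (Xh_nonneg G hq x w))).trans_eq ?_
      ring
    · rw [av_mul, av_add, av_Xh, av_Xh_Xh]
      nlinarith
  | p =>
    refine (abs_av_le _).trans ((av_mono (abs_X_mul hq (h1 (.inr rfl)))).trans ?_)
    rw [av_mul, av_Xh]
    nlinarith
  | c =>
    refine (abs_av_le _).trans ((av_mono (g := fun w => B * (Xh G q x w + 1)) fun w => ?_).trans ?_)
    · rw [abs_mul, mul_comm]
      exact mul_le_mul (h2 (.inl rfl) w) (abs_Yh_le hq x w) (abs_nonneg _) hB
    · rw [av_mul, av_add, av_Xh, av_const x]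
      nlinarith
  | m => exact (abs_av_le_const hB (h2 (.inr rfl))).trans (by linarith)

lemma lt_bound (hq : 0 < q) (hR : Reg G q η) (hη : η ≤ 1 / 2) {g : V → V → ℝ} {B : ℝ}
    (hB : 0 ≤ B) {l : Bool × Kind} {Ω : Word} {x y : V} (hd : Dom (l :: Ω) x y)
    (h1 : l.2 = .a ∨ l.2 = .p → ∀ a b, G.Adj a b → |g a b| ≤ B)
    (h2 : l.2 = .c ∨ l.2 = .m → ∀ w, |g w w| ≤ B) : |lt G q l g x y| ≤ 3 * B := by
  have hxy : l.2 = .a → x ≠ y := fun h => hd.resolve_right (by
    rintro ⟨l', Ω', h3, h4⟩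
    exact h4 ((List.cons.inj h3).1 ▸ h))
  obtain ⟨b, k⟩ := l
  cases b
  · exact op_bound hq hR hη hB hxy (fun h => h1 h x) h2
  · exact op_bound hq hR hη hB (fun h => (hxy h).symm) (fun h => h1 h y) h2

/-- The head letter produces a function of one vertex. -/
def HeadV (Ω : Word) : Prop := ∃ l t, Ω = l :: t ∧ (l.2 = .p ∨ l.2 = .c)

omit [Fintype V] in
lemma HeadV.dom {Ω : Word} (h : HeadV Ω) (x y : V) : Dom Ω x y := by
  obtain ⟨l, t, rfl, h⟩ := h
  refine .inr ⟨l, t, rfl, fun h' => ?_⟩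
  rw [h'] at h
  simp at h

lemma val_tail {l : Bool × Kind} {Ω : Word} (h : Val (l :: Ω)) :
    Val Ω ∧ (l.2 = .c ∨ l.2 = .m → HeadV Ω) := by
  cases Ω with
  | nil =>
    refine ⟨trivial, fun h' => ?_⟩
    rcases h with h | h <;> rw [h] at h' <;> simp at h'
  | cons l' Ω => exact ⟨h.1, fun h' => ⟨l', Ω, rfl, h.2 h'⟩⟩

lemma val_cons {l : Bool × Kind} {Ω : Word} (h : Val Ω) (h0 : Ω ≠ [])
    (h1 : l.2 = .c ∨ l.2 = .m → HeadV Ω) : Val (l :: Ω) := by
  obtain ⟨l', Ω, rfl⟩ := List.exists_cons_of_ne_nil h0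
  refine ⟨h, fun h' => ?_⟩
  obtain ⟨l'', t, h2, h3⟩ := h1 h'
  exact (List.cons.inj h2).1 ▸ h3

end Bounds

end W

/-- Crude bound. -/
theorem ev_crude {G : SimpleGraph V} {q η s : ℝ} (hq : 0 < q) (hR : Reg G q η) (hη : η ≤ 1 / 2)
    {h : V → V → ℝ} (hs0 : 0 ≤ s) (hs : ∀ x y, G.Adj x y → |h x y| ≤ s) {Ω : Word} (hΩ : Val Ω)
    {x y : V} (hd : Dom Ω x y) (h0 : Ω = [] → |h x y| ≤ s) :
    |ev G q Ω h x y| ≤ 6 ^ Ω.length * s := by
  induction Ω generalizing x y with
  | nil => simpa [ev] using h0 rfl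
  | cons l Ω ih =>
    have hB : 0 ≤ 6 ^ Ω.length * s := by positivity
    refine (lt_bound hq hR hη hB hd (fun _ a b hab => ih (val_tail hΩ).1 (.inl hab.ne) fun _ => hs a b hab)
      fun h1 w => ih (val_tail hΩ).1 (((val_tail hΩ).2 h1).dom w w) fun h2 => ?_).trans ?_
    · obtain ⟨l', t, h3, -⟩ := (val_tail hΩ).2 h1
      simp [h2] at h3
    · rw [List.length_cons, pow_succ]
      linarith

namespace W

section Rules

variable {G : SimpleGraph V} {q η s : ℝ} {h : V → V → ℝ}

lemma Kop_eq (G : SimpleGraph V) (q : ℝ) (h : V → V → ℝ) : Kop G q h =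
    lt G q (false, .a) h + lt G q (true, .a) h + lt G q (false, .p) h + lt G q (true, .p) h := by
  funext x y
  simp only [Kop, lt, sw, op, cond, Pi.add_apply, LinearMap.coe_mk, AddHom.coe_mk, ← av_add]
  exact av_congr fun w => by rw [Yh_eq, Yh_eq]; ring

lemma a_p (G : SimpleGraph V) (q : ℝ) (h : V → V → ℝ) (x y : V) :
    op G q .a (op G q .p h) x y = op G q .p h x x * (zeta G q x y - beta G q x) := by
  have e : zeta G q x y - beta G q x = av fun w => Xh G q x w * Xh G q y w - Xh G q x w := by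
    rw [av_sub, av_Xh, av_Xh_Xh]; ring
  rw [e, ← av_mul]
  exact av_congr fun w => by simp only [op, Yh_eq]; ring

lemma p_a (G : SimpleGraph V) (q : ℝ) (h : V → V → ℝ) (x y : V) :
    op G q .p (op G q .a h) x y =
      op G q .p (fun a b => h a b * (zeta G q a b - beta G q a)) x y := by
  simp only [op, ← av_mul]
  rw [av_comm]
  refine av_congr fun z => ?_
  have e : zeta G q x z - beta G q x = av fun w => Xh G q x w * Xh G q z w - Xh G q x w := by
    rw [av_sub, av_Xh, av_Xh_Xh]; ring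
  rw [e, ← av_mul, ← av_mul]
  exact av_congr fun w => by rw [Yh_eq, Xh_comm G q w z]; ring

lemma p_p (G : SimpleGraph V) (q : ℝ) (h : V → V → ℝ) (x y : V) :
    op G q .p (op G q .p h) x y = op G q .p h x y + beta G q x * op G q .p h x y := by
  have e : op G q .p (op G q .p h) x y = av fun w => op G q .p h x y * Xh G q x w :=
    av_congr fun w => mul_comm _ _
  rw [e, av_mul, av_Xh]
  ring

lemma p_sp (G : SimpleGraph V) (q : ℝ) (h : V → V → ℝ) (x y : V) :
    op G q .p (sw true (op G q .p h)) x y = op G q .c (op G q .p h) x y + mean G q h := by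
  simp only [op, mean, sw, cond, ← av_add]
  exact av_congr fun w => by rw [Yh_eq]; ring

lemma abs_p_le (hq : 0 < q) (hR : Reg G q η) (hη : η ≤ 1 / 2) (hs0 : 0 ≤ s)
    (hs : ∀ x y, G.Adj x y → |h x y| ≤ s) (x y : V) : |op G q .p h x y| ≤ 3 * s :=
  op_bound hq hR hη hs0 (by simp) (fun _ => hs x) (by simp)

lemma abs_zb_le (hR : Reg G q η) {x y : V} (hxy : x ≠ y) : |zeta G q x y - beta G q x| ≤ 2 * η :=
  (abs_sub _ _).trans (by linarith [hR.1 x, hR.2 x y hxy])

lemma abs_p_a (hq : 0 < q) (hR : Reg G q η) (hη : η ≤ 1 / 2) (hs0 : 0 ≤ s)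
    (hs : ∀ x y, G.Adj x y → |h x y| ≤ s) (x y : V) :
    |op G q .p (op G q .a h) x y| ≤ 6 * (η * s) := by
  have hη0 : 0 ≤ η := (abs_nonneg _).trans (hR.1 x)
  rw [p_a]
  refine (abs_p_le (s := s * (2 * η)) hq hR hη (by positivity) (fun a b hab => ?_) x y).trans_eq
    (by ring)
  rw [abs_mul]
  exact mul_le_mul (hs a b hab) (abs_zb_le hR hab.ne) (abs_nonneg _) hs0

lemma abs_beta_p (hq : 0 < q) (hR : Reg G q η) (hη : η ≤ 1 / 2) (hs0 : 0 ≤ s)
    (hs : ∀ x y, G.Adj x y → |h x y| ≤ s) (x y : V) :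
    |beta G q x * op G q .p h x y| ≤ 3 * (η * s) := by
  rw [abs_mul]
  exact (mul_le_mul (hR.1 x) (abs_p_le hq hR hη hs0 hs x y) (abs_nonneg _)
    ((abs_nonneg _).trans (hR.1 x))).trans_eq (by ring)

lemma mean_sw (G : SimpleGraph V) (q : ℝ) (g : V → V → ℝ) : mean G q (sw true g) = mean G q g := by
  unfold mean
  rw [av_comm]
  exact av_congr fun w => av_congr fun z => by rw [Xh_comm]; rfl

lemma mean_add (G : SimpleGraph V) (q : ℝ) (g k : V → V → ℝ) :
    mean G q (g + k) = mean G q g + mean G q k := by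
  simp only [mean, Pi.add_apply, mul_add, av_add]

end Rules

end W

theorem mean_Kop {G : SimpleGraph V} {q η s : ℝ} (hq : 0 < q) (hR : Reg G q η) (hη0 : 0 ≤ η)
    (hη : η ≤ 1 / 2) {h : V → V → ℝ} (hs0 : 0 ≤ s) (hs : ∀ x y, G.Adj x y → |h x y| ≤ s) :
    |mean G q (Kop G q h) - 2 * mean G q h| ≤ 20 * η * s := by
  have h0 : 0 ≤ η * s := by positivity
  have e1 : mean G q (lt G q (true, .a) h) = mean G q (op G q .a h) := mean_sw G q _
  have e2 : mean G q (lt G q (true, .p) h) = mean G q (op G q .p h) := mean_sw G q _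
  have e3 : mean G q (lt G q (false, .a) h) = mean G q (op G q .a h) := rfl
  have e4 : mean G q (lt G q (false, .p) h) = mean G q (op G q .p h) := rfl
  have h1 : |mean G q (op G q .a h)| ≤ 6 * (η * s) :=
    abs_av_le_const (by positivity) fun w => abs_p_a hq hR hη hs0 hs w w
  have h2 : |mean G q (op G q .p h) - mean G q h| ≤ 3 * (η * s) := by
    unfold mean
    rw [← av_sub]
    refine abs_av_le_const (by positivity) fun w => ?_
    have := p_p G q h w w
    have h3 := abs_beta_p hq hR hη hs0 hs w w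
    simp only [op] at this h3 ⊢
    rwa [this, add_sub_cancel_left]
  rw [Kop_eq, mean_add, mean_add, mean_add, e1, e2, e3, e4]
  rw [abs_le] at *
  constructor <;> linarith [h1.1, h1.2, h2.1, h2.2]

namespace W

/-- The words produced by the evolution operator. -/
def nxt : Word → List Word
  | [] => [[(false, .a)], [(true, .a)], [(false, .p)], [(true, .p)]]
  | [l] => if l.2 = .a then [[l, (false, .a)], [l, (true, .a)], [l, (true, .p)]]
      else [[l, (true, .a)], [(l.1, .c), (false, .p)]]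
  | l :: l' :: Ω => (nxt (l' :: Ω)).map (l :: ·)

lemma nxt_length : ∀ Ω : Word, (nxt Ω).length ≤ 4
  | [] => le_rfl
  | [l] => by rw [nxt]; split_ifs <;> simp
  | _ :: l' :: Ω => by rw [nxt, List.length_map]; exact nxt_length (l' :: Ω)

lemma diag_cons (l : Bool × Kind) {Ω : Word} (h : Ω ≠ []) : diag (l :: Ω) = diag Ω := by
  obtain ⟨l', Ω, rfl⟩ := List.exists_cons_of_ne_nil h
  simp only [diag, List.getLast?_cons_cons]

lemma nxt_spec : ∀ Ω : Word, Val Ω → (∀ l ∈ Ω, l.2 ≠ .m) → ∀ Ω' ∈ nxt Ω, Ω' ≠ [] ∧ Val Ω' ∧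
    (∀ l ∈ Ω', l.2 ≠ .m) ∧ Ω'.length = Ω.length + 1 ∧ rank Ω + 1 ≤ rank Ω' ∧ (HeadV Ω → HeadV Ω')
  | [], _, _ => by simp [nxt, Val, rank, small, diag, HeadV]
  | [(b, k)], h, _ => by
    rcases h with h | h <;> simp only at h <;> subst h <;> cases b <;>
      simp [nxt, Val, rank, small, diag, HeadV]
  | l :: l' :: Ω, h, hm => by
    intro Ω' hΩ'
    rw [nxt, List.mem_map] at hΩ'
    obtain ⟨Ω', h1, rfl⟩ := hΩ'
    obtain ⟨h2, h3, h4, h5, h6, h7⟩ := nxt_spec (l' :: Ω) h.1
      (fun k hk => hm k (List.mem_cons_of_mem _ hk)) Ω' h1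
    refine ⟨by simp, val_cons h3 h2 fun h' => h7 ((val_tail h).2 h'), ?_, by simp [h5], ?_, ?_⟩
    · intro k hk
      rcases List.mem_cons.mp hk with rfl | hk
      · exact hm _ List.mem_cons_self
      · exact h4 k hk
    · unfold rank small at *
      rw [diag_cons l h2, diag_cons l (List.cons_ne_nil _ _), List.countP_cons (l := Ω'),
        List.countP_cons (l := l' :: Ω)]
      omega
    · rintro ⟨k, t, e, hk⟩
      exact ⟨l, Ω', rfl, (List.cons.inj e).1 ▸ hk⟩

/-- The error of the expansion. -/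
def err (G : SimpleGraph V) (q : ℝ) (h : V → V → ℝ) (Ω : Word) : V → V → ℝ :=
  ev G q Ω (Kop G q h) - (diag Ω : ℝ) • ev G q Ω h - ((nxt Ω).map fun Ω' => ev G q Ω' h).sum

lemma err_nil (G : SimpleGraph V) (q : ℝ) (h : V → V → ℝ) : err G q h [] = 0 := by
  simp only [err, ev, Kop_eq, nxt, diag, List.map, List.sum_cons, List.sum_nil]
  simp only [lt, LinearMap.coe_mk, AddHom.coe_mk]
  simp
  abel

lemma err_cons (G : SimpleGraph V) (q : ℝ) (h : V → V → ℝ) (l l' : Bool × Kind) (Ω : Word) :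
    err G q h (l :: l' :: Ω) = lt G q l (err G q h (l' :: Ω)) := by
  unfold err
  rw [map_sub, map_sub, map_smul, map_list_sum, diag_cons l (List.cons_ne_nil _ _), nxt,
    List.map_map, List.map_map]
  rfl

lemma err_a (G : SimpleGraph V) (q : ℝ) (h : V → V → ℝ) (b : Bool) :
    err G q h [(b, .a)] = sw b (op G q .a (op G q .p h)) := by
  have e : err G q h [(b, .a)] = lt G q (b, .a) (lt G q (false, .p) h) := by
    simp only [err, ev_cons, ev_nil, Kop_eq, nxt, diag, map_add]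
    simp [ev_cons, ev_nil]
    abel
  exact e

lemma err_p (G : SimpleGraph V) (q : ℝ) (h : V → V → ℝ) (b : Bool) :
    err G q h [(b, .p)] = sw b fun x y => op G q .p (op G q .a h) x y +
      beta G q x * op G q .p h x y + mean G q h := by
  have e : err G q h [(b, .p)] = lt G q (b, .p) (lt G q (false, .a) h) +
      lt G q (b, .p) (lt G q (false, .p) h) - lt G q (b, .p) h +
      lt G q (b, .p) (lt G q (true, .p) h) - lt G q (b, .c) (lt G q (false, .p) h) := by
    simp only [err, ev_cons, ev_nil, Kop_eq, nxt, diag, map_add]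
    simp [ev_cons, ev_nil]
    abel
  rw [e]
  funext x y
  have e1 := p_p G q h
  have e2 := p_sp G q h
  cases b
  · change op G q .p (op G q .a h) x y + op G q .p (op G q .p h) x y - op G q .p h x y +
      op G q .p (sw true (op G q .p h)) x y - op G q .c (op G q .p h) x y = _
    rw [e1, e2, sw, cond]
    ring
  · change op G q .p (op G q .a h) y x + op G q .p (op G q .p h) y x - op G q .p h y x +
      op G q .p (sw true (op G q .p h)) y x - op G q .c (op G q .p h) y x = _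
    rw [e1, e2, sw, cond]
    ring

lemma err_le {G : SimpleGraph V} {q η s : ℝ} (hq : 0 < q) (hR : Reg G q η) (hη0 : 0 ≤ η)
    (hη : η ≤ 1 / 2) {h : V → V → ℝ} (hs0 : 0 ≤ s) (hs : ∀ x y, G.Adj x y → |h x y| ≤ s) :
    ∀ Ω : Word, Val Ω → ∀ x y, Dom Ω x y →
      |err G q h Ω x y| ≤ 3 ^ Ω.length * (3 * (η * s + |mean G q h|))
  | [], _, x, y, _ => by rw [err_nil]; simp only [Pi.zero_apply, abs_zero]; positivity
  | [(b, k)], hΩ, x, y, hd => by
    have h0 : 0 ≤ η * s := by positivity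
    have h1 := abs_nonneg (mean G q h)
    rw [List.length_singleton, pow_one]
    rcases hΩ with hΩ | hΩ <;> simp only at hΩ <;> subst hΩ
    · have hxy : x ≠ y := hd.resolve_right (by simp)
      have key : ∀ x y, x ≠ y → |op G q .a (op G q .p h) x y| ≤ 6 * (η * s) := fun x y hxy => by
        rw [a_p, abs_mul]
        exact (mul_le_mul (abs_p_le hq hR hη hs0 hs x x) (abs_zb_le hR hxy) (abs_nonneg _)
          (by positivity)).trans_eq (by ring)
      rw [err_a]
      cases b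
      · exact (key x y hxy).trans (by linarith)
      · exact (key y x hxy.symm).trans (by linarith)
    · have key : ∀ x y, |op G q .p (op G q .a h) x y + beta G q x * op G q .p h x y +
          mean G q h| ≤ 3 * (3 * (η * s + |mean G q h|)) := fun x y => by
        refine (abs_add_three _ _ _).trans ?_
        linarith [abs_p_a hq hR hη hs0 hs x y, abs_beta_p hq hR hη hs0 hs x y]
      rw [err_p]
      cases b
      · exact key x y
      · exact key y x
  | l :: l' :: Ω, hΩ, x, y, hd => by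
    have ih := err_le hq hR hη0 hη hs0 hs (l' :: Ω) hΩ.1
    rw [err_cons]
    refine (lt_bound hq hR hη (by positivity) hd (fun _ a b hab => ih a b (.inl hab.ne))
      fun h1 w => ih w w (((val_tail hΩ).2 h1).dom w w)).trans_eq ?_
    rw [List.length_cons (as := l' :: Ω), pow_succ]
    ring

/-- Squared norm on the edges. -/
def E2 (G : SimpleGraph V) (g : V → V → ℝ) : ℝ := ∑ a, ∑ b, X G a b * g a b ^ 2

/-- Squared norm on the diagonal. -/
def D2 (q : ℝ) (g : V → V → ℝ) : ℝ := nV V * q * ∑ w, g w w ^ 2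

lemma E2_nonneg (G : SimpleGraph V) (g : V → V → ℝ) : 0 ≤ E2 G g :=
  sum_nonneg fun a _ => sum_nonneg fun b _ => mul_nonneg (X_nonneg G a b) (sq_nonneg _)

lemma E2_sw (G : SimpleGraph V) (b : Bool) (g : V → V → ℝ) : E2 G (sw b g) = E2 G g := by
  cases b
  · rfl
  · unfold E2
    rw [sum_comm]
    exact sum_congr rfl fun a _ => sum_congr rfl fun b _ => by rw [X_comm]; rfl

lemma D2_sw (q : ℝ) (b : Bool) (g : V → V → ℝ) : D2 q (sw b g) = D2 q g := by cases b <;> rfl

lemma le_sq_of_le {u v lam : ℝ} (hu : 0 ≤ u) (hv : 0 ≤ v) (h : u ≤ lam * √u * √v) :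
    u ≤ lam ^ 2 * v := by
  have h1 := Real.sq_sqrt hu
  have h2 := Real.sq_sqrt hv
  nlinarith [sq_nonneg (√u - lam * √v)]

section Norms

variable {G : SimpleGraph V} {q η lam : ℝ}

lemma sum_X_le (hq : 0 < q) (hR : Reg G q η) (hη : η ≤ 1 / 2) (x : V) :
    ∑ w, X G x w ≤ 2 * (nV V * q) := by
  have h1 := (abs_le.mp (hR.1 x)).2
  have h2 := nV_pos x
  have h3 : beta G q x = (∑ w, X G x w) / (nV V * q) - 1 := by
    simp only [beta, av, Xh, ← sum_div]
    rw [div_div, mul_comm]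
  rw [← div_le_iff₀ (by positivity)]
  linarith

lemma E2_a (hq : 0 < q) (hS : Spec G q lam) (g : V → V → ℝ) :
    E2 G (op G q .a g) ≤ lam ^ 2 * E2 G g := by
  unfold E2
  rw [mul_sum]
  refine sum_le_sum fun x _ => le_sq_of_le
    (sum_nonneg fun b _ => mul_nonneg (X_nonneg G x b) (sq_nonneg _))
    (sum_nonneg fun b _ => mul_nonneg (X_nonneg G x b) (sq_nonneg _)) ?_
  have h1 := (le_abs_self _).trans (hS.1 x (op G q .a g x) (g x))
  have h2 := nV_pos x
  have h3 : ∑ u, ∑ w, X G x u * X G x w * (op G q .a g x u * Yh G q u w * g x w) =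
      (nV V * q) * ∑ u, X G x u * op G q .a g x u ^ 2 := by
    rw [mul_sum]
    refine sum_congr rfl fun u _ => ?_
    have e : op G q .a g x u = (∑ w, X G x w * Yh G q u w * g x w) / (nV V * q) := by
      simp only [op, av, Xh]
      rw [mul_comm (nV V), ← div_div, sum_div _ _ q]
      congr 1
      exact sum_congr rfl fun w _ => by ring
    have e2 : ∑ w, X G x u * X G x w * (op G q .a g x u * Yh G q u w * g x w) =
        X G x u * op G q .a g x u * ∑ w, X G x w * Yh G q u w * g x w := by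
      rw [mul_sum]
      exact sum_congr rfl fun w _ => by ring
    rw [e2, sq]
    nth_rewrite 3 [e]
    field_simp
  rw [h3] at h1
  refine le_of_mul_le_mul_left (h1.trans_eq ?_) (mul_pos h2 hq)
  ring

lemma D2_c (hq : 0 < q) (hS : Spec G q lam) (g : V → V → ℝ) :
    D2 q (op G q .c g) ≤ lam ^ 2 * D2 q g := by
  rcases isEmpty_or_nonempty V with hV | ⟨⟨x⟩⟩
  · simp [D2]
  have h2 := nV_pos x
  unfold D2
  rw [mul_left_comm]
  refine mul_le_mul_of_nonneg_left (le_sq_of_le (by positivity) (by positivity) ?_) (by positivity)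
  have h1 := (le_abs_self _).trans (hS.2 (fun u => op G q .c g u u) fun w => g w w)
  have h3 : ∑ u, ∑ w, op G q .c g u u * Yh G q u w * g w w = nV V * ∑ u, op G q .c g u u ^ 2 := by
    rw [mul_sum]
    refine sum_congr rfl fun u _ => ?_
    have e : op G q .c g u u = (∑ w, Yh G q u w * g w w) / nV V := rfl
    simp only [mul_assoc, ← mul_sum]
    rw [sq]
    nth_rewrite 3 [e]
    field_simp
  rw [h3] at h1
  refine le_of_mul_le_mul_left (h1.trans_eq ?_) h2
  ring

lemma D2_p (hq : 0 < q) (hR : Reg G q η) (hη : η ≤ 1 / 2) (g : V → V → ℝ) :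
    D2 q (op G q .p g) ≤ 2 * E2 G g := by
  unfold D2 E2
  rw [mul_sum, mul_sum]
  refine sum_le_sum fun x _ => ?_
  have h2 := nV_pos x
  have e : op G q .p g x x = (∑ w, X G x w * g x w) / (nV V * q) := by
    simp only [op, av, Xh]
    rw [mul_comm (nV V), ← div_div, sum_div _ _ q]
    congr 1
    exact sum_congr rfl fun w _ => by ring
  have h1 : (∑ w, X G x w * g x w) ^ 2 ≤ (∑ w, X G x w) * ∑ w, X G x w * g x w ^ 2 :=
    sum_sq_le_sum_mul_sum_of_sq_le_mul _ (fun w _ => X_nonneg G x w)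
      (fun w _ => mul_nonneg (X_nonneg G x w) (sq_nonneg _)) fun w _ => le_of_eq (by ring)
  have h3 := mul_le_mul_of_nonneg_right (sum_X_le hq hR hη x)
    (sum_nonneg fun w _ => mul_nonneg (X_nonneg G x w) (sq_nonneg (g x w)) :
      0 ≤ ∑ w, X G x w * g x w ^ 2)
  have h4 : nV V * q * op G q .p g x x ^ 2 = (∑ w, X G x w * g x w) ^ 2 / (nV V * q) := by
    rw [e]
    field_simp
  rw [h4, div_le_iff₀ (by positivity)]
  linarith

lemma E2_le_D2 (hq : 0 < q) (hR : Reg G q η) (hη : η ≤ 1 / 2) {g : V → V → ℝ}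
    (hg : ∀ x y, g x y = g x x) : E2 G g ≤ 2 * D2 q g := by
  unfold D2 E2
  rw [mul_sum, mul_sum]
  refine sum_le_sum fun x _ => ?_
  rw [sum_congr rfl fun y _ => by rw [hg x y], ← sum_mul, ← mul_assoc]
  exact mul_le_mul_of_nonneg_right (sum_X_le hq hR hη x) (sq_nonneg _)

lemma ev_norm (hq : 0 < q) (hR : Reg G q η) (hη : η ≤ 1 / 2) (hS : Spec G q lam) (h : V → V → ℝ)
    (Ω : Word) (hΩ : Val Ω) (hm : ∀ l ∈ Ω, l.2 ≠ .m) :
    E2 G (ev G q Ω h) ≤ (2 ^ Ω.length * lam ^ small Ω) ^ 2 * E2 G h ∧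
      (HeadV Ω → D2 q (ev G q Ω h) ≤ (2 ^ Ω.length * lam ^ small Ω) ^ 2 * E2 G h) := by
  induction Ω with
  | nil => exact ⟨by simp [ev, small], fun ⟨_, _, h, _⟩ => by simp at h⟩
  | cons l Ω ih =>
    obtain ⟨i1, i2⟩ := ih (val_tail hΩ).1 fun k hk => hm k (List.mem_cons_of_mem _ hk)
    have h0 : 0 ≤ (2 ^ Ω.length * lam ^ small Ω) ^ 2 * E2 G h :=
      mul_nonneg (sq_nonneg _) (E2_nonneg G h)
    have h1 := mul_nonneg (sq_nonneg lam) h0
    obtain ⟨b, k⟩ := l
    rw [ev, E2_sw, D2_sw, List.length_cons, pow_succ _ Ω.length]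
    cases k with
    | a =>
      have e : small ((b, Kind.a) :: Ω) = small Ω + 1 := by simp [small]
      refine ⟨(E2_a hq hS _).trans ?_, fun ⟨_, _, h2, h3⟩ => ?_⟩
      · rw [e, pow_succ lam (small Ω)]
        nlinarith [mul_le_mul_of_nonneg_left i1 (sq_nonneg lam)]
      · rw [← (List.cons.inj h2).1] at h3
        simp at h3
    | p =>
      have e : small ((b, Kind.p) :: Ω) = small Ω := by simp [small]
      have h2 := D2_p hq hR hη (ev G q Ω h)
      have h3 := E2_le_D2 hq hR hη (g := op G q .p (ev G q Ω h)) fun _ _ => rfl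
      rw [e]
      exact ⟨by nlinarith, fun _ => by nlinarith⟩
    | c =>
      have e : small ((b, Kind.c) :: Ω) = small Ω + 1 := by simp [small]
      have h2 := (D2_c hq hS (ev G q Ω h)).trans
        (mul_le_mul_of_nonneg_left (i2 ((val_tail hΩ).2 (.inl rfl))) (sq_nonneg lam))
      have h3 := E2_le_D2 hq hR hη (g := op G q .c (ev G q Ω h)) fun _ _ => rfl
      rw [e, pow_succ lam (small Ω)]
      exact ⟨by nlinarith, fun _ => by nlinarith⟩
    | m => exact absurd rfl (hm _ List.mem_cons_self)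

lemma ev_long (hq : 0 < q) (hn : 1 ≤ nV V * q) (hR : Reg G q η) (hη : η ≤ 1 / 2)
    (hS : Spec G q lam) (hl : 0 ≤ lam) {h : V → V → ℝ} {s : ℝ} (hs0 : 0 ≤ s)
    (hs : ∀ x y, G.Adj x y → |h x y| ≤ s) {l : Bool × Kind} {Ω : Word} (hΩ : Val (l :: Ω))
    (hm : ∀ k ∈ l :: Ω, k.2 ≠ .m) {x y : V} (hxy : x ≠ y) :
    |ev G q (l :: Ω) h x y| ≤ 3 * (2 ^ Ω.length * lam ^ small Ω * (nV V * s)) := by
  obtain ⟨i1, i2⟩ := ev_norm hq hR hη hS h Ω (val_tail hΩ).1 fun k hk => hm k (List.mem_cons_of_mem _ hk)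
  have h1 : E2 G h ≤ (nV V * s) ^ 2 := by
    have : E2 G h ≤ ∑ _a : V, ∑ _b : V, s ^ 2 := sum_le_sum fun a _ => sum_le_sum fun b _ => by
      by_cases hab : G.Adj a b
      · rw [X, ind_pos hab, one_mul]
        exact sq_le_sq' (abs_le.mp (hs a b hab)).1 (abs_le.mp (hs a b hab)).2
      · rw [X, ind_neg hab, zero_mul]
        positivity
    simp only [sum_const, card_univ, nsmul_eq_mul] at this
    exact this.trans_eq (by ring)
  have h2 := (mul_le_mul_of_nonneg_left h1 (sq_nonneg (2 ^ Ω.length * lam ^ small Ω))).trans_eq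
    (mul_pow _ _ _).symm
  have hB : 0 ≤ 2 ^ Ω.length * lam ^ small Ω * (nV V * s) := by positivity
  refine lt_bound hq hR hη hB (Ω := Ω) (.inl hxy) (fun _ a b hab => abs_le_of_sq_le_sq' ?_ hB |>
    abs_le.mpr) fun h3 w => abs_le_of_sq_le_sq' ?_ hB |> abs_le.mpr
  · refine le_trans ?_ (i1.trans h2)
    have h4 : ∀ u v, 0 ≤ X G u v * ev G q Ω h u v ^ 2 := fun u v =>
      mul_nonneg (X_nonneg G u v) (sq_nonneg _)
    refine le_trans ?_ ((single_le_sum (fun v _ => h4 a v) (mem_univ b)).trans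
      (single_le_sum (fun u _ => sum_nonneg fun v _ => h4 u v) (mem_univ a)))
    rw [X, ind_pos hab, one_mul]
  · refine le_trans ?_ ((i2 ((val_tail hΩ).2 h3)).trans h2)
    exact (single_le_sum (f := fun w => ev G q Ω h w w ^ 2) (fun u _ => sq_nonneg _)
      (mem_univ w)).trans (le_mul_of_one_le_left (by positivity) hn)

end Norms

end W

/-- The closure estimate. -/
theorem closure (J : ℕ) : ∃ C : ℝ, 1 ≤ C ∧ ∀ {V : Type} [Fintype V] {G : SimpleGraph V}
    {q η lam s A : ℝ} {h : V → V → ℝ} {x y : V}, 0 < q → 1 ≤ nV V * q → Reg G q η → η ≤ 1 / 2 →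
    Spec G q lam → 0 ≤ lam → lam ≤ 1 → 0 ≤ s → 0 ≤ A → (∀ a b, G.Adj a b → |h a b| ≤ s) → x ≠ y →
    (∀ Ω ∈ words J, |ev G q Ω h x y| ≤ wt Ω * A) → ∀ Ω ∈ words J,
    |ev G q Ω (Kop G q h) x y - diag Ω * ev G q Ω h x y| ≤
      wt Ω * A / 80 + C * (η * s + |mean G q h| + nV V * lam ^ (J - 1) * s) := by
  refine ⟨12 * 3 ^ (2 * J), one_le_mul_of_one_le_of_one_le (by norm_num)
    (one_le_pow₀ (by norm_num)), ?_⟩
  intro V _ G q η lam s A h x y hq hn hR hη hS hl hl1 hs0 hA hs hxy hw Ω hΩ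
  have hη0 : 0 ≤ η := (abs_nonneg _).trans (hR.1 x)
  simp only [words, mem_filter, Set.Finite.mem_toFinset, Set.mem_ofPred_eq] at hΩ hw
  obtain ⟨h1, h2, h3, h4, h5⟩ := hΩ
  have he := err_le hq hR hη0 hη hs0 hs Ω h2 x y (.inl hxy)
  have hw0 := wt_pos Ω
  set B := wt Ω * A / 320 + 3 * 3 ^ (2 * J) * (nV V * lam ^ (J - 1) * s) with hB
  have hL : 0 ≤ 3 * 3 ^ (2 * J) * (nV V * lam ^ (J - 1) * s) := by positivity
  have hB0 : 0 ≤ B := by positivity
  have key : ∀ Ω' ∈ nxt Ω, |ev G q Ω' h x y| ≤ B := fun Ω' hΩ' => by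
    obtain ⟨k1, k2, k3, k4, k5, -⟩ := nxt_spec Ω h2 h3 Ω' hΩ'
    by_cases k6 : small Ω' < J
    · have k7 : rank Ω' ≤ 2 * J := by
        have := diag_le_one Ω'
        unfold rank
        omega
      refine (hw Ω' ⟨by omega, k2, k3, by omega, k6⟩).trans (le_add_of_le_of_nonneg ?_ hL)
      have : wt Ω' ≤ wt Ω / 320 :=
        (pow_le_pow_of_le_one (by norm_num) (by norm_num) k5).trans_eq (by rw [pow_succ, wt]; ring)
      exact (mul_le_mul_of_nonneg_right this hA).trans_eq (by ring)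
    · obtain ⟨l, Ω', rfl⟩ := List.exists_cons_of_ne_nil k1
      refine (ev_long hq hn hR hη hS hl hs0 hs k2 k3 hxy).trans
        (le_add_of_nonneg_of_le (by positivity) ?_)
      have k7 : J - 1 ≤ small Ω' := by
        unfold small at *
        rw [List.countP_cons] at k6
        split_ifs at k6 <;> omega
      have k8 : (2 : ℝ) ^ Ω'.length ≤ 3 ^ (2 * J) := (pow_le_pow_left₀ (by norm_num) (by norm_num)
        _).trans (pow_le_pow_right₀ (by norm_num) (by simp at k4; omega))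
      have k9 := mul_le_mul k8 (pow_le_pow_of_le_one hl hl1 k7) (by positivity) (by positivity)
      nlinarith [mul_le_mul_of_nonneg_right k9 (by positivity : 0 ≤ nV V * s)]
  have hsum : ∀ L : List Word, (∀ Ω' ∈ L, |ev G q Ω' h x y| ≤ B) →
      |(L.map fun Ω' => ev G q Ω' h).sum x y| ≤ L.length * B := fun L => by
    induction L with
    | nil => simp
    | cons Ω' L ih =>
      intro hL
      rw [List.map_cons, List.sum_cons, List.length_cons, Nat.cast_succ, add_mul, one_mul, add_comm]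
      exact (abs_add_le _ _).trans (add_le_add (ih fun k hk => hL k (List.mem_cons_of_mem _ hk))
        (hL _ List.mem_cons_self))
  have h6 := (hsum _ key).trans (mul_le_mul_of_nonneg_right
    (Nat.cast_le.mpr (nxt_length Ω)) hB0)
  have e : ev G q Ω (Kop G q h) x y - diag Ω * ev G q Ω h x y =
      err G q h Ω x y + ((nxt Ω).map fun Ω' => ev G q Ω' h).sum x y := by simp [err]
  have h7 : (3 : ℝ) ^ Ω.length ≤ 3 ^ (2 * J) := pow_le_pow_right₀ (by norm_num) h1
  have h8 : 0 ≤ η * s + |mean G q h| := by positivity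
  have h9 := mul_le_mul_of_nonneg_right h7 h8
  have h10 : 0 ≤ 3 ^ (2 * J) * (η * s + |mean G q h|) := by positivity
  rw [e]
  refine (abs_add_le _ _).trans ?_
  push_cast at h6
  nlinarith

end

end Vale.Agent.P046
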